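import Vale.Agent.P097.H202.PenA8
import Vale.Agent.P097.H43.Ch

/-! # P097 / RAT-A: the pencil Hamiltonian of an integrable table -/

set_option linter.all false

open Complex Metric Filter Topology Set
open scoped ComplexConjugate

namespace Vale.Agent.P097.H202

open Vale.Agent.P097.TA Vale.Agent.P097.H402.Rat

/-- **RAT-A** -/
theorem pa : PA :=
  pa_of_chords (fun hκ dR Rp Rpos => H43.chord_unique hκ dR Rp Rpos)
    (fun dH _ _ _ h1 h2 hx h => H43.chord_of_KK dH h1 h2 hx h)

end Vale.Agent.P097.H202
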