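import Vale.Agent.P097.H202.Lines

set_option linter.all false

/-! # P097 : complex lines of the leaves, main theorem -/

open Complex Metric Filter Topology Set
open scoped ComplexConjugate
open Vale.Agent.P097.TA

namespace Vale.Agent.P097.H202

/-- Complex lines of the leaves of a table near the boundary.  `α t w` = direction (normal angle),
`p t w` = support number of the line with phase `t` and rotation number `w`; `H` = holomorphic
extension of the support function of the table, `Φ` = normal angle as a function of the Lazutkin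
coordinate, `J` = Jacobian of the line coordinates. -/
structure Lines (κ Λ : ℝ) (H Φ : ℂ → ℂ) (r e : ℝ) (α p : ℂ → ℂ → ℂ) (J : ℂ → ℂ) : Prop where
  hr : 0 < r
  he : 0 < e
  her : e ≤ r
  jα : JD α (WW 0 r e)
  jp : JD p (WW 0 r e)
  αper : ∀ t w : ℂ, (t, w) ∈ WW 0 r e → α (t + 1) w = α t w + 2 * Real.pi
  pper : ∀ t w : ℂ, (t, w) ∈ WW 0 r e → p (t + 1) w = p t w
  αev : ∀ t w : ℂ, (t, w) ∈ WW 0 r e → α t (-w) = α t w
  pev : ∀ t w : ℂ, (t, w) ∈ WW 0 r e → p t (-w) = p t w
  αre : ∀ t w : ℂ, (t, w) ∈ WW 0 r e → α (conj t) (conj w) = conj (α t w)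
  pre : ∀ t w : ℂ, (t, w) ∈ WW 0 r e → p (conj t) (conj w) = conj (p t w)
  mem : ∀ t w : ℂ, (t, w) ∈ WW 0 r e → α t w ∈ Str (κ / 2)
  αzero : ∀ t : ℂ, |t.im| < r → α t 0 = Φ t
  pzero : ∀ t : ℂ, |t.im| < r → p t 0 = H (Φ t)
  sum : ∀ t w : ℂ, (t, w) ∈ WW (1 / 2) r e →
    p (t + w / 2) w + p (t - w / 2) w = 2 * H ((α (t + w / 2) w + α (t - w / 2) w) / 2) *
      Complex.cos ((α (t + w / 2) w - α (t - w / 2) w) / 2)
  diff : ∀ t w : ℂ, (t, w) ∈ WW (1 / 2) r e →
    p (t + w / 2) w - p (t - w / 2) w = 2 * deriv H ((α (t + w / 2) w + α (t - w / 2) w) / 2) *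
      Complex.sin ((α (t + w / 2) w - α (t - w / 2) w) / 2)
  jJ : DifferentiableOn ℂ J (ball 0 e)
  brk : ∀ t w : ℂ, (t, w) ∈ WW 0 r e → br α p t w = J w
  J0 : J 0 = 0
  J' : HasDerivAt J (-(Λ : ℂ) ^ 3 / 4) 0
  Jodd : ∀ w : ℂ, ‖w‖ < e → J (-w) = -J w
  Jne : ∀ w : ℂ, ‖w‖ < e → w ≠ 0 → J w ≠ 0

variable {h : ℝ → ℝ} {κ ρ Λ L : ℝ} {H HH lam Φ : ℂ → ℂ} {l φ : ℝ → ℝ}

/-- `br` against a function `K (a, c)` of two variables -/
theorem br_two {S T : Set (ℂ × ℂ)} (hS : IsOpen S) (hT : IsOpen T) {K a c : ℂ → ℂ → ℂ}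
    (jK : JD K T) (ja : JD a S) (jc : JD c S) {x w : ℂ} (h : (x, w) ∈ S)
    (hm : (a x w, c x w) ∈ T) :
    br a (fun x w => K (a x w) (c x w)) x w = de K (a x w) (c x w) * br a c x w := by
  have h1 := jK.hasDerivAt_comp hT (u := fun t => a t w) (v := fun t => c t w) (t := x)
    (ja.hasDerivAt_x hS h) (jc.hasDerivAt_x hS h) hm
  have h2 := jK.hasDerivAt_comp hT (u := fun t => a x t) (v := fun t => c x t) (t := w)
    (ja.hasDerivAt_e hS h) (jc.hasDerivAt_e hS h) hm
  have e1 : dx (fun x w => K (a x w) (c x w)) x w = _ := h1.deriv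
  have e2 : de (fun x w => K (a x w) (c x w)) x w = _ := h2.deriv
  rw [br, br, e1, e2]
  ring

theorem exists_lines (T : LD h κ ρ Λ L H HH lam Φ l φ) {r₁ e₁ : ℝ} {α : ℂ → ℂ → ℂ} (hrρ : r₁ ≤ ρ)
    (A : AL κ H Φ r₁ e₁ α) : ∃ (r e : ℝ) (J : ℂ → ℂ), r ≤ r₁ ∧ e ≤ e₁ ∧
      Lines κ Λ H Φ r e α (fun t w => KK H (α t w) (α (t + w) w)) J ∧
      ∀ t w : ℂ, (t, w) ∈ WW 0 r e → J w =
        -((H ((α t w + α (t + w) w) / 2) + deriv (deriv H) ((α t w + α (t + w) w) / 2)) *
          Complex.sin ((α (t + w) w - α t w) / 2)) / 2 * br α (fun t w => α (t + w) w) t w := by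
  have hκ := T.κ0
  have hΛ := T.Λ0
  have hr₁ := A.hr
  have he₁ := A.he
  set p : ℂ → ℂ → ℂ := fun t w => KK H (α t w) (α (t + w) w) with hp
  set α' : ℂ → ℂ → ℂ := fun t w => α (t + w) w with hα'
  -- the working domain
  set r₂ : ℝ := r₁ / 2 with hr₂
  set e₂ : ℝ := min e₁ (min (r₁ / 16) 1) with he₂
  have hr₂0 : 0 < r₂ := by positivity
  have he₂0 : 0 < e₂ := by positivity
  have he₂e : e₂ ≤ e₁ := min_le_left _ _
  have he₂r : e₂ ≤ r₁ / 16 := (min_le_right _ _).trans (min_le_left _ _)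
  have he₂1 : e₂ ≤ 1 := (min_le_right _ _).trans (min_le_right _ _)
  set S := WW 0 r₂ e₂ with hS
  have oS : IsOpen S := isOpen_WW _ _ _
  have o1 : IsOpen (WW 0 r₁ e₁) := isOpen_WW _ _ _
  have him : ∀ {t w : ℂ}, (t, w) ∈ S → |t.im| < r₂ := fun h => by simpa using h.2
  have hin : ∀ {t w : ℂ} (s : ℂ), (t, w) ∈ S → ‖s‖ ≤ 3 → (t + s * w, w) ∈ WW 0 r₁ e₁ := by
    intro t w s h hs
    have h1 : ‖w‖ < e₂ := h.1
    have h2 := him h
    refine ⟨lt_of_lt_of_le h1 he₂e, ?_⟩
    have h3 := abs_im_le_norm (s * w)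
    rw [norm_mul] at h3
    have h4 : ‖s‖ * ‖w‖ ≤ 3 * e₂ := mul_le_mul hs h1.le (norm_nonneg _) (by norm_num)
    have h5 := abs_add_le t.im (s * w).im
    simp only [add_im, zero_mul, add_zero]
    linarith
  have hin0 : ∀ {t w : ℂ}, (t, w) ∈ S → (t, w) ∈ WW 0 r₁ e₁ := by
    intro t w h
    have := hin 0 h (by simp)
    simpa using this
  have hin1 : ∀ {t w : ℂ}, (t, w) ∈ S → (t + w, w) ∈ WW 0 r₁ e₁ := by
    intro t w h
    have := hin 1 h (by simp)
    simpa using this
  have hin2 : ∀ {t w : ℂ}, (t, w) ∈ S → (t + w + w, w) ∈ WW 0 r₁ e₁ := by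
    intro t w h
    have := hin 2 h (by rw [show ‖(2 : ℂ)‖ = 2 by simp]; norm_num)
    rwa [show t + 2 * w = t + w + w by ring] at this
  have hinm : ∀ {t w : ℂ}, (t, w) ∈ S → (t - w, w) ∈ WW 0 r₁ e₁ := by
    intro t w h
    have := hin (-1) h (by simp)
    rwa [show t + -1 * w = t - w by ring] at this
  have hel : ∀ {t w : ℂ}, (t, w) ∈ S → (t, w) ∈ WW 1 r₁ e₁ := by
    intro t w h
    have h1 : ‖w‖ < e₂ := h.1
    have h2 := him h
    have h3 := abs_im_le_norm w
    exact ⟨lt_of_lt_of_le h1 he₂e, by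
      simp only [one_mul]
      linarith⟩
  have hel1 : ∀ {t w : ℂ}, (t, w) ∈ S → (t + w, w) ∈ WW 1 r₁ e₁ := by
    intro t w h
    have h1 : ‖w‖ < e₂ := h.1
    have h2 := him h
    have h3 := abs_im_le_norm w
    have h4 := abs_add_le t.im w.im
    exact ⟨lt_of_lt_of_le h1 he₂e, by
      simp only [one_mul, add_im]
      linarith⟩
  have memS : ∀ {t w : ℂ}, (t, w) ∈ WW 0 r₁ e₁ → α t w ∈ Str κ :=
    fun h => Str_mono (by linarith) (A.mem _ _ h)
  have mPD : ∀ {t w : ℂ}, (t, w) ∈ S → (α t w, α' t w) ∈ PD κ :=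
    fun h => ⟨memS (hin0 h), memS (hin1 h)⟩
  have jα : JD α S := A.jα.mono fun q hq => hin0 hq
  have jα' : JD α' S := by
    have := JD_shear (S := S) A.jα 1 fun x w h => hin 1 h (by simp)
    simpa only [one_mul] using this
  have jp : JD p S := JD.comp (JD_KK T.dH) jα jα' fun _ _ h => mPD h
  -- the larger set on which `p` is holomorphic, for the shear
  have jp1 : JD p {q : ℂ × ℂ | (q.1, q.2) ∈ WW 0 r₁ e₁ ∧ (q.1 + q.2, q.2) ∈ WW 0 r₁ e₁} := by
    refine JD.comp (JD_KK T.dH) (A.jα.mono fun q hq => hq.1) ?_ fun _ _ h => ⟨memS h.1, memS h.2⟩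
    have := JD_shear (S := {q : ℂ × ℂ | (q.1, q.2) ∈ WW 0 r₁ e₁ ∧ (q.1 + q.2, q.2) ∈ WW 0 r₁ e₁})
      A.jα 1 fun x w h => by simpa using h.2
    simpa only [one_mul] using this
  have oS1 : IsOpen {q : ℂ × ℂ | (q.1, q.2) ∈ WW 0 r₁ e₁ ∧ (q.1 + q.2, q.2) ∈ WW 0 r₁ e₁} := by
    have c1 : Continuous fun q : ℂ × ℂ => (q.1, q.2) := by fun_prop
    have c2 : Continuous fun q : ℂ × ℂ => (q.1 + q.2, q.2) := by fun_prop
    exact (o1.preimage c1).inter (o1.preimage c2)
  have mem1 : ∀ {t w : ℂ}, (t, w) ∈ S → (t + 1 * w, w) ∈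
      {q : ℂ × ℂ | (q.1, q.2) ∈ WW 0 r₁ e₁ ∧ (q.1 + q.2, q.2) ∈ WW 0 r₁ e₁} := by
    intro t w h
    rw [one_mul]
    exact ⟨hin1 h, hin2 h⟩
  set p' : ℂ → ℂ → ℂ := fun t w => p (t + w) w with hp'
  have jp' : JD p' S := by
    have := JD_shear (S := S) jp1 1 fun x w h => mem1 h
    simpa only [one_mul] using this
  -- the value of `p'` by the reflection law
  have p'eq : ∀ {t w : ℂ}, (t, w) ∈ S → p' t w = Kc H (α' t w) ((α t w + α' t w) / 2) := by
    intro t w h
    have h1 := A.el (t + w) w (hel1 h)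
    rw [add_sub_cancel_right] at h1
    exact h1.symm
  -- bracket relation
  have hbr : ∀ {t w : ℂ}, (t, w) ∈ S → br α p (t + w) w = br α p t w := by
    intro t w h
    set G : ℂ → ℂ → ℂ := fun t w => FF H HH (α t w) (α' t w) with hG
    have jG : JD G S := JD.comp (JD_FF T.dH T.dHH) jα jα' fun _ _ h => mPD h
    have jHα : JD (fun t w => H (α t w)) S := JD.comp_one T.dH jα fun _ _ h => (mPD h).1
    have jHα' : JD (fun t w => H (α' t w)) S := JD.comp_one T.dH jα' fun _ _ h => (mPD h).2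
    have hdx : ∀ t w, (t, w) ∈ S → dx G t w = (H (α' t w) - p' t w) * dx α' t w -
        (H (α t w) - p t w) * dx α t w := by
      intro t w h
      have h1 := (JD_FF T.dH T.dHH).hasDerivAt_comp (isOpen_PD κ) (u := fun t => α t w)
        (v := fun t => α' t w) (t := t) (jα.hasDerivAt_x oS h) (jα'.hasDerivAt_x oS h) (mPD h)
      have h2 : dx G t w = _ := h1.deriv
      rw [h2, dx_FF T.dH T.dHH (mPD h), de_FF T.dH T.dHH (mPD h), p'eq h]
      simp only [hp, KK, hα']
      ring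
    have hde : ∀ t w, (t, w) ∈ S → de G t w = (H (α' t w) - p' t w) * de α' t w -
        (H (α t w) - p t w) * de α t w := by
      intro t w h
      have h1 := (JD_FF T.dH T.dHH).hasDerivAt_comp (isOpen_PD κ) (u := fun w => α t w)
        (v := fun w => α' t w) (t := w) (jα.hasDerivAt_e oS h) (jα'.hasDerivAt_e oS h) (mPD h)
      have h2 : de G t w = _ := h1.deriv
      rw [h2, dx_FF T.dH T.dHH (mPD h), de_FF T.dH T.dHH (mPD h), p'eq h]
      simp only [hp, KK, hα']
      ring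
    have key := br_of_exact oS jG (A := fun t w => H (α' t w) - p' t w)
      (B := fun t w => H (α t w) - p t w) (jHα'.sub jp') (jHα.sub jp) jα' jα hdx hde h
    have dHat : ∀ z ∈ Str κ, HasDerivAt H (deriv H z) z := fun z hz =>
      (T.dH.differentiableAt ((isOpen_Str κ).mem_nhds hz)).hasDerivAt
    have hsub : ∀ {f g k : ℂ → ℂ → ℂ}, JD g S → JD k S →
        br f (fun t w => g t w - k t w) t w = br f g t w - br f k t w := by
      intro f g k hg hk
      rw [br, br, br, dx_sub oS hg hk h, de_sub oS hg hk h]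
      ring
    rw [hsub jHα' jp', hsub jHα jp, br_comp oS jα' h (dHat _ (mPD h).2),
      br_comp oS jα h (dHat _ (mPD h).1)] at key
    have e1 : br α' p' t w = br α p (t + w) w := by
      have h1 := br_shear (f := α) (g := p) oS1 (A.jα.mono fun q hq => hq.1) jp1 (mem1 h)
      simpa only [one_mul] using h1
    rw [← e1]
    linear_combination -key
  -- exact formula
  have hform : ∀ {t w : ℂ}, (t, w) ∈ S → br α p t w =
      -((H ((α t w + α' t w) / 2) + deriv (deriv H) ((α t w + α' t w) / 2)) *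
          Complex.sin ((α' t w - α t w) / 2)) / 2 * br α α' t w := by
    intro t w h
    rw [hp, br_two oS (isOpen_PD κ) (JD_KK T.dH) jα jα' h (mPD h), de_KK T.dH (mPD h)]
  -- `br α p` is independent of the phase
  set B : ℂ → ℂ → ℂ := br α p with hB
  have jB : JD B S := JD_br oS jα jp
  have oneS : ∀ {t w : ℂ}, (t, w) ∈ S → (t + 1, w) ∈ S := fun h => WW_one h
  have pper : ∀ {t w : ℂ}, (t, w) ∈ S → p (t + 1) w = p t w := by
    intro t w h
    have h1 : α (t + 1 + w) w = α (t + w) w + 2 * Real.pi := by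
      rw [show t + 1 + w = t + w + 1 by ring]
      exact A.αper _ _ (hin1 h)
    have h3 := A.αper _ _ (hin0 h)
    have hm := PD_mid (mPD h)
    simp only [hp, KK, Kc]
    rw [h1, h3, show (α t w + 2 * (Real.pi : ℂ) + (α (t + w) w + 2 * Real.pi)) / 2
      = (α t w + α (t + w) w) / 2 + 2 * Real.pi by ring, T.Hp _ hm,
      show (α t w + α (t + w) w) / 2 + 2 * (Real.pi : ℂ) - (α t w + 2 * Real.pi)
      = (α t w + α (t + w) w) / 2 - α t w by ring]
    have h4 : deriv H ((α t w + α (t + w) w) / 2 + 2 * Real.pi)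
        = deriv H ((α t w + α (t + w) w) / 2) := by
      have h5 := per_deriv (κ := κ) (P := 2 * Real.pi) (f := H) (fun z hz => by
        have := T.Hp z hz
        push_cast
        exact this) _ hm
      push_cast at h5
      exact h5
    rw [h4]
  have dper : ∀ {t w : ℂ}, (t, w) ∈ S → dx α (t + 1) w = dx α t w ∧ de α (t + 1) w = de α t w := by
    intro t w h
    have c1 : (fun s => α (s + 1) w) =ᶠ[𝓝 t] fun s => α s w + 2 * Real.pi := by
      have hc : Continuous fun s : ℂ => (s, w) := by fun_prop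
      filter_upwards [(oS.preimage hc).mem_nhds h] with s hs
      exact A.αper _ _ (hin0 hs)
    have c2 : (fun s => α (t + 1) s) =ᶠ[𝓝 w] fun s => α t s + 2 * Real.pi := by
      have hc : Continuous fun s : ℂ => (t, s) := by fun_prop
      filter_upwards [(oS.preimage hc).mem_nhds h] with s hs
      exact A.αper _ _ (hin0 hs)
    have h1 := c1.deriv_eq
    have h2 := c2.deriv_eq
    rw [deriv_add_const] at h1 h2
    have h3 := deriv_comp_add_const (f := fun s => α s w) (a := (1 : ℂ)) (x := t)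
    exact ⟨h3.symm.trans h1, h2⟩
  have perp : Per p S := fun t w h => pper h
  have perB : Per B S := by
    intro t w h
    have h1 := perp.dx oS t w h
    have h2 := perp.de oS t w h
    have h3 := dper h
    simp only [hB, br]
    rw [h1, h2, h3.1, h3.2]
  have hDl : Bd (Dl B) 0 (WW (0 + 1 / 2) r₂ e₂) := by
    intro t w h
    rw [zero_add] at h
    have hmS : (t - w / 2, w) ∈ S := WW_sub_half (by simpa using h)
    have := hbr hmS
    rw [show t - w / 2 + w = t + w / 2 by ring] at this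
    rw [Dl, this, sub_self, norm_zero]
  -- final domain, first version
  set r : ℝ := r₂ / 2 with hr
  set e₃ : ℝ := e₂ / 2 with he₃
  have hr0 : 0 < r := by positivity
  have he₃0 : 0 < e₃ := by positivity
  have hJ : ∀ {t w : ℂ}, (t, w) ∈ WW 0 r e₃ → B t w = mn B w := by
    intro t w h
    have h1 := TA.H900.L1_sharp (g := B) (a := 0) (r := r₂) (e := e₂) (r' := r) (e' := e₃) (μ := 0)
      le_rfl (by norm_num) (by linarith) (by linarith) (by linarith) (by linarith) le_rfl jB perB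
      hDl t w h
    rw [mul_zero, norm_le_zero_iff, sub_eq_zero] at h1
    exact h1
  set J : ℂ → ℂ := mn B with hJdef
  have sub3 : WW 0 r e₃ ⊆ S := WW_mono le_rfl (by linarith) (by linarith)
  have jJ : DifferentiableOn ℂ J (ball 0 e₃) := by
    have h1 := differentiableOn_mn (jB.mono sub3)
    rwa [BB_eq_ball hr0] at h1
  -- values at `w = 0`
  have z0 : ((0 : ℂ), (0 : ℂ)) ∈ WW 0 r e₃ := ⟨by simpa using he₃0, by simpa using hr0⟩
  have z0S : ((0 : ℂ), (0 : ℂ)) ∈ S := sub3 z0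
  have wmem : ∀ {w : ℂ}, ‖w‖ < e₃ → ((0 : ℂ), w) ∈ WW 0 r e₃ := by
    intro w hw
    exact ⟨hw, by simpa using hr0⟩
  have hform0 : ∀ {w : ℂ}, ‖w‖ < e₃ → J w =
      Complex.sin ((α' 0 w - α 0 w) / 2) *
        (-(H ((α 0 w + α' 0 w) / 2) + deriv (deriv H) ((α 0 w + α' 0 w) / 2)) / 2 * br α α' 0 w) := by
    intro w hw
    rw [← hJ (wmem hw), hform (sub3 (wmem hw))]
    ring
  have hα'0 : α' 0 0 = α 0 0 := by rw [hα']; simp
  have J0 : J 0 = 0 := by
    rw [hform0 (by simpa using he₃0), hα'0]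
    simp
  -- the derivative of `α` at the origin
  have hΦ0 : (0 : ℂ) ∈ Str ρ := by simpa [mem_Str] using T.ρ0
  have hdΦ := T.dΦ 0 hΦ0
  have dxα0 : dx α 0 0 = Λ / lam (Φ 0) := by
    have c1 : (fun s => α s 0) =ᶠ[𝓝 (0 : ℂ)] Φ := by
      filter_upwards [(isOpen_Str r₁).mem_nhds (show (0 : ℂ) ∈ Str r₁ by simpa [mem_Str] using hr₁)]
        with s hs
      exact A.zero s hs
    have h1 := c1.deriv_eq
    rw [hdΦ.deriv] at h1
    exact h1
  have deα0 : de α 0 0 = 0 := by
    have h1 := jα.hasDerivAt_e oS z0S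
    have h2 : HasDerivAt (fun w => α 0 (-w)) (-(de α 0 0)) 0 := by
      have h3 : HasDerivAt (fun t => α 0 t) (de α 0 0) (-(0 : ℂ)) := by simpa using h1
      have h4 := h3.comp (0 : ℂ) (hasDerivAt_neg (0 : ℂ))
      rw [mul_neg, mul_one] at h4
      exact h4
    have c1 : (fun w => α 0 (-w)) =ᶠ[𝓝 (0 : ℂ)] fun w => α 0 w := by
      have hc : Continuous fun s : ℂ => ((0 : ℂ), s) := by fun_prop
      filter_upwards [(oS.preimage hc).mem_nhds z0S] with s hs
      exact A.αev _ _ (hin0 hs)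
    have h5 := (h2.congr_of_eventuallyEq c1.symm).unique h1
    have h6 : de α 0 0 + de α 0 0 = 0 := by linear_combination -h5
    exact add_self_eq_zero.1 h6
  have dxα'0 : dx α' 0 0 = dx α 0 0 := by
    have h1 := dx_shear (S := S) o1 A.jα (s := 1) (x := 0) (w := 0) (hin 1 z0S (by simp))
    simpa only [one_mul, add_zero, zero_add] using h1
  have deα'0 : de α' 0 0 = dx α 0 0 := by
    have h1 := de_shear o1 A.jα (s := 1) (x := 0) (w := 0) (hin 1 z0S (by simp))
    simp only [one_mul, add_zero, zero_add] at h1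
    rw [deα0, add_zero] at h1
    exact h1
  have hJ' : HasDerivAt J (-(Λ : ℂ) ^ 3 / 4) 0 := by
    have g1 := ((jα'.hasDerivAt_e oS z0S).sub (jα.hasDerivAt_e oS z0S)).div_const 2
    have g2 := (Complex.hasDerivAt_sin ((α' 0 0 - α 0 0) / 2)).comp (0 : ℂ) g1
    -- differentiability of the second factor
    have jr : JD (fun t w => H ((α t w + α' t w) / 2)) S :=
      JD.comp (F := fun a c => H ((a + c) / 2)) (JD_mid T.dH) jα jα' fun _ _ h => mPD h
    have jr2 : JD (fun t w => deriv (deriv H) ((α t w + α' t w) / 2)) S :=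
      JD.comp (F := fun a c => deriv (deriv H) ((a + c) / 2))
        (JD_mid ((T.dH.deriv (isOpen_Str κ)).deriv (isOpen_Str κ))) jα jα' fun _ _ h => mPD h
    have jF : JD (fun t w => -(H ((α t w + α' t w) / 2) + deriv (deriv H) ((α t w + α' t w) / 2)) / 2
        * br α α' t w) S :=
      (((jr.add jr2).neg).div (JD.const 2) fun _ _ _ => two_ne_zero).mul (JD_br oS jα jα')
    have g3 := g2.mul (jF.hasDerivAt_e oS z0S)
    have g4 : HasDerivAt J _ 0 := g3.congr_of_eventuallyEq (by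
      filter_upwards [ball_mem_nhds (0 : ℂ) he₃0] with w hw
      exact hform0 (by simpa using hw))
    refine g4.congr_deriv ?_
    have e1 : α 0 0 = Φ 0 := A.zero 0 (by simpa using hr₁)
    have e2 := T.lam3 _ (T.Φm' hΦ0)
    have e3 := T.lam0 _ (T.Φm' hΦ0)
    have e4 : (Complex.sin ∘ fun x => ((fun t => α' 0 t) - fun t => α 0 t) x / 2) 0 = 0 := by
      simp only [Function.comp, Pi.sub_apply]
      rw [hα'0, sub_self, zero_div, Complex.sin_zero]
    rw [e4, hα'0, sub_self, zero_div, Complex.cos_zero, deα'0, deα0, zero_mul,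
      add_zero, br, dxα'0, deα'0, deα0, dxα0, show (α 0 0 + α 0 0) / 2 = Φ 0 by rw [e1]; ring, ← e2]
    field_simp
    ring
  have Jodd : ∀ w : ℂ, ‖w‖ < e₃ → J (-w) = -J w := by
    intro w hw
    have hw' : ‖-w‖ < e₃ := by rwa [norm_neg]
    rw [← hJ (wmem hw), ← hJ (wmem hw')]
    -- derivatives of even functions
    have hmS := sub3 (wmem hw)
    have hmS' := sub3 (wmem hw')
    have pev : ∀ {t w : ℂ}, (t, w) ∈ S → p t (-w) = p t w := by
      intro t w h
      have h1 := A.el t w (hel h)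
      simp only [hp, KK]
      rw [← sub_eq_add_neg, A.αev _ _ (hin0 h), A.αev _ _ (hinm h), ← h1, add_comm (α t w)]
    have ev : ∀ {f : ℂ → ℂ → ℂ}, JD f S → (∀ {t w : ℂ}, (t, w) ∈ S → f t (-w) = f t w) →
        dx f 0 (-w) = dx f 0 w ∧ de f 0 (-w) = -de f 0 w := by
      intro f jf hf
      have c1 : (fun s => f s (-w)) =ᶠ[𝓝 (0 : ℂ)] fun s => f s w := by
        have hc : Continuous fun s : ℂ => (s, w) := by fun_prop
        filter_upwards [(oS.preimage hc).mem_nhds hmS] with s hs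
        exact hf hs
      have c2 : (fun s => f 0 (-s)) =ᶠ[𝓝 w] fun s => f 0 s := by
        have hc : Continuous fun s : ℂ => ((0 : ℂ), s) := by fun_prop
        filter_upwards [(oS.preimage hc).mem_nhds hmS] with s hs
        exact hf hs
      refine ⟨c1.deriv_eq, ?_⟩
      have h1 := jf.hasDerivAt_e oS hmS'
      have h2 := h1.comp w (hasDerivAt_neg w)
      have h3 : de f 0 w = de f 0 (-w) * -1 := (h2.congr_of_eventuallyEq c2.symm).deriv
      rw [h3]
      ring
    obtain ⟨a1, a2⟩ := ev jα fun h => A.αev _ _ (hin0 h)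
    obtain ⟨b1, b2⟩ := ev jp pev
    simp only [hB, br]
    rw [a1, a2, b1, b2]
    ring
  -- nonvanishing near the origin
  obtain ⟨e₄, he₄, hne⟩ : ∃ e₄ : ℝ, 0 < e₄ ∧ ∀ w : ℂ, ‖w‖ < e₄ → w ≠ 0 → J w ≠ 0 := by
    have hc : (-(Λ : ℂ) ^ 3 / 4) ≠ 0 := by
      have : (Λ : ℂ) ≠ 0 := by exact_mod_cast hΛ.ne'
      exact div_ne_zero (neg_ne_zero.2 (pow_ne_zero _ this)) (by norm_num)
    have h1 := hJ'.eventually_ne (c := 0) hc
    rw [eventually_nhdsWithin_iff, Metric.eventually_nhds_iff] at h1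
    obtain ⟨ε, hε, h2⟩ := h1
    refine ⟨ε, hε, fun w hw hw0 => ?_⟩
    exact h2 (by simpa using hw) hw0
  set e : ℝ := min e₃ e₄ with he
  have he0 : 0 < e := by positivity
  have hee₃ : e ≤ e₃ := min_le_left _ _
  have subF : WW 0 r e ⊆ WW 0 r e₃ := WW_mono le_rfl le_rfl hee₃
  have subS : WW 0 r e ⊆ S := subF.trans sub3
  refine ⟨r, e, J, by linarith, by linarith, ⟨hr0, he0, by linarith, jα.mono subS, jp.mono subS,
    fun t w h => A.αper _ _ (hin0 (subS h)), fun t w h => pper (subS h),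
    fun t w h => A.αev _ _ (hin0 (subS h)), ?_, fun t w h => A.αre _ _ (hin0 (subS h)), ?_,
    fun t w h => A.mem _ _ (hin0 (subS h)), fun t ht => A.zero t (by linarith), ?_, ?_, ?_,
    jJ.mono (ball_subset_ball hee₃), fun t w h => hJ (subF h), J0, hJ',
    fun w hw => Jodd w (lt_of_lt_of_le hw hee₃), fun w hw hw0 =>
      hne w (lt_of_lt_of_le hw (min_le_right _ _)) hw0⟩, fun t w h => ?_⟩
  · intro t w h
    have h1 := A.el t w (hel (subS h))
    simp only [hp, KK]
    rw [← sub_eq_add_neg, A.αev _ _ (hin0 (subS h)), A.αev _ _ (hinm (subS h)), ← h1,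
      add_comm (α t w)]
  · intro t w h
    have hS' := subS h
    simp only [hp, KK, Kc]
    have e1 : conj t + conj w = conj (t + w) := by rw [map_add]
    have hm := PD_mid (mPD hS')
    have e2 : (conj (α t w) + conj (α (t + w) w)) / 2 = conj ((α t w + α (t + w) w) / 2) := by
      rw [map_div₀, map_add, LD.conj_num.1]
    have dHc : ∀ z ∈ Str κ, deriv H (conj z) = conj (deriv H z) := by
      refine conj_strip hκ (T.dH.deriv (isOpen_Str κ)) fun x => ?_
      rw [(deriv_ext hκ T.dH T.Hr x).2, ofReal_im]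
    rw [e1, A.αre _ _ (hin0 hS'), A.αre _ _ (hin1 hS'), e2, T.Hc _ hm, dHc _ hm, ← map_sub,
      Complex.cos_conj, Complex.sin_conj, ← map_mul, ← map_mul, ← map_sub]
  · intro t ht
    simp only [hp, KK, Kc, add_zero]
    rw [A.zero t (by linarith), show (Φ t + Φ t) / 2 = Φ t by ring, sub_self, Complex.cos_zero,
      Complex.sin_zero, mul_one, mul_zero, sub_zero]
  · intro t w h
    have hmS : (t - w / 2, w) ∈ S := subS (WW_sub_half (by simpa using h))
    have e0 : t - w / 2 + w = t + w / 2 := by ring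
    have h1 := p'eq hmS
    simp only [hp', hα', e0] at h1
    have h2 : p (t - w / 2) w = Kc H (α (t - w / 2) w)
        ((α (t - w / 2) w + α (t + w / 2) w) / 2) := by
      simp only [hp, KK, e0]
    rw [h1, h2, Kc, Kc, add_comm (α (t + w / 2) w) (α (t - w / 2) w),
      show (α (t - w / 2) w + α (t + w / 2) w) / 2 - α (t + w / 2) w
        = -((α (t + w / 2) w - α (t - w / 2) w) / 2) by ring,
      show (α (t - w / 2) w + α (t + w / 2) w) / 2 - α (t - w / 2) w
        = (α (t + w / 2) w - α (t - w / 2) w) / 2 by ring, Complex.cos_neg, Complex.sin_neg]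
    ring
  · intro t w h
    have hmS : (t - w / 2, w) ∈ S := subS (WW_sub_half (by simpa using h))
    have e0 : t - w / 2 + w = t + w / 2 := by ring
    have h1 := p'eq hmS
    simp only [hp', hα', e0] at h1
    have h2 : p (t - w / 2) w = Kc H (α (t - w / 2) w)
        ((α (t - w / 2) w + α (t + w / 2) w) / 2) := by
      simp only [hp, KK, e0]
    rw [h1, h2, Kc, Kc, add_comm (α (t + w / 2) w) (α (t - w / 2) w),
      show (α (t - w / 2) w + α (t + w / 2) w) / 2 - α (t + w / 2) w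
        = -((α (t + w / 2) w - α (t - w / 2) w) / 2) by ring,
      show (α (t - w / 2) w + α (t + w / 2) w) / 2 - α (t - w / 2) w
        = (α (t + w / 2) w - α (t - w / 2) w) / 2 by ring, Complex.cos_neg, Complex.sin_neg]
    ring
  · rw [← hJ (subF h), hform (subS h)]

end Vale.Agent.P097.H202
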