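import Vale.Agent.P097.H202.T2

/-! # P097 / TRIG-T1, local lemmas, part 1: logarithms, roots, the local normal form -/

set_option linter.all false

open Complex Metric Filter Topology Set
open scoped ComplexConjugate
open Vale.Agent.P097.TA Vale.Agent.P097.H536

namespace Vale.Agent.P097.H202

/-- a holomorphic function with zero derivative is constant on convex open sets -/
theorem const_of_deriv_zero {U : Set ℂ} (hU : IsOpen U) (hc : Convex ℝ U) {f : ℂ → ℂ}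
    (hf : ∀ z ∈ U, HasDerivAt f 0 z) {x y : ℂ} (hx : x ∈ U) (hy : y ∈ U) : f x = f y := by
  have h2 := hc.norm_image_sub_le_of_norm_hasDerivWithin_le
    (f := f) (f' := fun _ => 0) (C := 0)
    (fun w hw => (hf w hw).hasDerivWithinAt) (fun w _ => by simp) hy hx
  rw [zero_mul, norm_le_zero_iff, sub_eq_zero] at h2
  exact h2

/-- logarithm on convex open sets -/
theorem exists_log_convex {U : Set ℂ} (hU : IsOpen U) (hc : Convex ℝ U) {f : ℂ → ℂ}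
    (hf : DifferentiableOn ℂ f U) (h0 : ∀ z ∈ U, f z ≠ 0) :
    ∃ g : ℂ → ℂ, DifferentiableOn ℂ g U ∧ ∀ z ∈ U, Complex.exp (g z) = f z := by
  rcases U.eq_empty_or_nonempty with rfl | ⟨c, hcU⟩
  · exact ⟨0, by simp⟩
  have hd : DifferentiableOn ℂ (fun z => deriv f z / f z) U := (hf.deriv hU).div hf h0
  obtain ⟨P, hP⟩ := prim_convex hU hc hd
  have h1 : ∀ z ∈ U, HasDerivAt (fun z => f z * Complex.exp (-P z)) 0 z := by
    intro z hz
    have e1 := (hf.differentiableAt (hU.mem_nhds hz)).hasDerivAt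
    have e2 := (hP z hz).neg.cexp
    refine (e1.mul e2).congr_deriv ?_
    have := h0 z hz
    field_simp
    ring
  have h2 : ∀ z ∈ U, f z * Complex.exp (-P z) = f c * Complex.exp (-P c) := fun z hz =>
    const_of_deriv_zero hU hc h1 hz hcU
  refine ⟨fun z => P z - P c + Complex.log (f c), ?_, ?_⟩
  · intro z hz
    exact (((hP z hz).sub_const _).add_const _).differentiableAt.differentiableWithinAt
  · intro z hz
    rw [Complex.exp_add, Complex.exp_log (h0 c hcU), Complex.exp_sub]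
    have h3 := h2 z hz
    rw [Complex.exp_neg, Complex.exp_neg] at h3
    have e1 := Complex.exp_ne_zero (P z)
    have e2 := Complex.exp_ne_zero (P c)
    field_simp at h3 ⊢
    linear_combination -h3

/-- roots on convex open sets -/
theorem exists_root_convex {U : Set ℂ} (hU : IsOpen U) (hc : Convex ℝ U) {f : ℂ → ℂ}
    (hf : DifferentiableOn ℂ f U) (h0 : ∀ z ∈ U, f z ≠ 0) {n : ℕ} (hn : n ≠ 0) :
    ∃ g : ℂ → ℂ, DifferentiableOn ℂ g U ∧ ∀ z ∈ U, g z ^ n = f z := by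
  obtain ⟨g, hg, hgf⟩ := exists_log_convex hU hc hf h0
  refine ⟨fun z => Complex.exp (g z / n), ?_, ?_⟩
  · exact (hg.div_const _).cexp
  · intro z hz
    rw [← Complex.exp_nat_mul, mul_div_cancel₀ _ (by exact_mod_cast hn : (n : ℂ) ≠ 0), hgf z hz]

/-- differentiation of a parameter integral -/
theorem hasDerivAt_par {S : ℂ → ℂ} {r : ℝ} (hS : DifferentiableOn ℂ S (ball 0 r)) {w : ℝ → ℂ}
    (hw : Continuous w) {η : ℂ} (hη : ‖η‖ < r) :
    HasDerivAt (fun η => ∫ t in (0 : ℝ)..1, w t * S ((t : ℂ) ^ 3 * η))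
      (∫ t in (0 : ℝ)..1, w t * (deriv S ((t : ℂ) ^ 3 * η) * (t : ℂ) ^ 3)) η := by
  obtain ⟨r', h1, h2⟩ := exists_between hη
  have hr' : 0 < r' := lt_of_le_of_lt (norm_nonneg _) h1
  have hdc : ContinuousOn (deriv S) (ball 0 r) := (hS.deriv isOpen_ball).continuousOn
  have hcb : closedBall (0 : ℂ) r' ⊆ ball 0 r := closedBall_subset_ball h2
  obtain ⟨M₂, hM₂⟩ := (isCompact_closedBall (0 : ℂ) r').exists_bound_of_continuousOn (hdc.mono hcb)
  obtain ⟨Mw, hMw⟩ := (isCompact_Icc (a := (0 : ℝ)) (b := 1)).exists_bound_of_continuousOn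
    hw.continuousOn
  have huI : Set.uIoc (0 : ℝ) 1 = Ioc 0 1 := Set.uIoc_of_le zero_le_one
  have hn3 : ∀ t ∈ Icc (0 : ℝ) 1, ‖(t : ℂ) ^ 3‖ ≤ 1 := by
    intro t ht
    rw [norm_pow, norm_real, Real.norm_eq_abs, abs_of_nonneg ht.1]
    exact pow_le_one₀ ht.1 ht.2
  have hmem : ∀ t ∈ Icc (0 : ℝ) 1, ∀ z : ℂ, ‖z‖ ≤ r' → (t : ℂ) ^ 3 * z ∈ closedBall (0 : ℂ) r' := by
    intro t ht z hz
    rw [mem_closedBall, dist_zero_right, norm_mul]
    have := hn3 t ht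
    nlinarith [norm_nonneg z]
  have hcont : ∀ z : ℂ, ‖z‖ ≤ r' →
      ContinuousOn (fun t : ℝ => w t * S ((t : ℂ) ^ 3 * z)) (Icc 0 1) := by
    intro z hz
    exact hw.continuousOn.mul
      (hS.continuousOn.comp (by fun_prop) (fun t ht => hcb (hmem t ht z hz)))
  have hcont' : ∀ z : ℂ, ‖z‖ ≤ r' →
      ContinuousOn (fun t : ℝ => w t * (deriv S ((t : ℂ) ^ 3 * z) * (t : ℂ) ^ 3)) (Icc 0 1) := by
    intro z hz
    exact hw.continuousOn.mul
      ((hdc.comp (by fun_prop) (fun t ht => hcb (hmem t ht z hz))).mul (by fun_prop))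
  have hnh : ball (0 : ℂ) r' ∈ 𝓝 η := isOpen_ball.mem_nhds (by simpa using h1)
  have key := intervalIntegral.hasDerivAt_integral_of_dominated_loc_of_deriv_le
    (μ := MeasureTheory.volume) (a := (0 : ℝ)) (b := 1)
    (F := fun (z : ℂ) (t : ℝ) => w t * S ((t : ℂ) ^ 3 * z))
    (F' := fun (z : ℂ) (t : ℝ) => w t * (deriv S ((t : ℂ) ^ 3 * z) * (t : ℂ) ^ 3))
    (x₀ := η) (s := ball (0 : ℂ) r') (bound := fun _ => Mw * M₂) hnh ?_ ?_ ?_ ?_ ?_ ?_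
  · exact key.2
  · filter_upwards [hnh] with z hz
    rw [huI]
    exact ((hcont z (by rw [mem_ball, dist_zero_right] at hz; exact hz.le)).mono
      Ioc_subset_Icc_self).aestronglyMeasurable measurableSet_Ioc
  · refine ContinuousOn.intervalIntegrable ?_
    rw [uIcc_of_le zero_le_one]
    exact hcont η h1.le
  · rw [huI]
    exact ((hcont' η h1.le).mono Ioc_subset_Icc_self).aestronglyMeasurable measurableSet_Ioc
  · refine Eventually.of_forall fun t ht z hz => ?_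
    rw [huI] at ht
    have ht' : t ∈ Icc (0 : ℝ) 1 := ⟨ht.1.le, ht.2⟩
    rw [mem_ball, dist_zero_right] at hz
    have b1 := hMw t ht'
    have b2 := hM₂ _ (hmem t ht' z hz.le)
    have b3 := hn3 t ht'
    have hMw0 : 0 ≤ Mw := (norm_nonneg _).trans b1
    have hM20 : 0 ≤ M₂ := (norm_nonneg _).trans b2
    rw [norm_mul, norm_mul]
    have b5 : ‖deriv S ((t : ℂ) ^ 3 * z)‖ * ‖(t : ℂ) ^ 3‖ ≤ M₂ := by
      calc _ ≤ M₂ * 1 := by gcongr
        _ = M₂ := mul_one _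
    gcongr
  · exact intervalIntegrable_const
  · refine Eventually.of_forall fun t ht z hz => ?_
    rw [huI] at ht
    have ht' : t ∈ Icc (0 : ℝ) 1 := ⟨ht.1.le, ht.2⟩
    rw [mem_ball, dist_zero_right] at hz
    have e2 : HasDerivAt (fun z : ℂ => (t : ℂ) ^ 3 * z) ((t : ℂ) ^ 3) z := by
      simpa using (hasDerivAt_id z).const_mul ((t : ℂ) ^ 3)
    have e3 := ((hS.differentiableAt (isOpen_ball.mem_nhds
      (hcb (hmem t ht' z hz.le)))).hasDerivAt).comp z e2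
    exact e3.const_mul (w t)

/-- solution of the Euler equation `(j + 3) / 3 e + η e' = S` -/
theorem euler_sol {S : ℂ → ℂ} {r : ℝ} (hr : 0 < r) (hS : DifferentiableOn ℂ S (ball 0 r)) (j : ℕ) :
    ∃ e : ℂ → ℂ, DifferentiableOn ℂ e (ball 0 r) ∧
      ∀ η : ℂ, ‖η‖ < r → ((j : ℂ) + 3) / 3 * e η + η * deriv e η = S η := by
  set e : ℂ → ℂ := fun η => ∫ t in (0 : ℝ)..1, (3 * (t : ℂ) ^ (j + 2)) * S ((t : ℂ) ^ 3 * η)
    with he
  have hw : Continuous fun t : ℝ => 3 * (t : ℂ) ^ (j + 2) := by fun_prop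
  have hde : ∀ η : ℂ, ‖η‖ < r → HasDerivAt e (∫ t in (0 : ℝ)..1,
      (3 * (t : ℂ) ^ (j + 2)) * (deriv S ((t : ℂ) ^ 3 * η) * (t : ℂ) ^ 3)) η :=
    fun η hη => hasDerivAt_par hS hw hη
  refine ⟨e, ?_, ?_⟩
  · intro η hη
    exact (hde η (by simpa using hη)).differentiableAt.differentiableWithinAt
  · intro η hη
    rw [(hde η hη).deriv]
    have hmem : ∀ t ∈ Icc (0 : ℝ) 1, (t : ℂ) ^ 3 * η ∈ ball (0 : ℂ) r := by
      intro t ht
      rw [mem_ball, dist_zero_right, norm_mul, norm_pow, norm_real, Real.norm_eq_abs,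
        abs_of_nonneg ht.1]
      have := pow_le_one₀ ht.1 ht.2 (n := 3)
      nlinarith [norm_nonneg η]
    have hdS : ∀ z ∈ ball (0 : ℂ) r, HasDerivAt S (deriv S z) z := fun z hz =>
      (hS.differentiableAt (isOpen_ball.mem_nhds hz)).hasDerivAt
    have h4 : ∀ t ∈ uIcc (0 : ℝ) 1, HasDerivAt (fun t : ℝ => (t : ℂ) ^ (j + 3) * S ((t : ℂ) ^ 3 * η))
        (((j : ℂ) + 3) / 3 * ((3 * (t : ℂ) ^ (j + 2)) * S ((t : ℂ) ^ 3 * η)) +
          η * ((3 * (t : ℂ) ^ (j + 2)) * (deriv S ((t : ℂ) ^ 3 * η) * (t : ℂ) ^ 3))) t := by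
      intro t ht
      rw [uIcc_of_le zero_le_one] at ht
      have e1 : HasDerivAt (fun t : ℂ => t ^ (j + 3) * S (t ^ 3 * η))
          ((((j + 3 : ℕ) : ℂ) * (t : ℂ) ^ (j + 2)) * S ((t : ℂ) ^ 3 * η)
            + (t : ℂ) ^ (j + 3) * (deriv S ((t : ℂ) ^ 3 * η) * (3 * (t : ℂ) ^ 2 * η))) (t : ℂ) := by
        have f1 := hasDerivAt_pow (j + 3) (t : ℂ)
        have f2 := (hasDerivAt_pow 3 (t : ℂ)).mul_const η
        have f3 := (hdS _ (hmem t ht)).comp (t : ℂ) f2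
        refine (f1.mul f3).congr_deriv ?_
        simp only [Function.comp, Nat.add_sub_cancel]
        norm_num
      have e2 := e1.comp_ofReal
      refine e2.congr_deriv ?_
      push_cast
      ring
    have c1 : ContinuousOn (fun t : ℝ => S ((t : ℂ) ^ 3 * η)) (Icc 0 1) :=
      hS.continuousOn.comp (by fun_prop) (fun t ht => hmem t ht)
    have c2 : ContinuousOn (fun t : ℝ => deriv S ((t : ℂ) ^ 3 * η)) (Icc 0 1) :=
      (hS.deriv isOpen_ball).continuousOn.comp (by fun_prop) (fun t ht => hmem t ht)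
    have h5 := intervalIntegral.integral_eq_sub_of_hasDerivAt h4 (by
      refine ContinuousOn.intervalIntegrable ?_
      rw [uIcc_of_le zero_le_one]
      exact (continuousOn_const.mul (hw.continuousOn.mul c1)).add
        (continuousOn_const.mul (hw.continuousOn.mul (c2.mul (by fun_prop)))))
    have i1 : IntervalIntegrable (fun t : ℝ => ((j : ℂ) + 3) / 3 *
        ((3 * (t : ℂ) ^ (j + 2)) * S ((t : ℂ) ^ 3 * η))) MeasureTheory.volume 0 1 := by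
      refine ContinuousOn.intervalIntegrable ?_
      rw [uIcc_of_le zero_le_one]
      exact continuousOn_const.mul (hw.continuousOn.mul c1)
    have i2 : IntervalIntegrable (fun t : ℝ => η * ((3 * (t : ℂ) ^ (j + 2)) *
        (deriv S ((t : ℂ) ^ 3 * η) * (t : ℂ) ^ 3))) MeasureTheory.volume 0 1 := by
      refine ContinuousOn.intervalIntegrable ?_
      rw [uIcc_of_le zero_le_one]
      exact continuousOn_const.mul (hw.continuousOn.mul (c2.mul (by fun_prop)))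
    rw [intervalIntegral.integral_add i1 i2, intervalIntegral.integral_const_mul,
      intervalIntegral.integral_const_mul] at h5
    simp only [he]
    rw [h5]
    simp

/-- local normal form at a zero of order `j`: `A = (ξ - ψ₀)^(j+3) E` -/
structure LocA (R : ℂ → ℂ) (Λ : ℝ) (ψ₀ : ℂ) (j : ℕ) (r₀ m M : ℝ) (E : ℂ → ℂ) : Prop where
  hr : 0 < r₀
  hm : 0 < m
  dE : DifferentiableOn ℂ E (ball ψ₀ r₀)
  lo : ∀ ξ ∈ ball ψ₀ r₀, m ≤ ‖E ξ‖
  hi : ∀ ξ ∈ ball ψ₀ r₀, ‖E ξ‖ ≤ M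
  R0 : R ψ₀ = 0
  eq : ∀ ξ ∈ ball ψ₀ r₀, deriv (fun ξ => (ξ - ψ₀) ^ (j + 3) * E ξ) ξ ^ 3 * (Λ : ℂ) ^ 3
    = 27 * ((ξ - ψ₀) ^ (j + 3) * E ξ) ^ 2 * R ξ

/-- **(L1)** existence of the local normal form -/
theorem exists_LocA {R R₁ : ℂ → ℂ} {Λ : ℝ} {ψ₀ : ℂ} {j : ℕ} (hΛ : 0 < Λ) (hj : 1 ≤ j)
    {r : ℝ} (hr : 0 < r)
    (dR : DifferentiableOn ℂ R₁ (ball ψ₀ r)) (h0 : R₁ ψ₀ ≠ 0)
    (hR : ∀ ξ ∈ ball ψ₀ r, R ξ = (ξ - ψ₀) ^ j * R₁ ξ) :
    ∃ (r₀ m M : ℝ) (E : ℂ → ℂ), r₀ ≤ r ∧ LocA R Λ ψ₀ j r₀ m M E := by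
  have hΛc : (Λ : ℂ) ≠ 0 := by exact_mod_cast hΛ.ne'
  -- ball where `R₁ ≠ 0`
  have hc0 : ContinuousAt R₁ ψ₀ := (dR.differentiableAt (ball_mem_nhds ψ₀ hr)).continuousAt
  obtain ⟨r₁, hr₁, hr₁b⟩ : ∃ r₁ > 0, ∀ ξ ∈ ball ψ₀ r₁, R₁ ξ ≠ 0 := by
    obtain ⟨r₁, h1, h2⟩ := Metric.eventually_nhds_iff_ball.1 (hc0.eventually_ne h0)
    exact ⟨r₁, h1, h2⟩
  set r₂ : ℝ := min r r₁ with hr₂
  have hr₂0 : 0 < r₂ := lt_min hr hr₁
  have hs1 : ball ψ₀ r₂ ⊆ ball ψ₀ r := ball_subset_ball (min_le_left _ _)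
  have hs2 : ball ψ₀ r₂ ⊆ ball ψ₀ r₁ := ball_subset_ball (min_le_right _ _)
  obtain ⟨S, dS, hS⟩ := exists_root_convex isOpen_ball (convex_ball ψ₀ r₂) (dR.mono hs1)
    (fun z hz => hr₁b z (hs2 hz)) (n := 3) (by norm_num)
  have dS' : DifferentiableOn ℂ (fun η => S (ψ₀ + η)) (ball 0 r₂) := by
    refine dS.comp (by fun_prop) ?_
    intro η hη
    rw [mem_ball, dist_zero_right] at hη
    rw [mem_ball, dist_eq_norm, add_sub_cancel_left]
    exact hη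
  obtain ⟨e, de, he⟩ := euler_sol hr₂0 dS' j
  have hj3 : ((j : ℂ) + 3) ≠ 0 := by
    have : ((j + 3 : ℕ) : ℂ) ≠ 0 := by exact_mod_cast (by omega : j + 3 ≠ 0)
    push_cast at this
    exact this
  have he0 : e 0 ≠ 0 := by
    intro h
    have h1 := he 0 (by simpa using hr₂0)
    rw [h, mul_zero, zero_mul, add_zero, add_zero] at h1
    have h2 := hS ψ₀ (mem_ball_self hr₂0)
    rw [← h1] at h2
    apply h0
    rw [← h2]
    norm_num
  set E : ℂ → ℂ := fun ξ => (e (ξ - ψ₀) / Λ) ^ 3 with hE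
  have hmap : ∀ ξ ∈ ball ψ₀ r₂, ξ - ψ₀ ∈ ball (0 : ℂ) r₂ := by
    intro ξ hξ
    rwa [mem_ball, dist_zero_right, ← dist_eq_norm]
  have dE1 : DifferentiableOn ℂ (fun ξ => e (ξ - ψ₀)) (ball ψ₀ r₂) :=
    de.comp (by fun_prop) hmap
  have dE : DifferentiableOn ℂ E (ball ψ₀ r₂) := (dE1.div_const _).pow 3
  have hcE : ContinuousAt E ψ₀ := (dE.differentiableAt (ball_mem_nhds ψ₀ hr₂0)).continuousAt
  have hE0 : E ψ₀ ≠ 0 := by
    simp only [hE, sub_self]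
    exact pow_ne_zero _ (div_ne_zero he0 hΛc)
  have hE0' : 0 < ‖E ψ₀‖ := norm_pos_iff.2 hE0
  have hev : ∀ᶠ ξ in 𝓝 ψ₀, ‖E ψ₀‖ / 2 < ‖E ξ‖ ∧ ‖E ξ‖ < 2 * ‖E ψ₀‖ := by
    have h1 : ∀ᶠ ξ in 𝓝 ψ₀, ‖E ψ₀‖ / 2 < ‖E ξ‖ := hcE.norm.eventually_const_lt (by linarith)
    have h2 : ∀ᶠ ξ in 𝓝 ψ₀, ‖E ξ‖ < 2 * ‖E ψ₀‖ := hcE.norm.eventually_lt_const (by linarith)
    exact h1.and h2
  obtain ⟨r₃, hr₃, h3⟩ := Metric.eventually_nhds_iff_ball.1 hev
  refine ⟨min r₂ r₃, ‖E ψ₀‖ / 2, 2 * ‖E ψ₀‖, E, (min_le_left _ _).trans (min_le_left _ _), ?_⟩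
  have hsub2 : ball ψ₀ (min r₂ r₃) ⊆ ball ψ₀ r₂ := ball_subset_ball (min_le_left _ _)
  have hsub3 : ball ψ₀ (min r₂ r₃) ⊆ ball ψ₀ r₃ := ball_subset_ball (min_le_right _ _)
  refine ⟨lt_min hr₂0 hr₃, by positivity, dE.mono hsub2, fun ξ hξ => (h3 ξ (hsub3 hξ)).1.le,
    fun ξ hξ => (h3 ξ (hsub3 hξ)).2.le, ?_, ?_⟩
  · rw [hR ψ₀ (mem_ball_self hr), sub_self, zero_pow (by omega), zero_mul]
  · intro ξ hξ
    have hξ2 := hsub2 hξ
    have hη := hmap ξ hξ2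
    have hη' : ‖ξ - ψ₀‖ < r₂ := by rwa [mem_ball, dist_zero_right] at hη
    have d1 : HasDerivAt (fun ξ => e (ξ - ψ₀)) (deriv e (ξ - ψ₀)) ξ := by
      have h1 := (de.differentiableAt (isOpen_ball.mem_nhds hη)).hasDerivAt
      have h2 := h1.comp ξ ((hasDerivAt_id ξ).sub_const ψ₀)
      exact h2.congr_deriv (by ring)
    have d2 : HasDerivAt (fun ξ => (e (ξ - ψ₀) / (Λ : ℂ)) ^ 3)
        (3 * (e (ξ - ψ₀) / (Λ : ℂ)) ^ 2 * (deriv e (ξ - ψ₀) / Λ)) ξ :=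
      ((d1.div_const (Λ : ℂ)).pow 3).congr_deriv (by norm_num)
    have d3 : HasDerivAt (fun ξ : ℂ => (ξ - ψ₀) ^ (j + 3)) (((j + 3 : ℕ) : ℂ) * (ξ - ψ₀) ^ (j + 2)) ξ := by
      have h1 := ((hasDerivAt_id ξ).sub_const ψ₀).pow (j + 3)
      refine h1.congr_deriv ?_
      simp
    have d4 := d3.mul d2
    have h5 : deriv (fun ξ => (ξ - ψ₀) ^ (j + 3) * E ξ) ξ
        = 3 / (Λ : ℂ) ^ 3 * (ξ - ψ₀) ^ (j + 2) * e (ξ - ψ₀) ^ 2 * S ξ := by
      have h6 := d4.deriv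
      have h7 : deriv (fun ξ => (ξ - ψ₀) ^ (j + 3) * E ξ) ξ
        = deriv ((fun ξ : ℂ => (ξ - ψ₀) ^ (j + 3)) * (fun ξ => (e (ξ - ψ₀) / (Λ : ℂ)) ^ 3)) ξ := rfl
      rw [h7, h6]
      have h8 := he (ξ - ψ₀) hη'
      rw [show ψ₀ + (ξ - ψ₀) = ξ by ring] at h8
      rw [← h8]
      push_cast
      field_simp
      ring
    have h9 := hS ξ hξ2
    rw [h5, hR ξ (hs1 hξ2), ← h9]
    simp only [hE]
    field_simp
    ring

end Vale.Agent.P097.H202
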