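import Vale.Agent.P097.H202.PenA4

/-! # P097 / RAT-A, part 5: the inverse of the vertex map -/

set_option linter.all false

open Complex Metric Filter Topology Set
open scoped ComplexConjugate

namespace Vale.Agent.P097.H202

open Vale.Agent.P097.TA

/-- the inverse of the vertex map -/
structure VI (κ Λ : ℝ) (H Φ : ℂ → ℂ) (r e : ℝ) (α p : ℂ → ℂ → ℂ) (J : ℂ → ℂ) (d c M : ℝ)
    (V : Set (ℂ × ℂ)) (τ ω : ℂ → ℂ → ℂ) : Prop where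
  T : Lines κ Λ H Φ r e α p J
  hd : 0 < d
  hc : 0 < c
  sub : ∀ t w : ℂ, (t, w) ∈ WW 0 d d → (t, w) ∈ WW (1 / 2) r e
  low : ∀ t w : ℂ, (t, w) ∈ WW 0 d d → c * ‖w‖ ≤ ‖vY α t w‖
  bd : ∀ t w : ℂ, (t, w) ∈ WW 0 d d → ‖dx (vP α) t w‖ ≤ M
  oV : IsOpen V
  jτ : JD τ V
  jω : JD ω V
  inU : ∀ φ y : ℂ, (φ, y) ∈ V → (τ φ y, ω φ y) ∈ WW 0 d d
  ψ_ : ∀ φ y : ℂ, (φ, y) ∈ V → vP α (τ φ y) (ω φ y) = φ
  y_ : ∀ φ y : ℂ, (φ, y) ∈ V → vY α (τ φ y) (ω φ y) = y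
  inV : ∀ t w : ℂ, (t, w) ∈ WW 0 d d → (vP α t w, vY α t w) ∈ V
  τ_ : ∀ t w : ℂ, (t, w) ∈ WW 0 d d → τ (vP α t w) (vY α t w) = t
  ω_ : ∀ t w : ℂ, (t, w) ∈ WW 0 d d → ω (vP α t w) (vY α t w) = w

section
variable {h : ℝ → ℝ} {κ ρ Λ L : ℝ} {H HH lam Φ : ℂ → ℂ} {l φ : ℝ → ℝ} {r e : ℝ}
  {α p : ℂ → ℂ → ℂ} {J : ℂ → ℂ}

theorem mem_WW0 {d : ℝ} {t w : ℂ} : (t, w) ∈ WW 0 d d ↔ |t.im| < d ∧ ‖w‖ < d := by
  rw [mem_WW, zero_mul, add_zero]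
  exact and_comm

theorem exists_VI (D : LD h κ ρ Λ L H HH lam Φ l φ) (T : Lines κ Λ H Φ r e α p J) :
    ∃ (d c M : ℝ) (V : Set (ℂ × ℂ)) (τ ω : ℂ → ℂ → ℂ), VI κ Λ H Φ r e α p J d c M V τ ω := by
  obtain ⟨c, hc, M, d, hd, hb⟩ := T.bounds D
  have hU : IsOpen (WW 0 d d) := isOpen_WW _ _ _
  have hcv : Convex ℝ (WW 0 d d) := convex_WW le_rfl
  have hsub : WW 0 d d ⊆ WW (1 / 2) r e := by
    rintro ⟨t, w⟩ h
    rw [mem_WW0] at h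
    exact (hb t w h.1 h.2).1
  have j1 : JD (vP α) (WW 0 d d) := T.jvP.mono hsub
  have j2 : JD (vY α) (WW 0 d d) := T.jvY.mono hsub
  have hb' : ∀ z : ℂ × ℂ, z ∈ WW 0 d d → _ := fun z hz => hb z.1 z.2 (mem_WW0.1 hz).1 (mem_WW0.1 hz).2
  have lx : ∀ p ∈ WW 0 d d, ∀ q ∈ WW 0 d d, c * ‖q.1 - p.1‖ - c / 8 * ‖q.2 - p.2‖
      ≤ ‖vP α q.1 q.2 - vP α p.1 p.2‖ := fun p hp q hq =>
    lb_x hU hcv j1 (fun z hz => (hb' z hz).2.1) (fun z hz => (hb' z hz).2.2.2.1) hp hq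
  have le : ∀ p ∈ WW 0 d d, ∀ q ∈ WW 0 d d, c / 2 * ‖q.2 - p.2‖ - c / 8 * ‖q.1 - p.1‖
      ≤ ‖vY α q.1 q.2 - vY α p.1 p.2‖ := fun p hp q hq =>
    lb_e hU hcv j2 (fun z hz => (hb' z hz).2.2.1) (fun z hz => (hb' z hz).2.2.2.2.1) hp hq
  have hL : ∀ p ∈ WW 0 d d, ∀ q ∈ WW 0 d d, c / 4 * (‖p.1 - q.1‖ + ‖p.2 - q.2‖) ≤
      ‖vP α p.1 p.2 - vP α q.1 q.2‖ + ‖vY α p.1 p.2 - vY α q.1 q.2‖ := by
    intro p hp q hq
    have h1 := lx q hq p hp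
    have h2 := le q hq p hp
    have h3 := norm_nonneg (p.1 - q.1)
    have h4 := norm_nonneg (p.2 - q.2)
    nlinarith
  obtain ⟨V, τ, ω, oV, jτ, jω, h1, h2⟩ := H43.global_inv hU j1 j2 (by positivity : 0 < c / 4) hL
  refine ⟨d, c / 2, M, V, τ, ω,
    { T := T, hd := hd, hc := by positivity, sub := fun t w h => hsub h
      low := ?_
      bd := fun t w h => (hb' (t, w) h).2.2.2.2.2
      oV := oV, jτ := jτ, jω := jω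
      inU := fun φ y h => (h1 (φ, y) h).1
      ψ_ := fun φ y h => (h1 (φ, y) h).2.1
      y_ := fun φ y h => (h1 (φ, y) h).2.2
      inV := fun t w h => (h2 (t, w) h).1
      τ_ := fun t w h => (h2 (t, w) h).2.1
      ω_ := fun t w h => (h2 (t, w) h).2.2 }⟩
  intro t w h
  have h0 : (t, (0 : ℂ)) ∈ WW 0 d d := mem_WW0.2 ⟨(mem_WW0.1 h).1, by simpa using hd⟩
  have h3 := le (t, 0) h0 (t, w) h
  simp only [sub_self, norm_zero, mul_zero, sub_zero, T.vY_zero] at h3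
  exact h3

end

namespace VI

variable {κ Λ : ℝ} {H Φ : ℂ → ℂ} {r e : ℝ} {α p : ℂ → ℂ → ℂ} {J : ℂ → ℂ} {d c M : ℝ}
    {V : Set (ℂ × ℂ)} {τ ω : ℂ → ℂ → ℂ} (W : VI κ Λ H Φ r e α p J d c M V τ ω)
include W

theorem per {φ y : ℂ} (h : (φ, y) ∈ V) : (φ + 2 * Real.pi, y) ∈ V ∧
    τ (φ + 2 * Real.pi) y = τ φ y + 1 ∧ ω (φ + 2 * Real.pi) y = ω φ y := by
  have h1 := W.inU φ y h
  have h2 : (τ φ y + 1, ω φ y) ∈ WW 0 d d := WW_one h1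
  have h3 := W.T.vP_per (W.sub _ _ h1)
  have h4 := W.T.vY_per (W.sub _ _ h1)
  rw [W.ψ_ φ y h] at h3
  rw [W.y_ φ y h] at h4
  have h5 := W.inV _ _ h2
  have h6 := W.τ_ _ _ h2
  have h7 := W.ω_ _ _ h2
  rw [h3, h4] at h5 h6 h7
  exact ⟨h5, h6, h7⟩

theorem per' {φ y : ℂ} (h : (φ, y) ∈ V) : (φ - 2 * Real.pi, y) ∈ V ∧
    τ (φ - 2 * Real.pi) y = τ φ y - 1 ∧ ω (φ - 2 * Real.pi) y = ω φ y := by
  have h1 := W.inU φ y h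
  have h2 : (τ φ y - 1, ω φ y) ∈ WW 0 d d := by
    have := WW_real h1 (-1)
    simpa [sub_eq_add_neg] using this
  have h3 := W.T.vP_per (W.sub _ _ h2)
  have h4 := W.T.vY_per (W.sub _ _ h2)
  rw [sub_add_cancel, W.ψ_ φ y h] at h3
  rw [sub_add_cancel, W.y_ φ y h] at h4
  have h5 := W.inV _ _ h2
  have h6 := W.τ_ _ _ h2
  have h7 := W.ω_ _ _ h2
  have h8 : vP α (τ φ y - 1) (ω φ y) = φ - 2 * Real.pi := by linear_combination -h3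
  rw [h8, ← h4] at h5 h6 h7
  exact ⟨h5, h6, h7⟩

theorem neg {φ y : ℂ} (h : (φ, y) ∈ V) : (φ, -y) ∈ V ∧
    τ φ (-y) = τ φ y ∧ ω φ (-y) = -ω φ y := by
  have h1 := W.inU φ y h
  have h2 : (τ φ y, -ω φ y) ∈ WW 0 d d := WW_neg h1
  have h3 := W.T.vP_neg (W.sub _ _ h1)
  have h4 := W.T.vY_neg (W.sub _ _ h1)
  rw [W.ψ_ φ y h] at h3
  rw [W.y_ φ y h] at h4
  have h5 := W.inV _ _ h2
  have h6 := W.τ_ _ _ h2
  have h7 := W.ω_ _ _ h2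
  rw [h3, h4] at h5 h6 h7
  exact ⟨h5, h6, h7⟩

theorem ω_zero {φ : ℂ} (h : (φ, 0) ∈ V) : ω φ 0 = 0 := by
  have h1 := (W.neg h).2.2
  rw [neg_zero] at h1
  linear_combination (1 / 2 : ℂ) * h1

/-- preimage of a real point -/
theorem real {x : ℝ} {s : ℝ} (hs : Φ s = x) : ((x : ℂ), (0 : ℂ)) ∈ V ∧ τ x 0 = s ∧ ω x 0 = 0 := by
  have h0 : ((s : ℂ), (0 : ℂ)) ∈ WW 0 d d := mem_WW0.2 ⟨by simpa using W.hd, by simpa using W.hd⟩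
  have h1 := W.inV _ _ h0
  have h2 := W.τ_ _ _ h0
  have h3 := W.ω_ _ _ h0
  have h4 : vP α s 0 = x := by rw [W.T.vP_zero (by simpa using W.T.hr), hs]
  rw [h4, W.T.vY_zero] at h1 h2 h3
  exact ⟨h1, h2, h3⟩

/-- boxes near the real axis -/
theorem box (hsurj : ∀ x : ℝ, ∃ s : ℝ, Φ s = x) {P : ℂ → ℂ → Prop}
    (hP : ∀ φ y, (φ, y) ∈ V → P φ y → P (φ + 2 * Real.pi) y)
    (hP' : ∀ φ y, (φ, y) ∈ V → P φ y → P (φ - 2 * Real.pi) y)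
    (hx : ∀ x : ℝ, ∀ᶠ q : ℂ × ℂ in 𝓝 ((x : ℂ), (0 : ℂ)), P q.1 q.2) {d' : ℝ} (hd' : 0 < d') :
    ∃ ε > 0, ∀ φ y : ℂ, |φ.im| < ε → ‖y‖ < ε → (φ, y) ∈ V ∧ |(τ φ y).im| < d' ∧ ‖ω φ y‖ < d' ∧
      P φ y := by
  refine per_tube' Real.two_pi_pos (P := fun φ y => (φ, y) ∈ V ∧ |(τ φ y).im| < d' ∧
    ‖ω φ y‖ < d' ∧ P φ y) ?_ ?_ ?_
  · rintro φ y ⟨h1, h2, h3, h4⟩
    obtain ⟨g1, g2, g3⟩ := W.per h1
    push_cast
    rw [g2, g3]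
    exact ⟨g1, by simpa using h2, h3, hP φ y h1 h4⟩
  · rintro φ y ⟨h1, h2, h3, h4⟩
    obtain ⟨g1, g2, g3⟩ := W.per' h1
    push_cast
    rw [g2, g3]
    exact ⟨g1, by simpa using h2, h3, hP' φ y h1 h4⟩
  · intro x
    obtain ⟨s, hs⟩ := hsurj x
    obtain ⟨g1, g2, g3⟩ := W.real hs
    have hn := W.oV.mem_nhds g1
    have k1 : ContinuousAt (fun q : ℂ × ℂ => |(τ q.1 q.2).im|) ((x : ℂ), (0 : ℂ)) :=
      (continuous_abs.comp continuous_im).continuousAt.comp (W.jτ.continuousOn.continuousAt hn)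
    have k2 := (W.jω.continuousOn.continuousAt hn).norm
    have w1 := k1.tendsto.eventually_lt_const (show |(τ x 0).im| < d' by rw [g2]; simpa using hd')
    have w2 := k2.tendsto.eventually_lt_const (show ‖ω x 0‖ < d' by rw [g3]; simpa using hd')
    filter_upwards [hn, w1, w2, hx x] with q a b c d using ⟨a, b, c, d⟩

end VI

end Vale.Agent.P097.H202
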