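import Vale.Agent.P097.H202.Dict
import Vale.Agent.P097.H900.L1
import Vale.Agent.P097.H707.Ident

set_option linter.all false

/-! # P097 : brackets of jointly holomorphic functions -/

open Complex Metric Filter Topology Set
open scoped ComplexConjugate
open Vale.Agent.P097.TA

namespace Vale.Agent.P097.H202

/-- Poisson bracket `{f, g} = f_x g_w - f_w g_x` -/
noncomputable def br (f g : ℂ → ℂ → ℂ) (x w : ℂ) : ℂ := dx f x w * de g x w - de f x w * dx g x w

section
variable {S : Set (ℂ × ℂ)} {f g : ℂ → ℂ → ℂ}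

theorem dx_congr (hS : IsOpen S) (h : ∀ x w, (x, w) ∈ S → f x w = g x w) {x w : ℂ}
    (hx : (x, w) ∈ S) : dx f x w = dx g x w := by
  have hc : Continuous fun t : ℂ => (t, w) := by fun_prop
  have h1 : (fun t => f t w) =ᶠ[𝓝 x] fun t => g t w := by
    filter_upwards [(hS.preimage hc).mem_nhds hx] with t ht
    exact h t w ht
  exact h1.deriv_eq

theorem de_congr (hS : IsOpen S) (h : ∀ x w, (x, w) ∈ S → f x w = g x w) {x w : ℂ}
    (hx : (x, w) ∈ S) : de f x w = de g x w := by
  have hc : Continuous fun t : ℂ => (x, t) := by fun_prop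
  have h1 : (fun t => f x t) =ᶠ[𝓝 w] fun t => g x t := by
    filter_upwards [(hS.preimage hc).mem_nhds hx] with t ht
    exact h x t ht
  exact h1.deriv_eq

variable (hS : IsOpen S) (hf : JD f S) (hg : JD g S) {x w : ℂ} (hx : (x, w) ∈ S)
include hS hf hx

theorem dx_comp {u : ℂ → ℂ} {u' : ℂ} (hu : HasDerivAt u u' (f x w)) :
    dx (fun x w => u (f x w)) x w = u' * dx f x w :=
  (hu.comp x (hf.hasDerivAt_x hS hx)).deriv

theorem de_comp {u : ℂ → ℂ} {u' : ℂ} (hu : HasDerivAt u u' (f x w)) :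
    de (fun x w => u (f x w)) x w = u' * de f x w :=
  (hu.comp w (hf.hasDerivAt_e hS hx)).deriv

/-- the bracket of `f` with a function of `f` vanishes -/
theorem br_comp {u : ℂ → ℂ} {u' : ℂ} (hu : HasDerivAt u u' (f x w)) :
    br f (fun x w => u (f x w)) x w = 0 := by
  rw [br, dx_comp hS hf hx hu, de_comp hS hf hx hu]
  ring

include hg

theorem dx_mul : dx (fun x w => f x w * g x w) x w = dx f x w * g x w + f x w * dx g x w :=
  ((hf.hasDerivAt_x hS hx).mul (hg.hasDerivAt_x hS hx)).deriv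

theorem de_mul : de (fun x w => f x w * g x w) x w = de f x w * g x w + f x w * de g x w :=
  ((hf.hasDerivAt_e hS hx).mul (hg.hasDerivAt_e hS hx)).deriv

theorem dx_sub : dx (fun x w => f x w - g x w) x w = dx f x w - dx g x w :=
  ((hf.hasDerivAt_x hS hx).sub (hg.hasDerivAt_x hS hx)).deriv

theorem de_sub : de (fun x w => f x w - g x w) x w = de f x w - de g x w :=
  ((hf.hasDerivAt_e hS hx).sub (hg.hasDerivAt_e hS hx)).deriv

theorem dx_add : dx (fun x w => f x w + g x w) x w = dx f x w + dx g x w :=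
  ((hf.hasDerivAt_x hS hx).add (hg.hasDerivAt_x hS hx)).deriv

theorem de_add : de (fun x w => f x w + g x w) x w = de f x w + de g x w :=
  ((hf.hasDerivAt_e hS hx).add (hg.hasDerivAt_e hS hx)).deriv

end

/-- brackets from an exact form: `dG = A da - B dc` implies `{a, A} = {c, B}` -/
theorem br_of_exact {S : Set (ℂ × ℂ)} (hS : IsOpen S) {G A B a c : ℂ → ℂ → ℂ} (jG : JD G S)
    (jA : JD A S) (jB : JD B S) (ja : JD a S) (jc : JD c S)
    (hx : ∀ x w, (x, w) ∈ S → dx G x w = A x w * dx a x w - B x w * dx c x w)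
    (he : ∀ x w, (x, w) ∈ S → de G x w = A x w * de a x w - B x w * de c x w) {x w : ℂ}
    (h : (x, w) ∈ S) : br a A x w = br c B x w := by
  have h1 := jG.dx_de hS h
  rw [dx_congr hS he h, de_congr hS hx h,
    dx_sub hS (jA.mul (ja.de hS)) (jB.mul (jc.de hS)) h,
    de_sub hS (jA.mul (ja.dx hS)) (jB.mul (jc.dx hS)) h,
    dx_mul hS jA (ja.de hS) h, dx_mul hS jB (jc.de hS) h,
    de_mul hS jA (ja.dx hS) h, de_mul hS jB (jc.dx hS) h, ja.dx_de hS h, jc.dx_de hS h] at h1
  rw [br, br]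
  linear_combination (-1 : ℂ) * h1

/-- derivatives of a sheared function -/
theorem dx_shear {S T : Set (ℂ × ℂ)} (hT : IsOpen T) {f : ℂ → ℂ → ℂ} (hf : JD f T) {s x w : ℂ}
    (h : (x + s * w, w) ∈ T) : dx (fun x w => f (x + s * w) w) x w = dx f (x + s * w) w := by
  have h1 := hf.hasDerivAt_comp hT (u := fun t => t + s * w) (v := fun _ => w) (t := x)
    ((hasDerivAt_id x).add_const _) (hasDerivAt_const x w) h
  rw [dx, h1.deriv]
  ring

theorem de_shear {T : Set (ℂ × ℂ)} (hT : IsOpen T) {f : ℂ → ℂ → ℂ} (hf : JD f T) {s x w : ℂ}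
    (h : (x + s * w, w) ∈ T) :
    de (fun x w => f (x + s * w) w) x w = s * dx f (x + s * w) w + de f (x + s * w) w := by
  have h1 := hf.hasDerivAt_comp hT (u := fun t => x + s * t) (v := fun t => t) (t := w)
    (((hasDerivAt_id w).const_mul s).const_add x) (hasDerivAt_id w) h
  rw [de, h1.deriv]
  ring

/-- the bracket is invariant under the shear `(x, w) ↦ (x + s w, w)` -/
theorem br_shear {T : Set (ℂ × ℂ)} (hT : IsOpen T) {f g : ℂ → ℂ → ℂ} (hf : JD f T) (hg : JD g T)
    {s x w : ℂ} (h : (x + s * w, w) ∈ T) :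
    br (fun x w => f (x + s * w) w) (fun x w => g (x + s * w) w) x w = br f g (x + s * w) w := by
  rw [br, br, dx_shear (S := T) hT hf h, dx_shear (S := T) hT hg h, de_shear hT hf h,
    de_shear hT hg h]
  ring

theorem JD_shear {S T : Set (ℂ × ℂ)} {f : ℂ → ℂ → ℂ} (hf : JD f T) (s : ℂ)
    (h : ∀ x w, (x, w) ∈ S → (x + s * w, w) ∈ T) : JD (fun x w => f (x + s * w) w) S :=
  JD.comp (f := fun x w => x + s * w) (g := fun _ w => w) hf (JD.fst.add (JD.const_mul _ JD.snd))
    JD.snd h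

theorem JD_br {S : Set (ℂ × ℂ)} (hS : IsOpen S) {f g : ℂ → ℂ → ℂ} (hf : JD f S) (hg : JD g S) :
    JD (br f g) S :=
  ((hf.dx hS).mul (hg.de hS)).sub ((hf.de hS).mul (hg.dx hS))

end Vale.Agent.P097.H202
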