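import Vale.Agent.P097.H202.LD
import Vale.Agent.P097.Bdl.B1

set_option linter.all false

/-! # P097 / Theorem A / A1 : the library structure `CTab` from the Lazutkin data -/

open Complex Metric Filter Topology Set
open scoped ComplexConjugate

namespace Vale.Agent.P097.H202

variable {h : ℝ → ℝ} {κ ρ Λ L : ℝ} {H HH lam Φ : ℂ → ℂ} {l φ : ℝ → ℝ}

theorem LD.φ_surj (T : LD h κ ρ Λ L H HH lam Φ l φ) (x : ℝ) : ∃ y, φ y = x := by
  have hc : Continuous φ := continuous_iff_continuousAt.2 fun x => (T.dφ x).continuousAt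
  have hpi := Real.pi_pos
  have hn : ∀ n : ℕ, φ n = φ 0 + n * (2 * Real.pi) := by
    intro n
    induction n with
    | zero => simp
    | succ n ih =>
      push_cast
      rw [T.φp, ih]
      ring
  have hn' : ∀ n : ℕ, φ (-n) = φ 0 - n * (2 * Real.pi) := by
    intro n
    induction n with
    | zero => simp
    | succ n ih =>
      have := T.φp (-((n + 1 : ℕ) : ℝ))
      push_cast at this ⊢
      rw [show -((n : ℝ) + 1) + 1 = -n by ring, ih] at this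
      linarith
  obtain ⟨n, hn1⟩ := exists_nat_gt (|x - φ 0| / (2 * Real.pi))
  rw [div_lt_iff₀ (by positivity)] at hn1
  have h1 := abs_lt.1 hn1
  have h2 : x ∈ Icc (φ (-(n : ℝ))) (φ n) := by
    rw [hn, hn']
    constructor <;> linarith [h1.1, h1.2]
  obtain ⟨y, -, hy⟩ := intermediate_value_Icc (show -(n : ℝ) ≤ n by
    have : (0 : ℝ) ≤ n := n.cast_nonneg
    linarith) hc.continuousOn h2
  exact ⟨y, hy⟩

/-- the library structure of the table -/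
theorem LD.exists_ctab (T : LD h κ ρ Λ L H HH lam Φ l φ) :
    ∃ (M β : ℝ) (C : Reg.CTab M β Λ), β ≤ Λ * ρ ∧ C.G = H ∧ C.lam = lam ∧
      (∀ ζ, C.z ζ = Φ (ζ / Λ)) ∧ (∀ x : ℝ, h x = (C.G x).re) ∧ (∀ y : ℝ, C.z (Λ * y) = φ y) := by
  have hκ := T.κ0
  have hρ := T.ρ0
  have hΛ := T.Λ0
  have hpi := Real.pi_pos
  have h2pi : (0 : ℝ) < 2 * Real.pi := by positivity
  have hΛc : (Λ : ℂ) ≠ 0 := by exact_mod_cast hΛ.ne'
  have cast2pi : ((2 * Real.pi : ℝ) : ℂ) = 2 * (Real.pi : ℂ) := by push_cast; ring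
  set β : ℝ := min 1 (Λ * ρ) with hβ
  have hβ0 : 0 < β := by positivity
  have hβ1 : β ≤ 1 := min_le_left _ _
  have hβ2 : β ≤ Λ * ρ := min_le_right _ _
  set z : ℂ → ℂ := fun ζ => Φ (ζ / Λ) with hz
  have hin : ∀ ζ ∈ Str β, ζ / Λ ∈ Str ρ := by
    intro ζ hζ
    have h1 : |ζ.im| < β := hζ
    rw [mem_Str, div_ofReal_im, abs_div, abs_of_pos hΛ, div_lt_iff₀ hΛ]
    linarith
  have hzS : ∀ ζ ∈ Str β, z ζ ∈ Str (κ / 2) := fun ζ hζ => T.Φm _ (hin ζ hζ)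
  have hzS' : ∀ ζ ∈ Str β, z ζ ∈ Str κ := fun ζ hζ => T.Φm' (hin ζ hζ)
  have dz : ∀ ζ ∈ Str β, HasDerivAt z (lam (z ζ))⁻¹ ζ := by
    intro ζ hζ
    have h1 := (T.dΦ _ (hin ζ hζ)).comp ζ ((hasDerivAt_id ζ).div_const (Λ : ℂ))
    refine h1.congr_deriv ?_
    have := T.lam0 _ (hzS' ζ hζ)
    have e : z ζ = Φ (ζ / Λ) := rfl
    show (Λ : ℂ) / lam (z ζ) * (1 / Λ) = (lam (z ζ))⁻¹
    field_simp
  obtain ⟨X₀, hX₀⟩ := prim_convex (isOpen_Str κ) (convex_Str κ) T.dlam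
  set X : ℂ → ℂ := fun ψ => X₀ ψ - X₀ (Φ 0) with hX
  have dX : ∀ ψ ∈ Str κ, HasDerivAt X (lam ψ) ψ := fun ψ hψ => (hX₀ ψ hψ).sub_const _
  have Xz : ∀ ζ ∈ Str β, X (z ζ) = ζ := by
    intro ζ hζ
    have h0 : (0 : ℂ) ∈ Str β := by simpa using real_mem_Str hβ0 0
    have hd : ∀ w ∈ Str β, HasDerivAt (fun w => X (z w) - w) 0 w := by
      intro w hw
      have h1 := (dX _ (hzS' w hw)).comp w (dz w hw)
      refine (h1.sub (hasDerivAt_id w)).congr_deriv ?_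
      rw [mul_inv_cancel₀ (T.lam0 _ (hzS' w hw)), sub_self]
    have h2 := (convex_Str β).norm_image_sub_le_of_norm_hasDerivWithin_le
      (f := fun w => X (z w) - w) (f' := fun _ => 0) (C := 0)
      (fun w hw => (hd w hw).hasDerivWithinAt) (fun w _ => by simp) h0 hζ
    rw [zero_mul, norm_le_zero_iff, sub_eq_zero] at h2
    have h3 : X (z ζ) - ζ = X (z 0) - 0 := h2
    have h4 : X (z 0) = 0 := by
      rw [hX, hz]
      simp
    rw [h4, sub_zero, sub_eq_zero] at h3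
    exact h3
  set D : Set ℂ := z '' Str β with hD
  have hDs : D ⊆ Str κ := by
    rintro _ ⟨ζ, hζ, rfl⟩
    exact hzS' ζ hζ
  have hDs2 : ∀ ψ ∈ D, |ψ.im| ≤ κ / 2 := by
    rintro _ ⟨ζ, hζ, rfl⟩
    exact le_of_lt (hzS ζ hζ)
  have hDo : IsOpen D := by
    rw [isOpen_iff_mem_nhds]
    rintro _ ⟨ζ, hζ, rfl⟩
    have hzd : DifferentiableOn ℂ z (Str β) :=
      fun w hw => (dz w hw).differentiableAt.differentiableWithinAt
    have h1 : AnalyticAt ℂ z ζ := hzd.analyticAt ((isOpen_Str β).mem_nhds hζ)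
    have h2 : HasStrictDerivAt z (lam (z ζ))⁻¹ ζ := by
      have := h1.hasStrictDerivAt
      rwa [(dz ζ hζ).deriv] at this
    have h3 := h2.map_nhds_eq (inv_ne_zero (T.lam0 _ (hzS' ζ hζ)))
    rw [← h3]
    exact image_mem_map ((isOpen_Str β).mem_nhds hζ)
  -- bounds
  have Hp : ∀ z ∈ Str κ, H (z + ((2 * Real.pi : ℝ) : ℂ)) = H z := by
    rw [cast2pi]
    exact T.Hp
  have lp : ∀ z ∈ Str κ, lam (z + ((2 * Real.pi : ℝ) : ℂ)) = lam z := by
    rw [cast2pi]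
    exact T.lamp
  have dl1 : DifferentiableOn ℂ (deriv lam) (Str κ) := T.dlam.deriv (isOpen_Str κ)
  have dl2 : DifferentiableOn ℂ (deriv (deriv lam)) (Str κ) := dl1.deriv (isOpen_Str κ)
  have dl3 : DifferentiableOn ℂ (deriv (deriv (deriv lam))) (Str κ) := dl2.deriv (isOpen_Str κ)
  have hlt : κ / 2 < κ := by linarith
  obtain ⟨M0, hM0, m0⟩ := bdd_strip h2pi hlt T.dH.continuousOn Hp
  obtain ⟨M1, hM1, m1⟩ := bdd_strip h2pi hlt T.dlam.continuousOn lp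
  obtain ⟨M2, hM2, m2⟩ := bdd_strip h2pi hlt dl1.continuousOn (per_deriv lp)
  obtain ⟨M3, hM3, m3⟩ := bdd_strip h2pi hlt dl2.continuousOn (per_deriv (per_deriv lp))
  obtain ⟨M4, hM4, m4⟩ := bdd_strip h2pi hlt dl3.continuousOn (per_deriv (per_deriv (per_deriv lp)))
  obtain ⟨M5, hM5, m5⟩ := bdd_strip (f := fun z => (lam z)⁻¹) h2pi hlt
    (T.dlam.continuousOn.inv₀ T.lam0) (fun z hz => by rw [lp z hz])
  set M : ℝ := 1 + M0 + M1 + M2 + M3 + M4 + M5 with hM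
  have lc := conj_strip hκ T.dlam fun x => by rw [T.lamr, ofReal_im]
  have zc : ∀ ζ ∈ Str β, z (conj ζ) = conj (z ζ) := by
    intro ζ hζ
    have h1 := T.Φc _ (hin ζ hζ)
    rw [hz]
    simp only []
    rw [← h1, map_div₀, conj_ofReal]
  have zp : ∀ ζ ∈ Str β, z (ζ + Λ) = z ζ + 2 * Real.pi := by
    intro ζ hζ
    have h1 := T.Φp _ (hin ζ hζ)
    rw [hz]
    simp only []
    rw [← h1]
    congr 1
    field_simp
  refine ⟨M, β, {
    D := D, G := H, lam := lam, X := X, z := z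
    M1 := by rw [hM]; linarith
    β0 := hβ0, β1 := hβ1, P0 := hΛ, isOpen := hDo
    dG := T.dH.mono hDs, dlam := T.dlam.mono hDs
    dX := fun ψ hψ => dX ψ (hDs hψ)
    dz := dz
    XD := by
      rintro _ ⟨ζ, hζ, rfl⟩
      rw [Xz ζ hζ]
      exact hζ
    zD := fun ζ hζ => ⟨ζ, hζ, rfl⟩
    zX := by
      rintro _ ⟨ζ, hζ, rfl⟩
      rw [Xz ζ hζ]
    Xz := Xz
    rho := fun ψ hψ => (T.lam3 ψ (hDs hψ)).symm
    bG := fun ψ hψ => (m0 ψ (hDs2 ψ hψ)).trans (by rw [hM]; linarith)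
    b0 := fun ψ hψ => (m1 ψ (hDs2 ψ hψ)).trans (by rw [hM]; linarith)
    b1 := fun ψ hψ => (m2 ψ (hDs2 ψ hψ)).trans (by rw [hM]; linarith)
    b2 := fun ψ hψ => (m3 ψ (hDs2 ψ hψ)).trans (by rw [hM]; linarith)
    b3 := fun ψ hψ => (m4 ψ (hDs2 ψ hψ)).trans (by rw [hM]; linarith)
    bl := by
      intro ψ hψ
      have h1 := m5 ψ (hDs2 ψ hψ)
      have h2 : 0 < ‖lam ψ‖ := norm_pos_iff.2 (T.lam0 ψ (hDs hψ))
      have h6 : 1 ≤ M5 * ‖lam ψ‖ := by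
        rw [norm_inv, inv_eq_one_div, div_le_iff₀ h2] at h1
        exact h1
      refine h6.trans ?_
      apply mul_le_mul_of_nonneg_right _ h2.le
      rw [hM]
      linarith
    cD := by
      rintro _ ⟨ζ, hζ, rfl⟩
      exact ⟨conj ζ, conj_mem_Str hζ, zc ζ hζ⟩
    cG := fun ψ hψ => T.Hc ψ (hDs hψ)
    clam := fun ψ hψ => lc ψ (hDs hψ)
    cX := by
      rintro _ ⟨ζ, hζ, rfl⟩
      rw [← zc ζ hζ, Xz _ (conj_mem_Str hζ), Xz ζ hζ]
    rD := by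
      intro x
      obtain ⟨y, hy⟩ := T.φ_surj x
      refine ⟨((Λ * y : ℝ) : ℂ), real_mem_Str hβ0 _, ?_⟩
      rw [hz]
      simp only []
      rw [show (((Λ * y : ℝ) : ℂ)) / Λ = y by push_cast; field_simp, T.Φr, hy]
    rpos := fun x => by rw [T.lamr, ofReal_re]; exact T.lpos x
    pD := by
      rintro _ ⟨ζ, hζ, rfl⟩
      exact ⟨ζ + Λ, add_real_mem_Str hζ Λ, zp ζ hζ⟩
    mD := by
      rintro _ ⟨ζ, hζ, rfl⟩
      have hζ' : ζ - Λ ∈ Str β := by simpa [mem_Str] using hζ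
      refine ⟨ζ - Λ, hζ', ?_⟩
      have := zp (ζ - Λ) hζ'
      rw [sub_add_cancel] at this
      rw [this]
      ring
    pG := fun ψ hψ => T.Hp ψ (hDs hψ)
    plam := fun ψ hψ => T.lamp ψ (hDs hψ)
    pX := by
      rintro _ ⟨ζ, hζ, rfl⟩
      rw [← zp ζ hζ, Xz _ (add_real_mem_Str hζ Λ), Xz ζ hζ] }, hβ2, rfl, rfl, fun ζ => rfl,
    fun x => ?_, fun y => ?_⟩
  · show h x = (H x).re
    rw [T.Hr, ofReal_re]
  · show Φ (Λ * y / Λ) = φ y
    rw [mul_div_cancel_left₀ _ hΛc, T.Φr]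

end Vale.Agent.P097.H202
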