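import Vale.Agent.P097.H202.Gen
import Vale.Agent.P097.Bdl.B2

set_option linter.all false

/-! # P097 / Theorem A / A1 : the dictionary between `EL` and the billiard -/

open Complex Metric Filter Topology Set
open scoped ComplexConjugate
open Vale.Agent.P097.TA

namespace Vale.Agent.P097.H202

variable {h : ℝ → ℝ} {κ ρ Λ L : ℝ} {H HH lam Φ : ℂ → ℂ} {l φ : ℝ → ℝ}

/-- value at the boundary point with normal angle `ψ` of the functional of direction `a` -/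
noncomputable def Kc (H : ℂ → ℂ) (a ψ : ℂ) : ℂ :=
  H ψ * Complex.cos (ψ - a) - deriv H ψ * Complex.sin (ψ - a)

namespace LD

variable (T : LD h κ ρ Λ L H HH lam Φ l φ)

include T

/-- derivative of the generating function in the second variable -/
theorem F0_snd {x y : ℂ} (hx : x ∈ Str ρ) (hy : y ∈ Str ρ) :
    HasDerivAt (fun t => F0 H HH Φ x t)
      (Λ / lam (Φ y) * (H (Φ y) - Kc H (Φ y) ((Φ x + Φ y) / 2))) y := by
  have hκ := T.κ0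
  have h1 := T.dΦ y hy
  have h2 := (T.dHH _ (T.Φm' hy)).comp y h1
  have hm : (Φ x + Φ y) / 2 ∈ Str κ := Str_mono (by linarith) (T.mid_mem hx hy)
  have hH : HasDerivAt H (deriv H ((Φ x + Φ y) / 2)) ((Φ x + Φ y) / 2) :=
    (T.dH.differentiableAt ((isOpen_Str κ).mem_nhds hm)).hasDerivAt
  have h3 := hH.comp y ((h1.const_add (Φ x)).div_const 2)
  have h4 := (Complex.hasDerivAt_sin ((Φ y - Φ x) / 2)).comp y ((h1.sub_const (Φ x)).div_const 2)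
  refine ((h2.sub_const (HH (Φ x))).sub ((h3.const_mul 2).mul h4)).congr_deriv ?_
  rw [Kc, show (Φ x + Φ y) / 2 - Φ y = -((Φ y - Φ x) / 2) by ring, Complex.cos_neg,
    Complex.sin_neg]
  simp only [Function.comp]
  ring

/-- derivative of the generating function in the first variable -/
theorem F0_fst {y z : ℂ} (hy : y ∈ Str ρ) (hz : z ∈ Str ρ) :
    HasDerivAt (fun t => F0 H HH Φ t z)
      (Λ / lam (Φ y) * (Kc H (Φ y) ((Φ y + Φ z) / 2) - H (Φ y))) y := by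
  have hκ := T.κ0
  have h1 := T.dΦ y hy
  have h2 := (T.dHH _ (T.Φm' hy)).comp y h1
  have hm : (Φ y + Φ z) / 2 ∈ Str κ := Str_mono (by linarith) (T.mid_mem hy hz)
  have hH : HasDerivAt H (deriv H ((Φ y + Φ z) / 2)) ((Φ y + Φ z) / 2) :=
    (T.dH.differentiableAt ((isOpen_Str κ).mem_nhds hm)).hasDerivAt
  have h3 := hH.comp y ((h1.add_const (Φ z)).div_const 2)
  have h4 := (Complex.hasDerivAt_sin ((Φ z - Φ y) / 2)).comp y ((h1.const_sub (Φ z)).div_const 2)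
  refine ((h2.const_sub (HH (Φ z))).sub ((h3.const_mul 2).mul h4)).congr_deriv ?_
  rw [Kc, show (Φ y + Φ z) / 2 - Φ y = (Φ z - Φ y) / 2 by ring]
  simp only [Function.comp]
  ring

end LD

/-- `b` is the generating function of the table in the Lazutkin coordinate -/
def IsGen (ρ Λ : ℝ) (H HH Φ : ℂ → ℂ) (ρ' : ℝ) (b : ℂ → ℂ → ℂ) : Prop :=
  ∀ x y : ℂ, |((x + y) / 2).im| < ρ' → ‖y - x‖ < ρ' →
      x ∈ Str ρ ∧ y ∈ Str ρ ∧ Fg b x y = 4 / (Λ : ℂ) ^ 3 * F0 H HH Φ x y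

section
variable {ρ' : ℝ} {b : ℂ → ℂ → ℂ}

theorem F2_eq (T : LD h κ ρ Λ L H HH lam Φ l φ) (hb : IsGen ρ Λ H HH Φ ρ' b) {x y : ℂ}
    (h1 : |((x + y) / 2).im| < ρ') (h2 : ‖y - x‖ < ρ') :
    HasDerivAt (fun t => Fg b x t) (F2 b x y) y ∧ F2 b x y = 4 / (Λ : ℂ) ^ 3 *
      (Λ / lam (Φ y) * (H (Φ y) - Kc H (Φ y) ((Φ x + Φ y) / 2))) := by
  obtain ⟨hx, hy, -⟩ := hb x y h1 h2
  have h3 := (T.F0_snd hx hy).const_mul (4 / (Λ : ℂ) ^ 3)
  have h4 : (fun t => Fg b x t) =ᶠ[𝓝 y] fun t => 4 / (Λ : ℂ) ^ 3 * F0 H HH Φ x t := by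
    have o1 : IsOpen {t : ℂ | |((x + t) / 2).im| < ρ'} := isOpen_lt (by fun_prop) continuous_const
    have o2 : IsOpen {t : ℂ | ‖t - x‖ < ρ'} := isOpen_lt (by fun_prop) continuous_const
    filter_upwards [o1.mem_nhds h1, o2.mem_nhds h2] with t ht1 ht2
    exact (hb x t ht1 ht2).2.2
  have h5 := h3.congr_of_eventuallyEq h4
  rw [F2, h5.deriv]
  exact ⟨h5, rfl⟩

theorem F1_eq (T : LD h κ ρ Λ L H HH lam Φ l φ) (hb : IsGen ρ Λ H HH Φ ρ' b) {y z : ℂ}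
    (h1 : |((y + z) / 2).im| < ρ') (h2 : ‖z - y‖ < ρ') :
    HasDerivAt (fun t => Fg b t z) (F1 b y z) y ∧ F1 b y z = 4 / (Λ : ℂ) ^ 3 *
      (Λ / lam (Φ y) * (Kc H (Φ y) ((Φ y + Φ z) / 2) - H (Φ y))) := by
  obtain ⟨hy, hz, -⟩ := hb y z h1 h2
  have h3 := (T.F0_fst hy hz).const_mul (4 / (Λ : ℂ) ^ 3)
  have h4 : (fun t => Fg b t z) =ᶠ[𝓝 y] fun t => 4 / (Λ : ℂ) ^ 3 * F0 H HH Φ t z := by
    have o1 : IsOpen {t : ℂ | |((t + z) / 2).im| < ρ'} := isOpen_lt (by fun_prop) continuous_const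
    have o2 : IsOpen {t : ℂ | ‖z - t‖ < ρ'} := isOpen_lt (by fun_prop) continuous_const
    filter_upwards [o1.mem_nhds h1, o2.mem_nhds h2] with t ht1 ht2
    exact (hb t z ht1 ht2).2.2
  have h5 := h3.congr_of_eventuallyEq h4
  rw [F1, h5.deriv]
  exact ⟨h5, rfl⟩

/-- complex dictionary: `EL` of a chain of line directions -/
theorem EL_eq (T : LD h κ ρ Λ L H HH lam Φ l φ) (hb : IsGen ρ Λ H HH Φ ρ' b) {x y z : ℂ}
    (h1 : |((x + y) / 2).im| < ρ') (h2 : ‖y - x‖ < ρ')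
    (h3 : |((y + z) / 2).im| < ρ') (h4 : ‖z - y‖ < ρ') :
    EL b x y z = 4 / (Λ : ℂ) ^ 3 * (Λ / lam (Φ y)) *
      (Kc H (Φ y) ((Φ y + Φ z) / 2) - Kc H (Φ y) ((Φ x + Φ y) / 2)) := by
  rw [EL, (F2_eq T hb h1 h2).2, (F1_eq T hb h3 h4).2]
  ring

/-- complex dictionary, vanishing of `EL` -/
theorem EL_zero_iff (T : LD h κ ρ Λ L H HH lam Φ l φ) (hb : IsGen ρ Λ H HH Φ ρ' b) {x y z : ℂ}
    (h1 : |((x + y) / 2).im| < ρ') (h2 : ‖y - x‖ < ρ')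
    (h3 : |((y + z) / 2).im| < ρ') (h4 : ‖z - y‖ < ρ') :
    EL b x y z = 0 ↔ Kc H (Φ y) ((Φ x + Φ y) / 2) = Kc H (Φ y) ((Φ y + Φ z) / 2) := by
  have hΛ : (Λ : ℂ) ≠ 0 := by exact_mod_cast T.Λ0.ne'
  have hl := T.lam0 _ (T.Φm' (hb x y h1 h2).2.1)
  rw [EL_eq T hb h1 h2 h3 h4]
  constructor
  · intro h0
    have h5 : 4 / (Λ : ℂ) ^ 3 * (Λ / lam (Φ y)) ≠ 0 := by
      refine mul_ne_zero (div_ne_zero (by norm_num) (pow_ne_zero _ hΛ)) (div_ne_zero hΛ hl)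
    exact (sub_eq_zero.1 ((mul_eq_zero.1 h0).resolve_left h5)).symm
  · intro h0
    rw [h0, sub_self, mul_zero]

/-- `Kc` on the reals -/
theorem LD.Kc_real (T : LD h κ ρ Λ L H HH lam Φ l φ) (a ψ : ℝ) :
    Kc H a ψ = (K h a ψ : ℝ) := by
  have h1 := (deriv_ext T.κ0 T.dH T.Hr ψ).2
  rw [Kc, K, h1, T.Hr]
  push_cast
  rfl

/-- real dictionary -/
theorem EL_real (T : LD h κ ρ Λ L H HH lam Φ l φ) (hρ' : 0 < ρ') (hb : IsGen ρ Λ H HH Φ ρ' b)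
    {x y z : ℝ} (h1 : |y - x| < ρ') (h2 : |z - y| < ρ') :
    EL b x y z = ((4 / Λ ^ 3 * (Λ / l (φ y)) *
      (K h (φ y) ((φ y + φ z) / 2) - K h (φ y) ((φ x + φ y) / 2)) : ℝ) : ℂ) := by
  have e1 : |(((x : ℂ) + y) / 2).im| < ρ' := by
    rw [div_ofNat_im, add_im, ofReal_im, ofReal_im]
    simpa using hρ'
  have e2 : ‖(y : ℂ) - x‖ < ρ' := by
    rw [← ofReal_sub, norm_real]
    exact h1
  have e3 : |(((y : ℂ) + z) / 2).im| < ρ' := by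
    rw [div_ofNat_im, add_im, ofReal_im, ofReal_im]
    simpa using hρ'
  have e4 : ‖(z : ℂ) - y‖ < ρ' := by
    rw [← ofReal_sub, norm_real]
    exact h2
  rw [EL_eq T hb e1 e2 e3 e4, T.Φr, T.Φr, T.Φr, T.lamr,
    show ((φ y : ℂ) + φ z) / 2 = (((φ y + φ z) / 2 : ℝ) : ℂ) by push_cast; ring,
    show ((φ x : ℂ) + φ y) / 2 = (((φ x + φ y) / 2 : ℝ) : ℂ) by push_cast; ring,
    T.Kc_real, T.Kc_real]
  push_cast
  ring

/-- real dictionary: `EL = 0` iff the two bounce points lie on the middle line -/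
theorem EL_real_iff (T : LD h κ ρ Λ L H HH lam Φ l φ) (hρ' : 0 < ρ')
    (hb : IsGen ρ Λ H HH Φ ρ' b) {x y z : ℝ} (h1 : |y - x| < ρ') (h2 : |z - y| < ρ') :
    EL b x y z = 0 ↔
      K h (φ y) ((φ x + φ y) / 2) = K h (φ y) ((φ y + φ z) / 2) := by
  have hl := T.lpos (φ y)
  have hΛ := T.Λ0
  rw [EL_real T hρ' hb h1 h2, ofReal_eq_zero]
  constructor
  · intro h0
    have h5 : 4 / Λ ^ 3 * (Λ / l (φ y)) ≠ 0 := by positivity
    exact (sub_eq_zero.1 ((mul_eq_zero.1 h0).resolve_left h5)).symm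
  · intro h0
    rw [h0, sub_self, mul_zero]

theorem LD.strictMono (T : LD h κ ρ Λ L H HH lam Φ l φ) : StrictMono φ :=
  strictMono_of_hasDerivAt_pos T.dφ fun x => div_pos T.Λ0 (T.lpos _)

/-- real dictionary: `EL = 0` iff the chain of line directions is a bounce of the billiard -/
theorem EL_step_iff (T : LD h κ ρ Λ L H HH lam Φ l φ) (hρ' : 0 < ρ')
    (hb : IsGen ρ Λ H HH Φ ρ' b) {x y z : ℝ} (hxy : x < y) (hyz : y < z) (hyx1 : y < x + 1)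
    (hzy1 : z < y + 1) (h1 : |y - x| < ρ') (h2 : |z - y| < ρ') :
    EL b x y z = 0 ↔
      Step h ((φ x + φ y) / 2) ((φ y - φ x) / 2) ((φ y + φ z) / 2) ((φ z - φ y) / 2) := by
  have hm := T.strictMono
  have a1 := hm hxy
  have a2 := hm hyz
  have a3 := hm hyx1
  have a4 := hm hzy1
  rw [T.φp] at a3 a4
  have eφ : (φ x + φ y) / 2 + (φ y - φ x) / 2 = φ y := by ring
  rw [EL_real_iff T hρ' hb h1 h2]
  constructor
  · intro hK
    refine step_of_K T.tab.1 T.tab.2.1 T.tab.2.2 (by linarith) (by linarith) (by linarith)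
      (by linarith) (by ring) ?_
    rw [eφ]
    exact hK
  · intro hS
    have := hS.K_eq
    rwa [eφ] at this

end

/-- **THMA-A1.** Every table has a generating function in normal form in the (complexified)
Lazutkin coordinate. -/
theorem main_A1 {h : ℝ → ℝ} (hh : IsTable h) :
    ∃ (κ ρ Λ L : ℝ) (H HH lam Φ : ℂ → ℂ) (l φ : ℝ → ℝ) (ρ' M : ℝ) (b : ℂ → ℂ → ℂ),
      LD h κ ρ Λ L H HH lam Φ l φ ∧ ρ' ≤ ρ / 2 ∧ Gen ρ' M b ∧ IsGen ρ Λ H HH Φ ρ' b := by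
  obtain ⟨κ, ρ, Λ, L, H, HH, lam, Φ, l, φ, T⟩ := exists_LD hh
  obtain ⟨ρ', M, b, h1, h2, h3⟩ := T.exists_gen
  exact ⟨κ, ρ, Λ, L, H, HH, lam, Φ, l, φ, ρ', M, b, T, h1, h2, h3⟩

end Vale.Agent.P097.H202
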