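import Vale.Agent.P097.H202.Est
import Vale.Agent.P097.H407.Hol
import Vale.Agent.P097.H900.Defs

set_option linter.all false

/-! # P097 / Theorem A / A1 : division of a jointly holomorphic function by a power -/

open Complex Metric Filter Topology Set
open Vale.Agent.P097.TA

namespace Vale.Agent.P097.H202

/-- Cauchy formula for the quotient by a power -/
theorem quot_pow {f : ℂ → ℂ} {R' R C : ℝ} {n : ℕ} (hR : 0 < R) (hRR : R < R')
    (hf : DifferentiableOn ℂ f (ball 0 R')) (hb : ∀ z : ℂ, ‖z‖ < R' → ‖f z‖ ≤ C * ‖z‖ ^ (n + 1))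
    {d : ℂ} (hd : ‖d‖ < R) :
    f d = d ^ (n + 1) *
      ((2 * Real.pi * I)⁻¹ * ∮ ζ in C(0, R), (ζ - d)⁻¹ * (f ζ / ζ ^ (n + 1))) := by
  have hR' : 0 < R' := hR.trans hRR
  rcases eq_or_ne d 0 with rfl | hd0
  · have := hb 0 (by simpa using hR')
    simp only [norm_zero, ne_eq, Nat.add_eq_zero_iff, one_ne_zero, and_false, not_false_eq_true,
      zero_pow, mul_zero, norm_le_zero_iff] at this
    rw [this]
    simp
  set g : ℂ → ℂ := fun ζ => f ζ / ζ ^ (n + 1) with hg
  have hC : 0 ≤ C := by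
    have h1 := hb d (hd.trans hRR)
    have h2 : 0 < ‖d‖ ^ (n + 1) := pow_pos (norm_pos_iff.2 hd0) _
    have h3 := (norm_nonneg _).trans h1
    by_contra hcon
    push Not at hcon
    nlinarith
  have hgd : DifferentiableOn ℂ g (ball 0 R' \ {0}) := by
    refine (hf.mono diff_subset).div (by fun_prop) ?_
    intro z hz
    exact pow_ne_zero _ hz.2
  have hgb : BddAbove (norm ∘ g '' (ball 0 R' \ {0})) := by
    refine ⟨C, ?_⟩
    rintro _ ⟨z, hz, rfl⟩
    have h1 := hb z (by simpa using hz.1)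
    have h2 : 0 < ‖z‖ ^ (n + 1) := pow_pos (norm_pos_iff.2 hz.2) _
    simp only [Function.comp, hg, norm_div, norm_pow]
    rwa [div_le_iff₀ h2]
  have hG := Complex.differentiableOn_update_limUnder_of_bddAbove (ball_mem_nhds 0 hR') hgd hgb
  set G : ℂ → ℂ := Function.update g 0 (limUnder (𝓝[≠] 0) g) with hGdef
  have h1 := (hG.mono (closedBall_subset_ball hRR)).circleIntegral_sub_inv_smul (w := d)
    (by simpa using hd)
  have h2 : G d = f d / d ^ (n + 1) := by
    rw [hGdef, Function.update_of_ne hd0]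
  have h3 : (∮ ζ in C(0, R), (ζ - d)⁻¹ * (f ζ / ζ ^ (n + 1)))
      = ∮ ζ in C(0, R), (ζ - d)⁻¹ • G ζ := by
    refine circleIntegral.integral_congr hR.le ?_
    intro ζ hζ
    have hζ0 : ζ ≠ 0 := by
      rintro rfl
      rw [mem_sphere, dist_self] at hζ
      linarith
    simp only [smul_eq_mul, hGdef]
    rw [Function.update_of_ne hζ0]
  rw [h3, h1, h2, smul_eq_mul, ← mul_assoc (2 * (Real.pi : ℂ) * I)⁻¹, inv_mul_cancel₀, one_mul,
    mul_div_cancel₀ _ (pow_ne_zero _ hd0)]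
  simp [Real.pi_ne_zero]

theorem isOpen_box (κ r : ℝ) : IsOpen {p : ℂ × ℂ | |p.1.im| < κ ∧ ‖p.2‖ < r} := by
  have h1 : IsOpen {p : ℂ × ℂ | |p.1.im| < κ} :=
    isOpen_lt (by fun_prop) continuous_const
  have h2 : IsOpen {p : ℂ × ℂ | ‖p.2‖ < r} := isOpen_lt (by fun_prop) continuous_const
  exact h1.inter h2

/-- equality off the centre implies equality -/
theorem eq_of_punct {f g : ℂ → ℂ} {R : ℝ} (hf : ContinuousAt f 0) (hg : ContinuousAt g 0)
    (h : ∀ d : ℂ, d ≠ 0 → ‖d‖ < R → f d = g d) : ∀ d : ℂ, ‖d‖ < R → f d = g d := by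
  intro d hd
  rcases eq_or_ne d 0 with rfl | hd0
  · have hR : 0 < R := by simpa using hd
    have h1 : f =ᶠ[𝓝[≠] 0] g := by
      filter_upwards [self_mem_nhdsWithin, nhdsWithin_le_nhds (ball_mem_nhds (0 : ℂ) hR)] with z hz hz'
      exact h z hz (by simpa using hz')
    exact tendsto_nhds_unique ((hf.mono_left nhdsWithin_le_nhds).congr' h1)
      (hg.mono_left nhdsWithin_le_nhds)
  · exact h d hd0 hd

/-- division of a jointly holomorphic function by a power of the second variable -/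
theorem div_pow_JD {q : ℂ → ℂ → ℂ} {κ R' C : ℝ} (n : ℕ) (hR' : 0 < R') (hC : 0 ≤ C)
    (hq : JD q {p | |p.1.im| < κ ∧ ‖p.2‖ < R'})
    (hb : ∀ m d : ℂ, |m.im| < κ → ‖d‖ < R' → ‖q m d‖ ≤ C * ‖d‖ ^ (n + 1)) :
    ∃ b : ℂ → ℂ → ℂ, JD b {p | |p.1.im| < κ ∧ ‖p.2‖ < R' / 2} ∧
      (∀ m d : ℂ, |m.im| < κ → ‖d‖ < R' / 2 → q m d = d ^ (n + 1) * b m d) ∧
      (∀ m d : ℂ, |m.im| < κ → ‖d‖ < R' / 2 → ‖b m d‖ ≤ C) ∧
      ∀ m : ℂ, |m.im| < κ → ContinuousAt (b m) 0 := by
  set b : ℂ → ℂ → ℂ := fun m d => (2 * Real.pi * I)⁻¹ *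
    ∮ ζ in C(0, R' / 2), (ζ - d)⁻¹ * (q m ζ / ζ ^ (n + 1)) with hbdef
  set W : Set ℂ := {ζ | R' / 4 < ‖ζ‖ ∧ ‖ζ‖ < R'} with hW
  have hWo : IsOpen W := (isOpen_lt continuous_const continuous_norm).inter
    (isOpen_lt continuous_norm continuous_const)
  -- on each ball of radius `s < R' / 2` the kernel is holomorphic near the circle
  have hJD : JD b {p | |p.1.im| < κ ∧ ‖p.2‖ < R' / 2} := by
    intro p hp
    apply DifferentiableAt.differentiableWithinAt
    obtain ⟨hp1, hp2⟩ := hp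
    obtain ⟨s, hs1, hs2⟩ := exists_between hp2
    have hs0 : 0 < s := lt_of_le_of_lt (norm_nonneg _) hs1
    set U : Set (ℂ × ℂ) := {p | |p.1.im| < κ ∧ ‖p.2‖ < s} with hU
    have hUo : IsOpen U := isOpen_box κ s
    set W' : Set ℂ := {ζ | s < ‖ζ‖ ∧ ‖ζ‖ < R'} with hW'
    have hWo' : IsOpen W' := (isOpen_lt continuous_const continuous_norm).inter
      (isOpen_lt continuous_norm continuous_const)
    have hG : DifferentiableOn ℂ (fun x : (ℂ × ℂ) × ℂ =>
        (x.2 - x.1.2)⁻¹ * (q x.1.1 x.2 / x.2 ^ (n + 1))) (U ×ˢ W') := by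
      have h1 : DifferentiableOn ℂ (fun x : (ℂ × ℂ) × ℂ => q x.1.1 x.2) (U ×ˢ W') := by
        have h2 : DifferentiableOn ℂ (fun p : ℂ × ℂ => q p.1 p.2)
          {p | |p.1.im| < κ ∧ ‖p.2‖ < R'} := hq
        refine h2.comp (f := fun x : (ℂ × ℂ) × ℂ => (x.1.1, x.2))
          (Differentiable.differentiableOn (by fun_prop)) ?_
        intro x hx
        exact ⟨hx.1.1, hx.2.2⟩
      have h7 : DifferentiableOn ℂ (fun x : (ℂ × ℂ) × ℂ => x.2 - x.1.2) (U ×ˢ W') :=
        Differentiable.differentiableOn (by fun_prop)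
      have h8 : DifferentiableOn ℂ (fun x : (ℂ × ℂ) × ℂ => x.2 ^ (n + 1)) (U ×ˢ W') :=
        Differentiable.differentiableOn (by fun_prop)
      simp only [div_eq_mul_inv]
      refine DifferentiableOn.mul (h7.inv ?_) (h1.mul (h8.inv ?_))
      · intro x hx h0
        have h3 := hx.1.2
        have h4 := hx.2.1
        rw [sub_eq_zero] at h0
        rw [h0] at h4
        exact lt_asymm h3 h4
      · intro x hx
        apply pow_ne_zero
        intro h0
        have h4 := hx.2.1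
        rw [h0, norm_zero] at h4
        linarith
    have h5 := Hol.differentiableOn_circleIntegral (c := 0) (R := R' / 2) (by positivity) hUo hWo'
      (by
        intro ζ hζ
        rw [mem_sphere, dist_zero_right] at hζ
        rw [hW', mem_setOf_eq, hζ]
        exact ⟨hs2, by linarith⟩) hG
    have h6 : DifferentiableOn ℂ (fun p : ℂ × ℂ => b p.1 p.2) U := by
      rw [hbdef]
      exact h5.const_mul _
    exact h6.differentiableAt (hUo.mem_nhds ⟨hp1, hs1⟩)
  have hopen := isOpen_box κ (R' / 2)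
  have heq : ∀ m d : ℂ, |m.im| < κ → ‖d‖ < R' / 2 → q m d = d ^ (n + 1) * b m d := by
    intro m d hm hd
    have hqm : DifferentiableOn ℂ (q m) (ball 0 R') := by
      have h2 : DifferentiableOn ℂ (fun p : ℂ × ℂ => q p.1 p.2)
          {p | |p.1.im| < κ ∧ ‖p.2‖ < R'} := hq
      refine h2.comp (f := fun x : ℂ => (m, x)) (by fun_prop) ?_
      intro x hx
      exact ⟨hm, by simpa using hx⟩
    exact quot_pow (by positivity) (by linarith) hqm (fun z hz => hb m z hm hz) hd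
  have hcont : ∀ m : ℂ, |m.im| < κ → ContinuousAt (b m) 0 := by
    intro m hm
    have h2 : ContinuousAt (fun p : ℂ × ℂ => b p.1 p.2) (m, 0) :=
      (hJD.differentiableAt (hopen.mem_nhds ⟨hm, by simpa using hR'⟩)).continuousAt
    exact h2.comp (f := fun x : ℂ => (m, x)) (by fun_prop)
  refine ⟨b, hJD, heq, ?_, hcont⟩
  intro m d hm hd
  have hne : ∀ d : ℂ, d ≠ 0 → ‖d‖ < R' / 2 → ‖b m d‖ ≤ C := by
    intro d hd0 hd
    have h1 := hb m d hm (by linarith)
    rw [heq m d hm hd, norm_mul, norm_pow, mul_comm C] at h1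
    exact le_of_mul_le_mul_left h1 (pow_pos (norm_pos_iff.2 hd0) _)
  rcases eq_or_ne d 0 with rfl | hd0
  · have h1 : ∀ᶠ z in 𝓝[≠] (0 : ℂ), ‖b m z‖ ≤ C := by
      filter_upwards [self_mem_nhdsWithin, nhdsWithin_le_nhds (ball_mem_nhds (0 : ℂ)
        (show 0 < R' / 2 by positivity))] with z hz hz'
      exact hne z hz (by simpa using hz')
    exact le_of_tendsto ((hcont m hm).norm.mono_left nhdsWithin_le_nhds) h1
  · exact hne d hd0 hd

end Vale.Agent.P097.H202
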