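import Vale.Agent.P097.H202.Strip

set_option linter.all false

/-! # P097 / Theorem A / A1 : Taylor estimates by integration -/

open Complex Metric Filter Topology Set

namespace Vale.Agent.P097.H202

/-- integration of a bound -/
theorem int_bd {f f' : ℂ → ℂ} {R C : ℝ} {n : ℕ} (hC : 0 ≤ C)
    (hd : ∀ z : ℂ, ‖z‖ < R → HasDerivAt f (f' z) z) (h0 : f 0 = 0)
    (hb : ∀ z : ℂ, ‖z‖ < R → ‖f' z‖ ≤ C * ‖z‖ ^ n) :
    ∀ z : ℂ, ‖z‖ < R → ‖f z‖ ≤ C * ‖z‖ ^ (n + 1) := by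
  intro z hz
  have hin : ∀ w ∈ closedBall (0 : ℂ) ‖z‖, ‖w‖ ≤ ‖z‖ := by
    intro w hw
    rwa [mem_closedBall, dist_zero_right] at hw
  have h1 := Convex.norm_image_sub_le_of_norm_hasDerivWithin_le (f := f) (f' := f')
    (C := C * ‖z‖ ^ n) (s := closedBall (0 : ℂ) ‖z‖) (x := 0) (y := z)
    (fun w hw => (hd w (lt_of_le_of_lt (hin w hw) hz)).hasDerivWithinAt)
    (fun w hw => by
      refine (hb w (lt_of_le_of_lt (hin w hw) hz)).trans ?_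
      gcongr
      exact hin w hw)
    (convex_closedBall _ _) (mem_closedBall_self (norm_nonneg _))
    (by rw [mem_closedBall, dist_zero_right])
  rw [h0, sub_zero, sub_zero] at h1
  rw [pow_succ, ← mul_assoc]
  exact h1

theorem norm_sin_le {z : ℂ} (hz : ‖z‖ ≤ 1) : ‖Complex.sin z‖ ≤ 2 * ‖z‖ := by
  have h1 := Complex.norm_exp_sub_one_le (x := z * I) (by simpa using hz)
  have h2 := Complex.norm_exp_sub_one_le (x := -z * I) (by simpa using hz)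
  rw [norm_mul, norm_I, mul_one] at h1
  rw [norm_mul, norm_I, mul_one, norm_neg] at h2
  have h3 : Complex.sin z = ((Complex.exp (-z * I) - 1) - (Complex.exp (z * I) - 1)) * I / 2 := by
    rw [Complex.sin]
    ring
  rw [h3, norm_div, norm_mul, norm_I, mul_one]
  have h4 := norm_sub_le (Complex.exp (-z * I) - 1) (Complex.exp (z * I) - 1)
  rw [show ‖(2 : ℂ)‖ = 2 by simp]
  linarith

theorem mem_Str_add {κ κ₁ : ℝ} {ψ δ : ℂ} (hψ : ψ ∈ Str κ₁) (hδ : ‖δ‖ ≤ κ - κ₁) : ψ + δ ∈ Str κ := by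
  rw [mem_Str, add_im]
  have h1 := abs_add_le ψ.im δ.im
  have h2 := abs_im_le_norm δ
  have h3 : |ψ.im| < κ₁ := hψ
  linarith

theorem mem_Str_sub {κ κ₁ : ℝ} {ψ δ : ℂ} (hψ : ψ ∈ Str κ₁) (hδ : ‖δ‖ ≤ κ - κ₁) : ψ - δ ∈ Str κ := by
  rw [sub_eq_add_neg]
  exact mem_Str_add hψ (by rwa [norm_neg])

/-- periodicity of the derivative -/
theorem per_deriv {κ P : ℝ} {f : ℂ → ℂ} (hper : ∀ z ∈ Str κ, f (z + P) = f z) :
    ∀ z ∈ Str κ, deriv f (z + P) = deriv f z := by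
  intro z hz
  have h1 : (fun w => f (w + P)) =ᶠ[𝓝 z] f := by
    filter_upwards [(isOpen_Str κ).mem_nhds hz] with w hw
    exact hper w hw
  have h2 := h1.deriv_eq
  rwa [deriv_comp_add_const] at h2

/-- the deviation of the flat generating function from its leading term -/
theorem kf_bd {κ κ₁ P : ℝ} (hP : 0 < P) (hκ : κ₁ < κ) {H HH : ℂ → ℂ}
    (dH : DifferentiableOn ℂ H (Str κ)) (hper : ∀ z ∈ Str κ, H (z + P) = H z)
    (dHH : ∀ z ∈ Str κ, HasDerivAt HH (H z) z) :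
    ∃ R C : ℝ, 0 < R ∧ R ≤ κ - κ₁ ∧ 0 ≤ C ∧ ∀ ψ ∈ Str κ₁, ∀ δ : ℂ, ‖δ‖ < R →
      ‖HH (ψ + δ) - HH (ψ - δ) - 2 * H ψ * Complex.sin δ
        - (H ψ + deriv (deriv H) ψ) * δ ^ 3 / 3‖ ≤ C * ‖δ‖ ^ 5 := by
  set κ₂ : ℝ := (κ + κ₁) / 2 with hκ₂
  have h12 : κ₁ < κ₂ := by rw [hκ₂]; linarith
  have h2κ : κ₂ < κ := by rw [hκ₂]; linarith
  have d1 : DifferentiableOn ℂ (deriv H) (Str κ) := dH.deriv (isOpen_Str κ)
  have d2 : DifferentiableOn ℂ (deriv (deriv H)) (Str κ) := d1.deriv (isOpen_Str κ)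
  have d3 : DifferentiableOn ℂ (deriv (deriv (deriv H))) (Str κ) := d2.deriv (isOpen_Str κ)
  have p3 := per_deriv (per_deriv (per_deriv hper))
  obtain ⟨L, hL, -, hlip⟩ := lip_strip hP h2κ d3 p3
  obtain ⟨M, hM, hMb⟩ := bdd_strip (β' := κ₁) hP hκ dH.continuousOn hper
  have hd : ∀ (f : ℂ → ℂ), DifferentiableOn ℂ f (Str κ) → ∀ z ∈ Str κ, HasDerivAt f (deriv f z) z :=
    fun f hf z hz => (hf.differentiableAt ((isOpen_Str κ).mem_nhds hz)).hasDerivAt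
  refine ⟨min 1 ((κ - κ₁) / 2), 2 * L + 4 * M, lt_min one_pos (by linarith),
    (min_le_right _ _).trans (by linarith), by positivity, ?_⟩
  intro ψ hψ
  have hC : 0 ≤ 2 * L + 4 * M := by positivity
  have hin : ∀ δ : ℂ, ‖δ‖ < min 1 ((κ - κ₁) / 2) →
      (ψ + δ ∈ Str κ₂ ∧ ψ - δ ∈ Str κ₂) ∧ (ψ + δ ∈ Str κ ∧ ψ - δ ∈ Str κ) := by
    intro δ hδ
    have h1 : ‖δ‖ ≤ κ₂ - κ₁ := by
      rw [hκ₂]
      have := lt_of_lt_of_le hδ (min_le_right _ _)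
      linarith
    have h2 : ‖δ‖ ≤ κ - κ₁ := by linarith
    exact ⟨⟨mem_Str_add hψ h1, mem_Str_sub hψ h1⟩, ⟨mem_Str_add hψ h2, mem_Str_sub hψ h2⟩⟩
  -- derivative of `δ ↦ f (ψ + δ)` and `δ ↦ f (ψ - δ)`
  have hp : ∀ (f f' : ℂ → ℂ), (∀ z ∈ Str κ, HasDerivAt f (f' z) z) → ∀ δ : ℂ,
      ‖δ‖ < min 1 ((κ - κ₁) / 2) → HasDerivAt (fun δ => f (ψ + δ)) (f' (ψ + δ)) δ := by
    intro f f' hf δ hδ
    have h1 := (hf _ (hin δ hδ).2.1).comp δ ((hasDerivAt_id δ).const_add ψ)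
    exact h1.congr_deriv (by ring)
  have hm : ∀ (f f' : ℂ → ℂ), (∀ z ∈ Str κ, HasDerivAt f (f' z) z) → ∀ δ : ℂ,
      ‖δ‖ < min 1 ((κ - κ₁) / 2) → HasDerivAt (fun δ => f (ψ - δ)) (-f' (ψ - δ)) δ := by
    intro f f' hf δ hδ
    have h1 := (hf _ (hin δ hδ).2.2).comp δ ((hasDerivAt_id δ).const_sub ψ)
    exact h1.congr_deriv (by ring)
  set ρ : ℂ := H ψ + deriv (deriv H) ψ with hρ
  have hpow : ∀ (n : ℕ) (δ : ℂ), HasDerivAt (fun δ : ℂ => δ ^ n) (n * δ ^ (n - 1)) δ :=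
    fun n δ => hasDerivAt_pow n δ
  -- fourth derivative
  have b4 : ∀ δ : ℂ, ‖δ‖ < min 1 ((κ - κ₁) / 2) →
      ‖deriv (deriv (deriv H)) (ψ + δ) - deriv (deriv (deriv H)) (ψ - δ)
        - 2 * H ψ * Complex.sin δ‖ ≤ (2 * L + 4 * M) * ‖δ‖ ^ 1 := by
    intro δ hδ
    have h1 := hlip _ (hin δ hδ).1.1 _ (hin δ hδ).1.2
    have h2 : ‖ψ + δ - (ψ - δ)‖ = 2 * ‖δ‖ := by
      rw [show ψ + δ - (ψ - δ) = 2 * δ by ring, norm_mul]
      simp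
    rw [h2] at h1
    have h3 : ‖2 * H ψ * Complex.sin δ‖ ≤ 4 * M * ‖δ‖ := by
      rw [norm_mul, norm_mul]
      have h4 := hMb ψ (le_of_lt hψ)
      have h5 := norm_sin_le (z := δ) (le_of_lt (lt_of_lt_of_le hδ (min_le_left _ _)))
      have h6 : ‖H ψ‖ * ‖Complex.sin δ‖ ≤ M * (2 * ‖δ‖) :=
        mul_le_mul h4 h5 (norm_nonneg _) hM
      rw [show ‖(2 : ℂ)‖ = 2 by simp]
      nlinarith
    refine (norm_sub_le _ _).trans ?_
    rw [pow_one]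
    nlinarith
  have b3 : ∀ δ : ℂ, ‖δ‖ < min 1 ((κ - κ₁) / 2) →
      ‖deriv (deriv H) (ψ + δ) + deriv (deriv H) (ψ - δ) + 2 * H ψ * Complex.cos δ - 2 * ρ‖
        ≤ (2 * L + 4 * M) * ‖δ‖ ^ 2 := by
    refine int_bd (n := 1) hC (f' := fun δ => deriv (deriv (deriv H)) (ψ + δ)
      - deriv (deriv (deriv H)) (ψ - δ) - 2 * H ψ * Complex.sin δ) ?_ ?_ b4
    · intro δ hδ
      have h1 := hp _ _ (hd _ d2) δ hδ
      have h2 := hm _ _ (hd _ d2) δ hδ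
      have h3 := ((Complex.hasDerivAt_cos δ).const_mul (2 * H ψ))
      refine (((h1.add h2).add h3).sub_const (2 * ρ)).congr_deriv ?_
      ring
    · simp only [add_zero, sub_zero, Complex.cos_zero, hρ]
      ring
  have b2 : ∀ δ : ℂ, ‖δ‖ < min 1 ((κ - κ₁) / 2) →
      ‖deriv H (ψ + δ) - deriv H (ψ - δ) + 2 * H ψ * Complex.sin δ - 2 * ρ * δ‖
        ≤ (2 * L + 4 * M) * ‖δ‖ ^ 3 := by
    refine int_bd (n := 2) hC (f' := fun δ => deriv (deriv H) (ψ + δ) + deriv (deriv H) (ψ - δ)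
      + 2 * H ψ * Complex.cos δ - 2 * ρ) ?_ ?_ b3
    · intro δ hδ
      have h1 := hp _ _ (hd _ d1) δ hδ
      have h2 := hm _ _ (hd _ d1) δ hδ
      have h3 := ((Complex.hasDerivAt_sin δ).const_mul (2 * H ψ))
      have h4 := (hasDerivAt_id δ).const_mul (2 * ρ)
      refine (((h1.sub h2).add h3).sub h4).congr_deriv ?_
      simp only [id, mul_one]
      ring
    · simp
  have b1 : ∀ δ : ℂ, ‖δ‖ < min 1 ((κ - κ₁) / 2) →
      ‖H (ψ + δ) + H (ψ - δ) - 2 * H ψ * Complex.cos δ - ρ * δ ^ 2‖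
        ≤ (2 * L + 4 * M) * ‖δ‖ ^ 4 := by
    refine int_bd (n := 3) hC (f' := fun δ => deriv H (ψ + δ) - deriv H (ψ - δ)
      + 2 * H ψ * Complex.sin δ - 2 * ρ * δ) ?_ ?_ b2
    · intro δ hδ
      have h1 := hp _ _ (hd _ dH) δ hδ
      have h2 := hm _ _ (hd _ dH) δ hδ
      have h3 := ((Complex.hasDerivAt_cos δ).const_mul (2 * H ψ))
      have h4 := (hpow 2 δ).const_mul ρ
      refine (((h1.add h2).sub h3).sub h4).congr_deriv ?_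
      simp
      ring
    · simp
      ring
  refine int_bd (n := 4) hC (f' := fun δ => H (ψ + δ) + H (ψ - δ)
      - 2 * H ψ * Complex.cos δ - ρ * δ ^ 2) ?_ ?_ b1
  · intro δ hδ
    have h1 := hp _ _ dHH δ hδ
    have h2 := hm _ _ dHH δ hδ
    have h3 := ((Complex.hasDerivAt_sin δ).const_mul (2 * H ψ))
    have h4 := ((hpow 3 δ).const_mul ρ).div_const 3
    refine (((h1.sub h2).sub h3).sub h4).congr_deriv ?_
    simp
    ring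
  · simp

/-- midpoint estimates for the complex Lazutkin coordinate -/
theorem mid_bd {κ κ₁ P : ℝ} (hP : 0 < P) (hκ : κ₁ < κ) {Φ Φ1 : ℂ → ℂ}
    (dΦ1 : DifferentiableOn ℂ Φ1 (Str κ)) (hper : ∀ z ∈ Str κ, Φ1 (z + P) = Φ1 z)
    (dΦ : ∀ z ∈ Str κ, HasDerivAt Φ (Φ1 z) z) :
    ∃ C : ℝ, 0 ≤ C ∧ ∀ m ∈ Str κ₁, ∀ d : ℂ, ‖d‖ < κ - κ₁ →
      ‖(Φ (m + d / 2) - Φ (m - d / 2)) / 2 - Φ1 m * d / 2‖ ≤ C * ‖d‖ ^ 3 ∧
      ‖(Φ (m + d / 2) + Φ (m - d / 2)) / 2 - Φ m‖ ≤ C * ‖d‖ ^ 2 := by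
  set κ₂ : ℝ := (κ + κ₁) / 2 with hκ₂
  have h12 : κ₁ < κ₂ := by rw [hκ₂]; linarith
  have h2κ : κ₂ < κ := by rw [hκ₂]; linarith
  have d2 : DifferentiableOn ℂ (deriv Φ1) (Str κ) := dΦ1.deriv (isOpen_Str κ)
  have p2 := per_deriv hper
  obtain ⟨L, hL, -, hlip⟩ := lip_strip hP h2κ d2 p2
  obtain ⟨L', hL', -, hlip'⟩ := lip_strip hP h2κ dΦ1 hper
  have hd : ∀ (f : ℂ → ℂ), DifferentiableOn ℂ f (Str κ) → ∀ z ∈ Str κ, HasDerivAt f (deriv f z) z :=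
    fun f hf z hz => (hf.differentiableAt ((isOpen_Str κ).mem_nhds hz)).hasDerivAt
  refine ⟨L + L', by positivity, ?_⟩
  intro m hm0 
  have hin : ∀ d : ℂ, ‖d‖ < κ - κ₁ → 
      (m + d / 2 ∈ Str κ₂ ∧ m - d / 2 ∈ Str κ₂) ∧ (m + d / 2 ∈ Str κ ∧ m - d / 2 ∈ Str κ) := by
    intro d hd
    have h0 : ‖d / 2‖ = ‖d‖ / 2 := by simp
    have h1 : ‖d / 2‖ ≤ κ₂ - κ₁ := by
      rw [hκ₂, h0]
      linarith
    have h2 : ‖d / 2‖ ≤ κ - κ₁ := by linarith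
    exact ⟨⟨mem_Str_add hm0 h1, mem_Str_sub hm0 h1⟩, ⟨mem_Str_add hm0 h2, mem_Str_sub hm0 h2⟩⟩
  have hp : ∀ (f f' : ℂ → ℂ), (∀ z ∈ Str κ, HasDerivAt f (f' z) z) → ∀ d : ℂ,
      ‖d‖ < κ - κ₁ → HasDerivAt (fun d => f (m + d / 2)) (f' (m + d / 2) / 2) d := by
    intro f f' hf d hd
    have h1 := (hf _ (hin d hd).2.1).comp d (((hasDerivAt_id d).div_const 2).const_add m)
    refine h1.congr_deriv ?_
    ring
  have hm : ∀ (f f' : ℂ → ℂ), (∀ z ∈ Str κ, HasDerivAt f (f' z) z) → ∀ d : ℂ,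
      ‖d‖ < κ - κ₁ → HasDerivAt (fun d => f (m - d / 2)) (-f' (m - d / 2) / 2) d := by
    intro f f' hf d hd
    have h1 := (hf _ (hin d hd).2.2).comp d (((hasDerivAt_id d).div_const 2).const_sub m)
    refine h1.congr_deriv ?_
    ring
  have e2 : ∀ d : ℂ, ‖d‖ < κ - κ₁ →
      ‖(deriv Φ1 (m + d / 2) - deriv Φ1 (m - d / 2)) / 8‖ ≤ (L + L') * ‖d‖ ^ 1 := by
    intro d hd
    have h1 := hlip _ (hin d hd).1.1 _ (hin d hd).1.2
    rw [show m + d / 2 - (m - d / 2) = d by ring] at h1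
    rw [norm_div, pow_one]
    have : ‖(8 : ℂ)‖ = 8 := by simp
    rw [this]
    have h2 : 0 ≤ L * ‖d‖ := by positivity
    have h3 : 0 ≤ L' * ‖d‖ := by positivity
    linarith
  have e1 : ∀ d : ℂ, ‖d‖ < κ - κ₁ →
      ‖(Φ1 (m + d / 2) + Φ1 (m - d / 2)) / 4 - Φ1 m / 2‖ ≤ (L + L') * ‖d‖ ^ 2 := by
    refine int_bd (n := 1) (by positivity)
      (f' := fun d => (deriv Φ1 (m + d / 2) - deriv Φ1 (m - d / 2)) / 8) ?_ ?_ e2
    · intro d hd'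
      have h1 := hp _ _ (hd _ dΦ1) d hd'
      have h2 := hm _ _ (hd _ dΦ1) d hd'
      refine (((h1.add h2).div_const 4).sub_const _).congr_deriv ?_
      ring
    · simp
      ring
  have e0 : ∀ d : ℂ, ‖d‖ < κ - κ₁ →
      ‖(Φ (m + d / 2) - Φ (m - d / 2)) / 2 - Φ1 m * d / 2‖ ≤ (L + L') * ‖d‖ ^ 3 := by
    refine int_bd (n := 2) (by positivity)
      (f' := fun d => (Φ1 (m + d / 2) + Φ1 (m - d / 2)) / 4 - Φ1 m / 2) ?_ ?_ e1
    · intro d hd'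
      have h1 := hp _ _ dΦ d hd'
      have h2 := hm _ _ dΦ d hd'
      have h3 := ((hasDerivAt_id d).const_mul (Φ1 m)).div_const 2
      refine (((h1.sub h2).div_const 2).sub h3).congr_deriv ?_
      ring
    · simp
  have e1' : ∀ d : ℂ, ‖d‖ < κ - κ₁ →
      ‖(Φ1 (m + d / 2) - Φ1 (m - d / 2)) / 4‖ ≤ (L + L') * ‖d‖ ^ 1 := by
    intro d hd
    have h1 := hlip' _ (hin d hd).1.1 _ (hin d hd).1.2
    rw [show m + d / 2 - (m - d / 2) = d by ring] at h1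
    rw [norm_div, pow_one]
    have : ‖(4 : ℂ)‖ = 4 := by simp
    rw [this]
    have h2 : 0 ≤ L * ‖d‖ := by positivity
    have h3 : 0 ≤ L' * ‖d‖ := by positivity
    linarith
  have e0' : ∀ d : ℂ, ‖d‖ < κ - κ₁ →
      ‖(Φ (m + d / 2) + Φ (m - d / 2)) / 2 - Φ m‖ ≤ (L + L') * ‖d‖ ^ 2 := by
    refine int_bd (n := 1) (by positivity)
      (f' := fun d => (Φ1 (m + d / 2) - Φ1 (m - d / 2)) / 4) ?_ ?_ e1'
    · intro d hd'
      have h1 := hp _ _ dΦ d hd'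
      have h2 := hm _ _ dΦ d hd'
      refine (((h1.add h2).div_const 2).sub_const _).congr_deriv ?_
      ring
    · simp
  exact fun d hd => ⟨e0 d hd, e0' d hd⟩

end Vale.Agent.P097.H202
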