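import Vale.Agent.P097.H202.LD

set_option linter.all false

/-! # P097 / Theorem A / A1 : the generating function in the Lazutkin coordinate -/

open Complex Metric Filter Topology Set
open scoped ComplexConjugate
open Vale.Agent.P097.TA

namespace Vale.Agent.P097.H202

variable {h : ℝ → ℝ} {κ ρ Λ L : ℝ} {H HH lam Φ : ℂ → ℂ} {l φ : ℝ → ℝ}

namespace LD

variable (T : LD h κ ρ Λ L H HH lam Φ l φ)

include T

omit T in
theorem conj_num : conj (2 : ℂ) = 2 ∧ conj (4 : ℂ) = 4 ∧ conj (6 : ℂ) = 6 := by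
  refine ⟨?_, ?_, ?_⟩
  · exact map_ofNat (starRingEnd ℂ) 2
  · exact map_ofNat (starRingEnd ℂ) 4
  · exact map_ofNat (starRingEnd ℂ) 6

theorem F0_JD : JD (fun m d => F0 H HH Φ (m - d / 2) (m + d / 2))
    {p | |p.1.im| < ρ / 2 ∧ ‖p.2‖ < ρ / 2} := by
  have hρ := T.ρ0
  set S : Set (ℂ × ℂ) := {p | |p.1.im| < ρ / 2 ∧ ‖p.2‖ < ρ / 2} with hS
  have hy : ∀ p ∈ S, p.1 + p.2 / 2 ∈ Str ρ := by
    intro p hp
    refine mem_Str_add (κ₁ := ρ / 2) hp.1 ?_
    have h1 : ‖p.2 / 2‖ = ‖p.2‖ / 2 := by simp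
    rw [h1]
    have := hp.2
    linarith [norm_nonneg p.2]
  have hx : ∀ p ∈ S, p.1 - p.2 / 2 ∈ Str ρ := by
    intro p hp
    refine mem_Str_sub (κ₁ := ρ / 2) hp.1 ?_
    have h1 : ‖p.2 / 2‖ = ‖p.2‖ / 2 := by simp
    rw [h1]
    have := hp.2
    linarith [norm_nonneg p.2]
  have dy : DifferentiableOn ℂ (fun p : ℂ × ℂ => Φ (p.1 + p.2 / 2)) S :=
    T.dΦ'.comp (f := fun p : ℂ × ℂ => p.1 + p.2 / 2)
      (Differentiable.differentiableOn (by fun_prop)) hy
  have dx : DifferentiableOn ℂ (fun p : ℂ × ℂ => Φ (p.1 - p.2 / 2)) S :=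
    T.dΦ'.comp (f := fun p : ℂ × ℂ => p.1 - p.2 / 2)
      (Differentiable.differentiableOn (by fun_prop)) hx
  have d1 : DifferentiableOn ℂ (fun p : ℂ × ℂ => HH (Φ (p.1 + p.2 / 2))) S :=
    T.dHH'.comp dy fun p hp => T.Φm' (hy p hp)
  have d2 : DifferentiableOn ℂ (fun p : ℂ × ℂ => HH (Φ (p.1 - p.2 / 2))) S :=
    T.dHH'.comp dx fun p hp => T.Φm' (hx p hp)
  have d3 : DifferentiableOn ℂ
      (fun p : ℂ × ℂ => (Φ (p.1 - p.2 / 2) + Φ (p.1 + p.2 / 2)) / 2) S := by
    simp only [div_eq_mul_inv] at *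
    exact (dx.add dy).mul_const _
  have d4 : DifferentiableOn ℂ
      (fun p : ℂ × ℂ => (Φ (p.1 + p.2 / 2) - Φ (p.1 - p.2 / 2)) / 2) S := by
    simp only [div_eq_mul_inv] at *
    exact (dy.sub dx).mul_const _
  have d5 : DifferentiableOn ℂ
      (fun p : ℂ × ℂ => H ((Φ (p.1 - p.2 / 2) + Φ (p.1 + p.2 / 2)) / 2)) S :=
    T.dH.comp d3 fun p hp => Str_mono (by linarith [T.κ0]) (T.mid_mem (hx p hp) (hy p hp))
  have d6 : DifferentiableOn ℂ
      (fun p : ℂ × ℂ => Complex.sin ((Φ (p.1 + p.2 / 2) - Φ (p.1 - p.2 / 2)) / 2)) S := by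
    intro p hp
    exact (Complex.differentiable_sin _).comp_differentiableWithinAt p (d4 p hp)
  exact (d1.sub d2).sub ((d5.const_mul 2).mul d6)

/-- the generating function in normal form -/
theorem exists_gen : ∃ (ρ' M : ℝ) (b : ℂ → ℂ → ℂ), ρ' ≤ ρ / 2 ∧ Gen ρ' M b ∧
    ∀ x y : ℂ, |((x + y) / 2).im| < ρ' → ‖y - x‖ < ρ' →
      x ∈ Str ρ ∧ y ∈ Str ρ ∧ Fg b x y = 4 / (Λ : ℂ) ^ 3 * F0 H HH Φ x y := by
  have hκ := T.κ0
  have hρ := T.ρ0
  have hΛ := T.Λ0
  have hpi := Real.pi_pos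
  have hΛc : (Λ : ℂ) ≠ 0 := by exact_mod_cast hΛ.ne'
  obtain ⟨R, C, hR, hRρ, hC, hbd⟩ := T.F0_bd
  set g : ℂ → ℂ → ℂ := fun m d => F0 H HH Φ (m - d / 2) (m + d / 2) with hg
  set q : ℂ → ℂ → ℂ := fun m d => 4 / (Λ : ℂ) ^ 3 * g m d - d ^ 3 / 6 with hq
  have hgJ : JD g {p | |p.1.im| < ρ / 2 ∧ ‖p.2‖ < R} := by
    refine DifferentiableOn.mono T.F0_JD ?_
    intro p hp
    exact ⟨hp.1, lt_of_lt_of_le hp.2 hRρ⟩
  have hqJ : JD q {p | |p.1.im| < ρ / 2 ∧ ‖p.2‖ < R} := by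
    have h1 : DifferentiableOn ℂ (fun p : ℂ × ℂ => g p.1 p.2)
      {p | |p.1.im| < ρ / 2 ∧ ‖p.2‖ < R} := hgJ
    have h2 : DifferentiableOn ℂ (fun p : ℂ × ℂ => p.2 ^ 3 / 6)
      {p | |p.1.im| < ρ / 2 ∧ ‖p.2‖ < R} := Differentiable.differentiableOn (by fun_prop)
    exact (h1.const_mul _).sub h2
  have hqb : ∀ m d : ℂ, |m.im| < ρ / 2 → ‖d‖ < R → ‖q m d‖ ≤ 4 / Λ ^ 3 * C * ‖d‖ ^ (4 + 1) := by
    intro m d hm hd
    have h1 := hbd m hm d hd
    have h2 : q m d = 4 / (Λ : ℂ) ^ 3 * (g m d - (Λ : ℂ) ^ 3 * d ^ 3 / 24) := by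
      rw [hq]
      field_simp
      ring
    rw [h2, norm_mul, norm_div, norm_pow, norm_real, Real.norm_eq_abs, abs_of_pos hΛ,
      show ‖(4 : ℂ)‖ = 4 by simp, mul_assoc]
    gcongr
  obtain ⟨b, hbJ, hqeq, hbb, hbc⟩ := div_pow_JD 4 hR (by positivity) hqJ hqb
  -- symmetries of `q`
  obtain ⟨c, hc⟩ := T.HHp
  have memx : ∀ m d : ℂ, |m.im| < ρ / 2 → ‖d‖ < R → m - d / 2 ∈ Str ρ := by
    intro m d hm hd
    refine mem_Str_sub (κ₁ := ρ / 2) hm ?_
    rw [show ‖d / 2‖ = ‖d‖ / 2 by simp]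
    linarith [norm_nonneg d]
  have memy : ∀ m d : ℂ, |m.im| < ρ / 2 → ‖d‖ < R → m + d / 2 ∈ Str ρ := by
    intro m d hm hd
    refine mem_Str_add (κ₁ := ρ / 2) hm ?_
    rw [show ‖d / 2‖ = ‖d‖ / 2 by simp]
    linarith [norm_nonneg d]
  have qper : ∀ m d : ℂ, |m.im| < ρ / 2 → ‖d‖ < R → q (m + 1) d = q m d := by
    intro m d hm hd
    have hx := memx m d hm hd
    have hy := memy m d hm hd
    have hgp : g (m + 1) d = g m d := by
      simp only [hg, F0]
      rw [show m + 1 - d / 2 = (m - d / 2) + 1 by ring, show m + 1 + d / 2 = (m + d / 2) + 1 by ring,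
        T.Φp _ hx, T.Φp _ hy, hc _ (T.Φm' hx), hc _ (T.Φm' hy),
        show (Φ (m - d / 2) + 2 * (Real.pi : ℂ) + (Φ (m + d / 2) + 2 * Real.pi)) / 2
          = (Φ (m - d / 2) + Φ (m + d / 2)) / 2 + 2 * Real.pi by ring,
        T.Hp _ (Str_mono (by linarith) (T.mid_mem hx hy)),
        show (Φ (m + d / 2) + 2 * (Real.pi : ℂ) - (Φ (m - d / 2) + 2 * Real.pi)) / 2
          = (Φ (m + d / 2) - Φ (m - d / 2)) / 2 by ring]
      ring
    simp only [hq, hgp]
  have qodd : ∀ m d : ℂ, q m (-d) = -q m d := by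
    intro m d
    have hgo : g m (-d) = -g m d := by
      simp only [hg, F0]
      rw [show m - -d / 2 = m + d / 2 by ring, show m + -d / 2 = m - d / 2 by ring,
        add_comm (Φ (m + d / 2)) (Φ (m - d / 2)),
        show (Φ (m - d / 2) - Φ (m + d / 2)) / 2 = -((Φ (m + d / 2) - Φ (m - d / 2)) / 2) by ring,
        Complex.sin_neg]
      ring
    simp only [hq, hgo]
    ring
  have qreal : ∀ m d : ℂ, |m.im| < ρ / 2 → ‖d‖ < R → q (conj m) (conj d) = conj (q m d) := by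
    intro m d hm hd
    have hx := memx m d hm hd
    have hy := memy m d hm hd
    have hgr : g (conj m) (conj d) = conj (g m d) := by
      simp only [hg, F0]
      rw [show conj m - conj d / 2 = conj (m - d / 2) by simp [conj_num.1],
        show conj m + conj d / 2 = conj (m + d / 2) by simp [conj_num.1], T.Φc _ hx, T.Φc _ hy,
        T.HHc _ (T.Φm' hx), T.HHc _ (T.Φm' hy),
        show (conj (Φ (m - d / 2)) + conj (Φ (m + d / 2))) / 2
          = conj ((Φ (m - d / 2) + Φ (m + d / 2)) / 2) by simp [conj_num.1],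
        T.Hc _ (Str_mono (by linarith) (T.mid_mem hx hy)),
        show (conj (Φ (m + d / 2)) - conj (Φ (m - d / 2))) / 2
          = conj ((Φ (m + d / 2) - Φ (m - d / 2)) / 2) by simp [conj_num.1], Complex.sin_conj]
      simp only [map_sub, map_mul, conj_num.1]
    simp only [hq, hgr, map_sub, map_mul, map_div₀, map_pow, conj_ofReal, conj_num.2.1,
      conj_num.2.2]
  set ρ' : ℝ := min (min (ρ / 2) (R / 2)) 1 with hρ'
  have hρ'0 : 0 < ρ' := by positivity
  have hρ1 : ρ' ≤ ρ / 2 := (min_le_left _ _).trans (min_le_left _ _)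
  have hρ2 : ρ' ≤ R / 2 := (min_le_left _ _).trans (min_le_right _ _)
  have hne : ∀ {d : ℂ}, d ≠ 0 → d ^ (4 + 1) ≠ 0 := fun hd => pow_ne_zero _ hd
  have hneg : ∀ m : ℂ, |m.im| < ρ' → ContinuousAt (fun d => b m (-d)) 0 := by
    intro m hm
    have h1 : ContinuousAt (b m) (-0) := by
      rw [neg_zero]
      exact hbc m (by linarith)
    exact h1.comp (continuous_neg.continuousAt)
  refine ⟨ρ', max 1 (4 / Λ ^ 3 * C), b, hρ1, ⟨hρ'0, min_le_right _ _, le_max_left _ _, ?_, ?_, ?_, ?_,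
    ?_⟩, ?_⟩
  · refine DifferentiableOn.mono hbJ ?_
    intro p hp
    exact ⟨lt_of_lt_of_le hp.1 hρ1, lt_of_lt_of_le hp.2 hρ2⟩
  · intro m d hm hd
    exact (hbb m d (by linarith) (by linarith)).trans (le_max_right _ _)
  · intro m d hm hd
    refine eq_of_punct (R := ρ') (f := b (m + 1)) (g := b m)
      (hbc _ (by rw [add_im, one_im, add_zero]; linarith)) (hbc _ (by linarith)) ?_ d hd
    intro d hd0 hd
    have h1 := hqeq (m + 1) d (by rw [add_im, one_im, add_zero]; linarith) (by linarith)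
    rw [qper m d (by linarith) (by linarith), hqeq m d (by linarith) (by linarith)] at h1
    exact (mul_left_cancel₀ (hne hd0) h1).symm
  · intro m d hm hd
    refine eq_of_punct (R := ρ') (f := fun d => b m (-d)) (g := b m) (hneg m hm)
      (hbc _ (by linarith)) ?_ d hd
    intro d hd0 hd
    have h1 := hqeq m (-d) (by linarith) (by rw [norm_neg]; linarith)
    rw [qodd m d, hqeq m d (by linarith) (by linarith)] at h1
    have h2 : d ^ (4 + 1) * b m (-d) = d ^ (4 + 1) * b m d := by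
      have h3 : (-d) ^ (4 + 1) = -d ^ (4 + 1) := by ring
      rw [h3] at h1
      linear_combination h1
    exact mul_left_cancel₀ (hne hd0) h2
  · intro m d hm hd
    have hm' : |(conj m).im| < ρ' := by simpa using hm
    have hc1 : ContinuousAt (fun d => b (conj m) (conj d)) 0 := by
      have h1 : ContinuousAt (b (conj m)) (conj 0) := by
        rw [map_zero]
        exact hbc _ (by linarith)
      exact h1.comp (Complex.continuous_conj.continuousAt)
    have hc2 : ContinuousAt (fun d => conj (b m d)) 0 :=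
      Complex.continuous_conj.continuousAt.comp (hbc m (by linarith))
    refine eq_of_punct (R := ρ') (f := fun d => b (conj m) (conj d)) (g := fun d => conj (b m d))
      hc1 hc2 ?_ d hd
    intro d hd0 hd
    have h1 := hqeq (conj m) (conj d) (by linarith) (by rw [RCLike.norm_conj]; linarith)
    rw [qreal m d (by linarith) (by linarith), hqeq m d (by linarith) (by linarith), map_mul,
      map_pow] at h1
    have h3 : (conj d) ^ (4 + 1) ≠ 0 := by
      apply pow_ne_zero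
      simpa using hd0
    exact (mul_left_cancel₀ h3 h1).symm
  · intro x y hm hd
    have hx := memx ((x + y) / 2) (y - x) (by linarith) (by linarith)
    have hy := memy ((x + y) / 2) (y - x) (by linarith) (by linarith)
    have ex : (x + y) / 2 - (y - x) / 2 = x := by ring
    have ey : (x + y) / 2 + (y - x) / 2 = y := by ring
    rw [ex] at hx
    rw [ey] at hy
    refine ⟨hx, hy, ?_⟩
    have h1 := hqeq ((x + y) / 2) (y - x) (by linarith) (by linarith)
    simp only [hq, hg] at h1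
    rw [ex, ey] at h1
    rw [Fg]
    rw [show (4 + 1 : ℕ) = 5 from rfl] at h1
    linear_combination -h1

end LD

end Vale.Agent.P097.H202
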