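import Vale.Agent.P097.H202.Laz3
import Vale.Agent.P097.H202.Div

set_option linter.all false

/-! # P097 / Theorem A / A1 : Lazutkin data of a table -/

open Complex Metric Filter Topology Set
open scoped ComplexConjugate
open Vale.Agent.P097.TA

namespace Vale.Agent.P097.H202

/-- Lazutkin data of the table `h`: `H` = holomorphic extension of `h`, `HH` = primitive of `H`,
`lam` = cube root of the radius of curvature, `Φ` = normal angle as a function of the Lazutkin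
coordinate (period `1`), `φ` its restriction to the reals. -/
structure LD (h : ℝ → ℝ) (κ ρ Λ L : ℝ) (H HH lam Φ : ℂ → ℂ) (l φ : ℝ → ℝ) : Prop where
  tab : IsTable h
  κ0 : 0 < κ
  ρ0 : 0 < ρ
  Λ0 : 0 < Λ
  L0 : 0 ≤ L
  dH : DifferentiableOn ℂ H (Str κ)
  Hr : ∀ x : ℝ, H x = h x
  Hp : ∀ z ∈ Str κ, H (z + 2 * Real.pi) = H z
  Hc : ∀ z ∈ Str κ, H (conj z) = conj (H z)
  dHH : ∀ z ∈ Str κ, HasDerivAt HH (H z) z
  HHr : ∀ x : ℝ, (HH x).im = 0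
  HHc : ∀ z ∈ Str κ, HH (conj z) = conj (HH z)
  dlam : DifferentiableOn ℂ lam (Str κ)
  lam3 : ∀ z ∈ Str κ, lam z ^ 3 = H z + deriv (deriv H) z
  lam0 : ∀ z ∈ Str κ, lam z ≠ 0
  lamp : ∀ z ∈ Str κ, lam (z + 2 * Real.pi) = lam z
  lamr : ∀ x : ℝ, lam x = l x
  lpos : ∀ x, 0 < l x
  l3 : ∀ x, l x ^ 3 = h x + deriv (deriv h) x
  Φr : ∀ x : ℝ, Φ x = φ x
  Φm : ∀ z ∈ Str ρ, Φ z ∈ Str (κ / 2)
  dΦ : ∀ z ∈ Str ρ, HasDerivAt Φ (Λ / lam (Φ z)) z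
  Φp : ∀ z ∈ Str ρ, Φ (z + 1) = Φ z + 2 * Real.pi
  ΦL : ∀ z ∈ Str ρ, ∀ w ∈ Str ρ, ‖Φ z - Φ w‖ ≤ L * ‖z - w‖
  Φc : ∀ z ∈ Str ρ, Φ (conj z) = conj (Φ z)
  aφ : ∀ x, AnalyticAt ℝ φ x
  dφ : ∀ x, HasDerivAt φ (Λ / l (φ x)) x
  φp : ∀ x, φ (x + 1) = φ x + 2 * Real.pi

/-- every table has Lazutkin data -/
theorem exists_LD {h : ℝ → ℝ} (hh : IsTable h) :
    ∃ (κ ρ Λ L : ℝ) (H HH lam Φ : ℂ → ℂ) (l φ : ℝ → ℝ), LD h κ ρ Λ L H HH lam Φ l φ := by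
  obtain ⟨κ, c, H, lam, l, hκ, hc, dH, Hr, Hp, dlam, lam3, lam0, lamp, lamr, lpos, l3⟩ :=
    table_ext hh
  obtain ⟨Λ, φ, hΛ, aφ, dφ, φp⟩ := laz_real hκ dlam lamr lpos lamp
  obtain ⟨ρ, L, Φ, hρ, hL, Φr, Φm, dΦ, Φp, ΦL⟩ := laz_cx (κ₁ := κ / 2) hκ (by positivity)
    (by linarith) dlam lamr lpos lam0 aφ dφ φp
  obtain ⟨H0, hH0⟩ := prim_convex (isOpen_Str κ) (convex_Str κ) dH
  set HH : ℂ → ℂ := fun z => H0 z - H0 0 with hHH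
  have dHH : ∀ z ∈ Str κ, HasDerivAt HH (H z) z := fun z hz => (hH0 z hz).sub_const _
  have HHr : ∀ x : ℝ, (HH x).im = 0 := by
    refine real_of_deriv_real hκ dHH (fun x => by rw [Hr, ofReal_im]) (x₀ := 0) ?_
    rw [hHH]
    simp
  have dHH' : DifferentiableOn ℂ HH (Str κ) :=
    fun z hz => (dHH z hz).differentiableAt.differentiableWithinAt
  have dΦ' : DifferentiableOn ℂ Φ (Str ρ) :=
    fun z hz => (dΦ z hz).differentiableAt.differentiableWithinAt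
  exact ⟨κ, ρ, Λ, L, H, HH, lam, Φ, l, φ,
    { tab := hh, κ0 := hκ, ρ0 := hρ, Λ0 := hΛ, L0 := hL, dH := dH, Hr := Hr, Hp := Hp,
      Hc := conj_strip hκ dH fun x => by rw [Hr, ofReal_im]
      dHH := dHH, HHr := HHr, HHc := conj_strip hκ dHH' HHr
      dlam := dlam, lam3 := lam3, lam0 := lam0, lamp := lamp, lamr := lamr, lpos := lpos, l3 := l3
      Φr := Φr, Φm := Φm, dΦ := dΦ, Φp := Φp, ΦL := ΦL
      Φc := conj_strip hρ dΦ' fun x => by rw [Φr, ofReal_im]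
      aφ := aφ, dφ := dφ, φp := φp }⟩

variable {h : ℝ → ℝ} {κ ρ Λ L : ℝ} {H HH lam Φ : ℂ → ℂ} {l φ : ℝ → ℝ}

/-- generating function of the line map in the Lazutkin coordinate, without normalisation -/
noncomputable def F0 (H HH Φ : ℂ → ℂ) (x y : ℂ) : ℂ :=
  HH (Φ y) - HH (Φ x) - 2 * H ((Φ x + Φ y) / 2) * Complex.sin ((Φ y - Φ x) / 2)

namespace LD

variable (T : LD h κ ρ Λ L H HH lam Φ l φ)

include T

theorem Φm' {z : ℂ} (hz : z ∈ Str ρ) : Φ z ∈ Str κ :=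
  Str_mono (by linarith [T.κ0]) (T.Φm z hz)

theorem dHH' : DifferentiableOn ℂ HH (Str κ) :=
  fun z hz => (T.dHH z hz).differentiableAt.differentiableWithinAt

theorem dΦ' : DifferentiableOn ℂ Φ (Str ρ) :=
  fun z hz => (T.dΦ z hz).differentiableAt.differentiableWithinAt

theorem dΦ1 : DifferentiableOn ℂ (fun z => (Λ : ℂ) / lam (Φ z)) (Str ρ) := by
  have h1 : DifferentiableOn ℂ (fun z => lam (Φ z)) (Str ρ) :=
    T.dlam.comp T.dΦ' fun z hz => T.Φm' hz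
  exact (differentiableOn_const _).div h1 fun z hz => T.lam0 _ (T.Φm' hz)

theorem mid_mem {x y : ℂ} (hx : x ∈ Str ρ) (hy : y ∈ Str ρ) : (Φ x + Φ y) / 2 ∈ Str (κ / 2) := by
  have h1 := T.Φm x hx
  have h2 := T.Φm y hy
  rw [mem_Str, abs_lt] at *
  rw [div_ofNat_im, add_im]
  constructor <;> linarith [h1.1, h1.2, h2.1, h2.2]

/-- the primitive changes by a constant over the period -/
theorem HHp : ∃ c : ℂ, ∀ z ∈ Str κ, HH (z + 2 * Real.pi) = HH z + c := by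
  refine ⟨HH (0 + 2 * Real.pi) - HH 0, fun z hz => ?_⟩
  have h0 : (0 : ℂ) ∈ Str κ := by simpa using real_mem_Str T.κ0 0
  have hd : ∀ w ∈ Str κ, HasDerivAt (fun w => HH (w + 2 * Real.pi) - HH w) 0 w := by
    intro w hw
    have hw' : w + 2 * Real.pi ∈ Str κ := by
      have := add_real_mem_Str hw (2 * Real.pi)
      simpa using this
    have h1 := (T.dHH _ hw').comp_add_const w (2 * (Real.pi : ℂ))
    refine (h1.sub (T.dHH w hw)).congr_deriv ?_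
    rw [T.Hp w hw, sub_self]
  have h2 := (convex_Str κ).norm_image_sub_le_of_norm_hasDerivWithin_le
    (f := fun w => HH (w + 2 * Real.pi) - HH w) (f' := fun _ => 0) (C := 0)
    (fun w hw => (hd w hw).hasDerivWithinAt) (fun w _ => by simp) h0 hz
  rw [zero_mul, norm_le_zero_iff, sub_eq_zero] at h2
  have h3 : HH (z + 2 * Real.pi) - HH z = HH (0 + 2 * Real.pi) - HH 0 := h2
  rw [← h3]
  ring

/-- fifth order estimate of the generating function -/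
theorem F0_bd : ∃ R C : ℝ, 0 < R ∧ R ≤ ρ / 2 ∧ 0 ≤ C ∧ ∀ m ∈ Str (ρ / 2), ∀ d : ℂ, ‖d‖ < R →
    ‖F0 H HH Φ (m - d / 2) (m + d / 2) - (Λ : ℂ) ^ 3 * d ^ 3 / 24‖ ≤ C * ‖d‖ ^ 5 := by
  have hκ := T.κ0
  have hρ := T.ρ0
  have hL := T.L0
  have hpi := Real.pi_pos
  have h2pi : (0 : ℝ) < 2 * Real.pi := by positivity
  have cast2pi : ((2 * Real.pi : ℝ) : ℂ) = 2 * (Real.pi : ℂ) := by push_cast; ring
  have Hp : ∀ z ∈ Str κ, H (z + ((2 * Real.pi : ℝ) : ℂ)) = H z := by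
    rw [cast2pi]
    exact T.Hp
  obtain ⟨R₁, C₁, hR₁, -, hC₁, hk⟩ := kf_bd (κ₁ := κ / 2) h2pi (by linarith) T.dH Hp T.dHH
  have Φ1p : ∀ z ∈ Str ρ, (fun z => (Λ : ℂ) / lam (Φ z)) (z + ((1 : ℝ) : ℂ))
      = (fun z => (Λ : ℂ) / lam (Φ z)) z := by
    intro z hz
    simp only [ofReal_one]
    rw [T.Φp z hz, T.lamp _ (T.Φm' hz)]
  obtain ⟨C₂, hC₂, hm⟩ := mid_bd (κ₁ := ρ / 2) one_pos (by linarith) T.dΦ1 Φ1p T.dΦ
  obtain ⟨M₁, hM₁, hb₁⟩ := bdd_strip (β' := ρ / 2) one_pos (by linarith) T.dΦ1.continuousOn Φ1p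
  -- the radius of curvature
  set r : ℂ → ℂ := fun z => H z + deriv (deriv H) z with hr
  have dr : DifferentiableOn ℂ r (Str κ) :=
    T.dH.add ((T.dH.deriv (isOpen_Str κ)).deriv (isOpen_Str κ))
  have rp : ∀ z ∈ Str κ, r (z + ((2 * Real.pi : ℝ) : ℂ)) = r z := by
    intro z hz
    rw [hr]
    simp only []
    rw [Hp z hz, per_deriv (per_deriv Hp) z hz]
  obtain ⟨M₂, hM₂, hb₂⟩ := bdd_strip (β' := κ / 2) h2pi (by linarith) dr.continuousOn rp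
  obtain ⟨L₂, hL₂, -, hlip⟩ := lip_strip (β' := κ / 2) h2pi (by linarith) dr rp
  set A : ℝ := L + M₁ + 1 with hA
  have hA0 : 0 < A := by positivity
  refine ⟨min (ρ / 2) (R₁ / A), C₁ * A ^ 5 + L₂ * C₂ * A ^ 3 + M₂ * C₂ * (3 * A ^ 2),
    by positivity, min_le_left _ _, by positivity, ?_⟩
  intro m hmS d hd
  have hd1 : ‖d‖ < ρ / 2 := lt_of_lt_of_le hd (min_le_left _ _)
  have hd2 : ‖d‖ < R₁ / A := lt_of_lt_of_le hd (min_le_right _ _)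
  rw [lt_div_iff₀ hA0] at hd2
  have hnd2 : ‖d / 2‖ = ‖d‖ / 2 := by simp
  have hyS : m + d / 2 ∈ Str ρ := mem_Str_add hmS (by rw [hnd2]; linarith [norm_nonneg d])
  have hxS : m - d / 2 ∈ Str ρ := mem_Str_sub hmS (by rw [hnd2]; linarith [norm_nonneg d])
  have hmS' : m ∈ Str ρ := Str_mono (by linarith) hmS
  obtain ⟨e1, e2⟩ := hm m hmS d (by linarith)
  set ψ : ℂ := (Φ (m + d / 2) + Φ (m - d / 2)) / 2 with hψ
  set δ : ℂ := (Φ (m + d / 2) - Φ (m - d / 2)) / 2 with hδ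
  set a : ℂ := (Λ : ℂ) / lam (Φ m) * d / 2 with ha
  have hψS : ψ ∈ Str (κ / 2) := by
    have := T.mid_mem hyS hxS
    exact this
  have hδn : ‖δ‖ ≤ A * ‖d‖ := by
    have h1 := T.ΦL _ hyS _ hxS
    rw [show m + d / 2 - (m - d / 2) = d by ring] at h1
    rw [hδ, norm_div, show ‖(2 : ℂ)‖ = 2 by simp]
    have h2 : L * ‖d‖ ≤ A * ‖d‖ := by
      apply mul_le_mul_of_nonneg_right _ (norm_nonneg _)
      rw [hA]
      linarith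
    linarith [norm_nonneg (Φ (m + d / 2) - Φ (m - d / 2))]
  have han : ‖a‖ ≤ A * ‖d‖ := by
    have h1 := hb₁ m (le_of_lt hmS)
    rw [ha, norm_div, norm_mul, show ‖(2 : ℂ)‖ = 2 by simp]
    have h2 : ‖(Λ : ℂ) / lam (Φ m)‖ * ‖d‖ ≤ A * ‖d‖ := by
      apply mul_le_mul_of_nonneg_right _ (norm_nonneg _)
      rw [hA]
      linarith
    linarith [mul_nonneg (norm_nonneg ((Λ : ℂ) / lam (Φ m))) (norm_nonneg d)]
  have hF : F0 H HH Φ (m - d / 2) (m + d / 2)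
      = HH (ψ + δ) - HH (ψ - δ) - 2 * H ψ * Complex.sin δ := by
    rw [F0, show ψ + δ = Φ (m + d / 2) by rw [hψ, hδ]; ring,
      show ψ - δ = Φ (m - d / 2) by rw [hψ, hδ]; ring, hψ, add_comm (Φ (m - d / 2))]
  have k1 := hk ψ hψS δ (by
    calc ‖δ‖ ≤ A * ‖d‖ := hδn
      _ = ‖d‖ * A := mul_comm _ _
      _ < R₁ := hd2)
  have k2 : ‖r ψ - r (Φ m)‖ ≤ L₂ * (C₂ * ‖d‖ ^ 2) :=
    (hlip ψ hψS (Φ m) (T.Φm m hmS')).trans (by gcongr)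
  have k3 : r (Φ m) * a ^ 3 / 3 = (Λ : ℂ) ^ 3 * d ^ 3 / 24 := by
    have h1 := T.lam3 (Φ m) (T.Φm' hmS')
    have h2 := T.lam0 (Φ m) (T.Φm' hmS')
    have h3 : r (Φ m) = lam (Φ m) ^ 3 := h1.symm
    rw [h3, ha]
    field_simp
    ring
  have k4 : ‖r (Φ m)‖ ≤ M₂ := hb₂ _ (le_of_lt (T.Φm m hmS'))
  have hsplit : F0 H HH Φ (m - d / 2) (m + d / 2) - (Λ : ℂ) ^ 3 * d ^ 3 / 24
      = (HH (ψ + δ) - HH (ψ - δ) - 2 * H ψ * Complex.sin δ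
          - (H ψ + deriv (deriv H) ψ) * δ ^ 3 / 3)
        + (r ψ - r (Φ m)) * δ ^ 3 / 3 + r (Φ m) * ((δ - a) * (δ ^ 2 + δ * a + a ^ 2)) / 3 := by
    rw [hF, ← k3, hr]
    ring
  rw [hsplit]
  have hAd : 0 ≤ A * ‖d‖ := by positivity
  have t1 : ‖HH (ψ + δ) - HH (ψ - δ) - 2 * H ψ * Complex.sin δ
          - (H ψ + deriv (deriv H) ψ) * δ ^ 3 / 3‖ ≤ C₁ * A ^ 5 * ‖d‖ ^ 5 := by
    refine k1.trans ?_
    rw [mul_assoc, ← mul_pow]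
    gcongr
  have t2 : ‖(r ψ - r (Φ m)) * δ ^ 3 / 3‖ ≤ L₂ * C₂ * A ^ 3 * ‖d‖ ^ 5 := by
    rw [norm_div, norm_mul, norm_pow, show ‖(3 : ℂ)‖ = 3 by simp]
    have h1 : ‖δ‖ ^ 3 ≤ (A * ‖d‖) ^ 3 := by gcongr
    have h2 : ‖r ψ - r (Φ m)‖ * ‖δ‖ ^ 3 ≤ L₂ * (C₂ * ‖d‖ ^ 2) * (A * ‖d‖) ^ 3 :=
      mul_le_mul k2 h1 (by positivity) (by positivity)
    have h3 : L₂ * (C₂ * ‖d‖ ^ 2) * (A * ‖d‖) ^ 3 = L₂ * C₂ * A ^ 3 * ‖d‖ ^ 5 := by ring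
    rw [h3] at h2
    have h4 : 0 ≤ ‖r ψ - r (Φ m)‖ * ‖δ‖ ^ 3 := by positivity
    linarith
  have t3 : ‖r (Φ m) * ((δ - a) * (δ ^ 2 + δ * a + a ^ 2)) / 3‖
      ≤ M₂ * C₂ * (3 * A ^ 2) * ‖d‖ ^ 5 := by
    rw [norm_div, norm_mul, norm_mul, show ‖(3 : ℂ)‖ = 3 by simp]
    have h1 : ‖δ ^ 2 + δ * a + a ^ 2‖ ≤ 3 * (A * ‖d‖) ^ 2 := by
      have e1 : ‖δ ^ 2‖ ≤ (A * ‖d‖) ^ 2 := by rw [norm_pow]; gcongr
      have e2 : ‖a ^ 2‖ ≤ (A * ‖d‖) ^ 2 := by rw [norm_pow]; gcongr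
      have e3 : ‖δ * a‖ ≤ (A * ‖d‖) ^ 2 := by
        rw [norm_mul, sq]
        exact mul_le_mul hδn han (norm_nonneg _) hAd
      have e4 := norm_add_le (δ ^ 2 + δ * a) (a ^ 2)
      have e5 := norm_add_le (δ ^ 2) (δ * a)
      linarith
    have h2 : ‖δ - a‖ * ‖δ ^ 2 + δ * a + a ^ 2‖ ≤ (C₂ * ‖d‖ ^ 3) * (3 * (A * ‖d‖) ^ 2) :=
      mul_le_mul e1 h1 (norm_nonneg _) (by positivity)
    have h3 : ‖r (Φ m)‖ * (‖δ - a‖ * ‖δ ^ 2 + δ * a + a ^ 2‖)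
        ≤ M₂ * ((C₂ * ‖d‖ ^ 3) * (3 * (A * ‖d‖) ^ 2)) :=
      mul_le_mul k4 h2 (by positivity) hM₂
    have h4 : M₂ * ((C₂ * ‖d‖ ^ 3) * (3 * (A * ‖d‖) ^ 2)) = M₂ * C₂ * (3 * A ^ 2) * ‖d‖ ^ 5 := by
      ring
    rw [h4] at h3
    have h5 : 0 ≤ ‖r (Φ m)‖ * (‖δ - a‖ * ‖δ ^ 2 + δ * a + a ^ 2‖) := by positivity
    linarith
  refine (norm_add₃_le).trans ?_
  calc _ ≤ C₁ * A ^ 5 * ‖d‖ ^ 5 + L₂ * C₂ * A ^ 3 * ‖d‖ ^ 5
        + M₂ * C₂ * (3 * A ^ 2) * ‖d‖ ^ 5 := add_le_add (add_le_add t1 t2) t3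
    _ = _ := by ring

end LD

end Vale.Agent.P097.H202
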