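import Vale.Agent.P097.H202.Prim

set_option linter.all false

/-! # P097 / Theorem A / A1 : periodic holomorphic functions on strips -/

open Complex Metric Filter Topology Set

namespace Vale.Agent.P097.H202

/-- the strip `|Im z| < κ` -/
def Str (κ : ℝ) : Set ℂ := {z : ℂ | |z.im| < κ}

theorem mem_Str {κ : ℝ} {z : ℂ} : z ∈ Str κ ↔ |z.im| < κ := Iff.rfl

theorem isOpen_Str (κ : ℝ) : IsOpen (Str κ) := H500.isOpen_str κ

theorem convex_Str (κ : ℝ) : Convex ℝ (Str κ) := H500.convex_str κ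

theorem Str_mono {κ κ' : ℝ} (h : κ ≤ κ') : Str κ ⊆ Str κ' := fun _ hz => lt_of_lt_of_le hz h

theorem real_mem_Str {κ : ℝ} (hκ : 0 < κ) (x : ℝ) : (x : ℂ) ∈ Str κ := by
  simpa [mem_Str] using hκ

theorem add_real_mem_Str {κ : ℝ} {z : ℂ} (hz : z ∈ Str κ) (x : ℝ) : z + x ∈ Str κ := by
  simpa [mem_Str] using hz

theorem ball_sub_Str {κ κ' : ℝ} {z : ℂ} (hz : z ∈ Str κ') (h : κ' < κ) :
    closedBall z (κ - κ') ⊆ Str κ := by
  intro w hw
  rw [mem_closedBall, dist_eq_norm] at hw
  have h1 : |w.im - z.im| ≤ κ - κ' := by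
    have := abs_im_le_norm (w - z)
    rw [sub_im] at this
    linarith
  have h2 := abs_sub_abs_le_abs_sub w.im z.im
  have h3 : |z.im| < κ' := hz
  rw [mem_Str]
  linarith

/-- a periodic continuous function on a strip is bounded on smaller closed strips -/
theorem bdd_strip {β β' P : ℝ} (hP : 0 < P) (hβ : β' < β) {E : Type*} [NormedAddCommGroup E]
    {f : ℂ → E} (hf : ContinuousOn f (Str β)) (hper : ∀ z ∈ Str β, f (z + P) = f z) :
    ∃ M : ℝ, 0 ≤ M ∧ ∀ z : ℂ, |z.im| ≤ β' → ‖f z‖ ≤ M := by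
  have hK : IsCompact (Icc (0 : ℝ) P ×ℂ Icc (-β') β') := isCompact_Icc.reProdIm isCompact_Icc
  have hsub : Icc (0 : ℝ) P ×ℂ Icc (-β') β' ⊆ Str β := by
    intro z hz
    have := hz.2
    rw [mem_preimage, mem_Icc] at this
    rw [mem_Str, abs_lt]
    constructor <;> linarith [this.1, this.2]
  obtain ⟨M, hM⟩ := hK.exists_bound_of_continuousOn (hf.mono hsub)
  have hint : ∀ (n : ℤ) (z : ℂ), z ∈ Str β → f (z + ((n * P : ℝ) : ℂ)) = f z := by
    intro n
    induction n using Int.induction_on with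
    | zero => intro z _; simp
    | succ n ih =>
      intro z hz
      have h1 := ih z hz
      have h2 := hper (z + (((n : ℤ) * P : ℝ) : ℂ)) (add_real_mem_Str hz _)
      rw [← h1, ← h2]
      congr 1
      push_cast
      ring
    | pred n ih =>
      intro z hz
      have h1 := ih z hz
      have h2 := hper (z + (((-(n : ℤ) - 1 : ℤ) * P : ℝ) : ℂ)) (add_real_mem_Str hz _)
      rw [← h1, ← h2]
      congr 1
      push_cast
      ring
  refine ⟨max M 0, le_max_right _ _, fun z hz => ?_⟩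
  have hz' : z ∈ Str β := lt_of_le_of_lt hz hβ
  obtain ⟨k, hk, -⟩ := existsUnique_sub_zsmul_mem_Ico hP z.re 0
  have h3 := hint (-k) z hz'
  rw [← h3]
  refine (hM _ ?_).trans (le_max_left _ _)
  rw [zero_add, zsmul_eq_mul] at hk
  refine ⟨?_, ?_⟩
  · rw [mem_preimage]
    simp only [add_re, ofReal_re, Int.cast_neg]
    constructor
    · have := hk.1
      linarith
    · have := hk.2
      linarith
  · rw [mem_preimage]
    simp only [add_im, ofReal_im, add_zero]
    exact abs_le.1 hz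

/-- periodic holomorphic functions are Lipschitz on smaller strips -/
theorem lip_strip {β β' P : ℝ} (hP : 0 < P) (hβ : β' < β) {f : ℂ → ℂ}
    (hf : DifferentiableOn ℂ f (Str β)) (hper : ∀ z ∈ Str β, f (z + P) = f z) :
    ∃ M : ℝ, 0 ≤ M ∧ (∀ z ∈ Str β', ‖deriv f z‖ ≤ M) ∧
      ∀ z ∈ Str β', ∀ w ∈ Str β', ‖f z - f w‖ ≤ M * ‖z - w‖ := by
  have hd : DifferentiableOn ℂ (deriv f) (Str β) := hf.deriv (isOpen_Str β)
  have hdper : ∀ z ∈ Str β, deriv f (z + P) = deriv f z := by
    intro z hz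
    have h1 : (fun w => f (w + P)) =ᶠ[𝓝 z] f := by
      filter_upwards [(isOpen_Str β).mem_nhds hz] with w hw
      exact hper w hw
    have h2 := h1.deriv_eq
    rwa [deriv_comp_add_const] at h2
  obtain ⟨M, hM0, hM⟩ := bdd_strip hP hβ hd.continuousOn hdper
  refine ⟨M, hM0, fun z hz => hM z (le_of_lt hz), fun z hz w hw => ?_⟩
  refine (convex_Str β').norm_image_sub_le_of_norm_deriv_le (𝕜 := ℂ) (f := f) ?_ ?_ hw hz
  · intro x hx
    exact hf.differentiableAt ((isOpen_Str β).mem_nhds (Str_mono hβ.le hx))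
  · intro x hx
    exact hM x (le_of_lt hx)

/-- real part bounded below near the real axis -/
theorem re_pos_strip {β P c : ℝ} (hβ : 0 < β) (hP : 0 < P) (hc : 0 < c) {f : ℂ → ℂ}
    (hf : DifferentiableOn ℂ f (Str β)) (hper : ∀ z ∈ Str β, f (z + P) = f z)
    (hpos : ∀ x : ℝ, c ≤ (f x).re) :
    ∃ β' : ℝ, 0 < β' ∧ β' < β ∧ ∀ z ∈ Str β', c / 2 ≤ (f z).re := by
  obtain ⟨M, hM0, -, hM⟩ := lip_strip hP (show β / 2 < β by linarith) hf hper
  refine ⟨min (β / 2) (c / (2 * (M + 1))), by positivity, ?_, fun z hz => ?_⟩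
  · exact lt_of_le_of_lt (min_le_left _ _) (by linarith)
  · have h1 : |z.im| < β / 2 := lt_of_lt_of_le hz (min_le_left _ _)
    have h2 : |z.im| < c / (2 * (M + 1)) := lt_of_lt_of_le hz (min_le_right _ _)
    have h3 := hM z h1 (z.re : ℂ) (real_mem_Str (by linarith) _)
    have h4 : ‖z - (z.re : ℂ)‖ = |z.im| := by
      have : z - ((z.re : ℝ) : ℂ) = ((z.im : ℝ) : ℂ) * Complex.I := by
        apply Complex.ext <;> simp
      rw [this, norm_mul, Complex.norm_I, mul_one, norm_real, Real.norm_eq_abs]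
    rw [h4] at h3
    have h5 : M * |z.im| ≤ c / 2 := by
      have h6 : (M + 1) * |z.im| ≤ c / 2 := by
        rw [lt_div_iff₀ (by positivity)] at h2
        linarith
      nlinarith [abs_nonneg z.im]
    have h7 := abs_re_le_norm (f z - f (z.re : ℂ))
    rw [sub_re] at h7
    have h8 := hpos z.re
    have h9 := abs_le.1 (h7.trans (h3.trans h5))
    linarith [h9.1]

/-- a holomorphic function with a real derivative on the real axis which is real at one point is
real on the real axis -/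
theorem real_of_deriv_real {β : ℝ} (hβ : 0 < β) {g f : ℂ → ℂ}
    (hg : ∀ z ∈ Str β, HasDerivAt g (f z) z) (hf : ∀ x : ℝ, (f x).im = 0) {x₀ : ℝ}
    (h0 : (g x₀).im = 0) : ∀ x : ℝ, (g x).im = 0 := by
  have h1 : ∀ x : ℝ, HasDerivAt (fun y : ℝ => (g y).im) 0 x := by
    intro x
    have := (hg x (real_mem_Str hβ x)).comp_ofReal
    have h2 := (Complex.imCLM.hasFDerivAt (x := g x)).comp_hasDerivAt x this
    rw [show Complex.imCLM (f x) = (f x).im from rfl, hf x] at h2
    exact h2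
  intro x
  have h3 := is_const_of_deriv_eq_zero (fun y => (h1 y).differentiableAt) (fun y => (h1 y).deriv) x x₀
  rw [h3, h0]

end Vale.Agent.P097.H202
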