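import Vale.Agent.P097.Defs
import Vale.Agent.P097.H202.Strip

set_option linter.all false

/-! # P097 / Theorem A / A1 : the Lazutkin coordinate of an analytic table -/

open Complex Metric Filter Topology Set
open scoped ComplexConjugate

namespace Vale.Agent.P097.H202

theorem conj_mem_Str {κ : ℝ} {z : ℂ} (hz : z ∈ Str κ) : conj z ∈ Str κ := by
  simpa [mem_Str] using hz

/-- restriction of a holomorphic function to the reals -/
theorem an_of_cx {G : ℂ → ℂ} {U : Set ℂ} (hU : IsOpen U) (hG : DifferentiableOn ℂ G U) {x : ℝ}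
    (hx : (x : ℂ) ∈ U) : AnalyticAt ℝ (fun y : ℝ => (G y).re) x := by
  have h1 : AnalyticAt ℝ G (x : ℂ) := (hG.analyticAt (hU.mem_nhds hx)).restrictScalars
  have h2 : AnalyticAt ℝ (fun y : ℝ => (y : ℂ)) x := Complex.ofRealCLM.analyticAt x
  have h3 : AnalyticAt ℝ (fun y : ℝ => G (y : ℂ)) x := h1.comp_of_eq h2 rfl
  exact (Complex.reCLM.analyticAt _).comp h3

/-- derivative of a holomorphic extension -/
theorem deriv_ext {κ : ℝ} (hκ : 0 < κ) {G : ℂ → ℂ} {g : ℝ → ℝ} (hG : DifferentiableOn ℂ G (Str κ))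
    (h : ∀ x : ℝ, G x = g x) (x : ℝ) : HasDerivAt g (deriv g x) x ∧ deriv G x = (deriv g x : ℝ) := by
  have h1 : HasDerivAt G (deriv G x) (x : ℂ) :=
    (hG.differentiableAt ((isOpen_Str κ).mem_nhds (real_mem_Str hκ x))).hasDerivAt
  have h2 := h1.comp_ofReal
  have h3 : HasDerivAt (fun y : ℝ => ((g y : ℝ) : ℂ)) (deriv G x) x := by
    refine h2.congr_of_eventuallyEq (Eventually.of_forall fun y => ?_)
    exact (h y).symm
  have h4 : HasDerivAt g (deriv G x).re x := by
    have h5 := (Complex.reCLM.hasFDerivAt (x := ((g x : ℝ) : ℂ))).comp_hasDerivAt x h3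
    exact h5
  have h6 : HasDerivAt (fun y : ℝ => ((g y : ℝ) : ℂ)) (((deriv G x).re : ℝ) : ℂ) x := h4.ofReal_comp
  have h7 := h3.unique h6
  refine ⟨h4.differentiableAt.hasDerivAt, ?_⟩
  rw [h4.deriv]
  exact h7

/-- a periodic continuous positive function is bounded below -/
theorem pos_min {f : ℝ → ℝ} (hf : Continuous f) {P : ℝ} (hP : 0 < P) (hper : ∀ x, f (x + P) = f x)
    (hpos : ∀ x, 0 < f x) : ∃ c : ℝ, 0 < c ∧ ∀ x, c ≤ f x := by
  obtain ⟨x₀, hx₀, hmin⟩ := isCompact_Icc.exists_isMinOn (nonempty_Icc.2 hP.le) hf.continuousOn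
  refine ⟨f x₀, hpos x₀, fun x => ?_⟩
  obtain ⟨y, hy, hxy⟩ := (show Function.Periodic f P from hper).exists_mem_Ico₀ hP x
  rw [hxy]
  exact hmin ⟨hy.1, hy.2.le⟩

/-- inverse of an increasing analytic map of the line -/
theorem inv_line {Y : ℝ → ℝ} {y' : ℝ → ℝ} (hY : ∀ x, AnalyticAt ℝ Y x)
    (hd : ∀ x, HasDerivAt Y (y' x) x) (hpos : ∀ x, 0 < y' x) {P : ℝ} (hP : 0 < P)
    (hper : ∀ x, Y (x + P) = Y x + 1) :
    ∃ φ : ℝ → ℝ, (∀ x, Y (φ x) = x) ∧ (∀ x, φ (Y x) = x) ∧ (∀ x, AnalyticAt ℝ φ x) ∧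
      (∀ x, HasDerivAt φ (y' (φ x))⁻¹ x) ∧ ∀ x, φ (x + 1) = φ x + P := by
  have hmono : StrictMono Y := strictMono_of_hasDerivAt_pos hd hpos
  have hcont : Continuous Y := continuous_iff_continuousAt.2 fun x => (hd x).continuousAt
  have hint : ∀ (n : ℕ) (x : ℝ), Y (x + n * P) = Y x + n := by
    intro n
    induction n with
    | zero => intro x; simp
    | succ n ih =>
      intro x
      have h1 := hper (x + n * P)
      have : x + ((n + 1 : ℕ) : ℝ) * P = x + n * P + P := by push_cast; ring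
      rw [this, h1, ih]
      push_cast
      ring
  have hsurj : Function.Surjective Y := by
    apply hcont.surjective
    · rw [tendsto_atTop_atTop]
      intro b
      obtain ⟨n, hn⟩ := exists_nat_ge (b - Y 0)
      refine ⟨0 + n * P, fun a ha => ?_⟩
      have := hmono.monotone ha
      rw [hint] at this
      linarith
    · rw [tendsto_atBot_atBot]
      intro b
      obtain ⟨n, hn⟩ := exists_nat_ge (Y 0 - b)
      refine ⟨0 - n * P, fun a ha => ?_⟩
      have h1 := hmono.monotone ha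
      have h2 := hint n (0 - n * P)
      rw [sub_add_cancel] at h2
      linarith
  set e := (hmono.orderIsoOfSurjective Y hsurj).toHomeomorph with he
  have heY : ∀ x, e x = Y x := fun x => rfl
  refine ⟨e.symm, fun x => e.apply_symm_apply x, fun x => e.symm_apply_apply x, ?_, ?_, ?_⟩
  · intro x
    have h1 := (e.toOpenPartialHomeomorph).analyticAt_symm (a := x)
      (i := ContinuousLinearEquiv.unitsEquivAut ℝ (Units.mk0 (y' (e.symm x)) (hpos _).ne'))
      (by simp) (hY _) (by
        have h2 : HasFDerivAt Y (ContinuousLinearMap.toSpanSingleton ℝ (y' (e.symm x))) (e.symm x) :=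
          (hd (e.symm x)).hasFDerivAt
        show fderiv ℝ Y (e.symm x) = _
        rw [h2.fderiv]
        ext
        simp)
    exact h1
  · intro x
    have h1 : HasDerivAt Y (y' (e.symm x)) (e.symm x) := hd _
    exact HasDerivAt.of_local_left_inverse e.symm.continuous.continuousAt h1 (hpos _).ne'
      (Eventually.of_forall fun y => e.apply_symm_apply y)
  · intro x
    apply hmono.injective
    rw [hper]
    show e (e.symm (x + 1)) = e (e.symm x) + 1
    rw [e.apply_symm_apply, e.apply_symm_apply]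

end Vale.Agent.P097.H202
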