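import Vale.Agent.P097.H202.Laz

set_option linter.all false

/-! # P097 / Theorem A / A1 : the Lazutkin coordinate of an analytic table -/

open Complex Metric Filter Topology Set
open scoped ComplexConjugate

namespace Vale.Agent.P097.H202

/-- the complex extension of a table, and the cube root of its radius of curvature -/
theorem table_ext {h : ℝ → ℝ} (hh : IsTable h) : ∃ (κ c : ℝ) (H lam : ℂ → ℂ) (l : ℝ → ℝ),
    0 < κ ∧ 0 < c ∧ DifferentiableOn ℂ H (Str κ) ∧ (∀ x : ℝ, H x = h x) ∧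
    (∀ z ∈ Str κ, H (z + 2 * Real.pi) = H z) ∧
    DifferentiableOn ℂ lam (Str κ) ∧ (∀ z ∈ Str κ, lam z ^ 3 = H z + deriv (deriv H) z) ∧
    (∀ z ∈ Str κ, lam z ≠ 0) ∧
    (∀ z ∈ Str κ, lam (z + 2 * Real.pi) = lam z) ∧ (∀ x : ℝ, lam x = l x) ∧ (∀ x, 0 < l x) ∧
    (∀ x, l x ^ 3 = h x + deriv (deriv h) x) := by
  obtain ⟨ha, hp, hpos⟩ := hh
  have hpi := Real.pi_pos
  obtain ⟨κ₀, H, hκ₀, dH, hHr⟩ := H500.strip_ext (F := h) (P := 2 * Real.pi) (by positivity) ha hp
  have dH' : DifferentiableOn ℂ H (Str κ₀) := dH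
  have hHp : ∀ z ∈ Str κ₀, H (z + ((2 * Real.pi : ℝ) : ℂ)) = H z := by
    intro z hz
    refine H500.strip_eq hκ₀ (f := fun z => H (z + ((2 * Real.pi : ℝ) : ℂ))) (g := H) ?_ dH ?_ z hz
    · refine dH.comp (by fun_prop) ?_
      intro z hz
      exact add_real_mem_Str hz _
    · intro x
      show H ((x : ℂ) + ((2 * Real.pi : ℝ) : ℂ)) = H x
      rw [← ofReal_add, hHr, hHr, hp]
  set R : ℂ → ℂ := fun z => H z + deriv (deriv H) z with hR
  have ddH : DifferentiableOn ℂ (deriv H) (Str κ₀) := dH'.deriv (isOpen_Str κ₀)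
  have dddH : DifferentiableOn ℂ (deriv (deriv H)) (Str κ₀) := ddH.deriv (isOpen_Str κ₀)
  have dR : DifferentiableOn ℂ R (Str κ₀) := dH'.add dddH
  have hRr : ∀ x : ℝ, R x = ((h x + deriv (deriv h) x : ℝ) : ℂ) := by
    intro x
    have e1 := fun y => (deriv_ext hκ₀ dH' hHr y).2
    have e2 := (deriv_ext hκ₀ ddH e1 x).2
    rw [hR]
    simp only []
    rw [hHr, e2]
    push_cast
    rfl
  have hRp : ∀ z ∈ Str κ₀, R (z + ((2 * Real.pi : ℝ) : ℂ)) = R z := by
    intro z hz
    have q1 : ∀ w ∈ Str κ₀, deriv H (w + ((2 * Real.pi : ℝ) : ℂ)) = deriv H w := by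
      intro w hw
      have h1 : (fun w => H (w + ((2 * Real.pi : ℝ) : ℂ))) =ᶠ[𝓝 w] H := by
        filter_upwards [(isOpen_Str κ₀).mem_nhds hw] with v hv
        exact hHp v hv
      have h2 := h1.deriv_eq
      rwa [deriv_comp_add_const] at h2
    have h1 : (fun w => deriv H (w + ((2 * Real.pi : ℝ) : ℂ))) =ᶠ[𝓝 z] deriv H := by
      filter_upwards [(isOpen_Str κ₀).mem_nhds hz] with v hv
      exact q1 v hv
    have h2 := h1.deriv_eq
    rw [deriv_comp_add_const] at h2
    rw [hR]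
    simp only []
    rw [hHp z hz, h2]
  have hρc : Continuous fun x => h x + deriv (deriv h) x := by
    have h1 : (fun x => h x + deriv (deriv h) x) = fun x : ℝ => (R x).re := by
      funext x
      rw [hRr, ofReal_re]
    rw [h1]
    refine Complex.continuous_re.comp ?_
    rw [continuous_iff_continuousAt]
    intro x
    exact ((dR.differentiableAt ((isOpen_Str κ₀).mem_nhds (real_mem_Str hκ₀ x))).continuousAt).comp
      (Complex.continuous_ofReal.continuousAt)
  obtain ⟨c, hc, hcm⟩ := pos_min hρc (show (0 : ℝ) < 2 * Real.pi by positivity) (by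
    intro x
    have e1 : ((h (x + 2 * Real.pi) + deriv (deriv h) (x + 2 * Real.pi) : ℝ) : ℂ) =
        ((h x + deriv (deriv h) x : ℝ) : ℂ) := by
      rw [← hRr, ← hRr, ofReal_add]
      exact hRp _ (real_mem_Str hκ₀ x)
    exact_mod_cast e1) hpos
  obtain ⟨κ, hκ, hκκ, hre⟩ := re_pos_strip hκ₀ (show (0 : ℝ) < 2 * Real.pi by positivity) hc dR hRp
    (fun x => by rw [hRr, ofReal_re]; exact hcm x)
  have hsl : ∀ z ∈ Str κ, R z ∈ slitPlane := fun z hz => Or.inl (by linarith [hre z hz])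
  have hsub : Str κ ⊆ Str κ₀ := Str_mono hκκ.le
  refine ⟨κ, c, H, fun z => R z ^ ((3 : ℂ)⁻¹), fun x => (h x + deriv (deriv h) x) ^ ((3 : ℝ)⁻¹), hκ,
    hc, dH'.mono hsub, hHr, ?_, ?_, ?_, ?_, ?_, ?_, ?_, ?_⟩
  · intro z hz
    have := hHp z (hsub hz)
    push_cast at this
    exact this
  · exact (dR.mono hsub).cpow (differentiableOn_const _) hsl
  · intro z hz
    have := Complex.cpow_nat_inv_pow (R z) (n := 3) (by norm_num)
    push_cast at this
    exact this
  · intro z hz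
    rw [Complex.cpow_ne_zero_iff]
    left
    exact slitPlane_ne_zero (hsl z hz)
  · intro z hz
    have := hRp z (hsub hz)
    push_cast at this
    simp only []
    rw [this]
  · intro x
    simp only []
    rw [hRr, Complex.ofReal_cpow (hpos x).le]
    push_cast
    rfl
  · intro x
    exact Real.rpow_pos_of_pos (hpos x) _
  · intro x
    have := Real.rpow_inv_natCast_pow (hpos x).le (n := 3) (by norm_num)
    push_cast at this
    exact this

/-- the real Lazutkin coordinate: `φ` = normal angle as a function of the Lazutkin coordinate,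
normalised to period `1` -/
theorem laz_real {κ : ℝ} (hκ : 0 < κ) {lam : ℂ → ℂ} {l : ℝ → ℝ}
    (dl : DifferentiableOn ℂ lam (Str κ)) (hl : ∀ x : ℝ, lam x = l x) (hpos : ∀ x, 0 < l x)
    (hper : ∀ z ∈ Str κ, lam (z + 2 * Real.pi) = lam z) :
    ∃ (Λ : ℝ) (φ : ℝ → ℝ), 0 < Λ ∧ (∀ x, AnalyticAt ℝ φ x) ∧ (∀ x, HasDerivAt φ (Λ / l (φ x)) x) ∧
      (∀ x, φ (x + 1) = φ x + 2 * Real.pi) := by
  have hpi := Real.pi_pos
  obtain ⟨X₀, hX₀⟩ := prim_convex (isOpen_Str κ) (convex_Str κ) dl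
  set X : ℂ → ℂ := fun z => X₀ z - X₀ 0 with hX
  have dX : ∀ z ∈ Str κ, HasDerivAt X (lam z) z := fun z hz => (hX₀ z hz).sub_const _
  have hXr : ∀ x : ℝ, (X x).im = 0 := by
    refine real_of_deriv_real hκ dX (fun x => by rw [hl, ofReal_im]) (x₀ := 0) ?_
    rw [hX]
    simp
  set Xr : ℝ → ℝ := fun x => (X x).re with hXrd
  have dXr : ∀ x, HasDerivAt Xr (l x) x := by
    intro x
    have := (dX x (real_mem_Str hκ x)).real_of_complex
    rw [hl, ofReal_re] at this
    exact this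
  have aXr : ∀ x, AnalyticAt ℝ Xr x := fun x =>
    an_of_cx (isOpen_Str κ) (fun z hz => (dX z hz).differentiableAt.differentiableWithinAt)
      (real_mem_Str hκ x)
  have hlp : ∀ x, l (x + 2 * Real.pi) = l x := by
    intro x
    have h1 := hper x (real_mem_Str hκ x)
    have h2 := hl (x + 2 * Real.pi)
    push_cast at h2
    rw [h1, hl] at h2
    exact_mod_cast h2.symm
  have hmono : StrictMono Xr := strictMono_of_hasDerivAt_pos dXr hpos
  set Λ : ℝ := Xr (2 * Real.pi) - Xr 0 with hΛ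
  have hΛ0 : 0 < Λ := sub_pos.2 (hmono (by positivity))
  have hXp : ∀ x, Xr (x + 2 * Real.pi) = Xr x + Λ := by
    intro x
    have d1 : ∀ y, HasDerivAt (fun y => Xr (y + 2 * Real.pi) - Xr y) 0 y := by
      intro y
      have h1 := ((dXr (y + 2 * Real.pi)).comp_add_const y (2 * Real.pi)).sub (dXr y)
      rw [hlp, sub_self] at h1
      exact h1
    have h3 := is_const_of_deriv_eq_zero (fun y => (d1 y).differentiableAt) (fun y => (d1 y).deriv)
      x 0
    simp only [zero_add] at h3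
    rw [hΛ]
    linarith
  obtain ⟨φ, h1, h2, h3, h4, h5⟩ := inv_line (Y := fun x => Xr x / Λ) (y' := fun x => l x / Λ)
    (fun x => (aXr x).div analyticAt_const hΛ0.ne') (fun x => (dXr x).div_const Λ)
    (fun x => div_pos (hpos x) hΛ0) (P := 2 * Real.pi) (by positivity) (by
      intro x
      rw [hXp, add_div, div_self hΛ0.ne'])
  refine ⟨Λ, φ, hΛ0, h3, fun x => ?_, h5⟩
  have := h4 x
  rwa [inv_div] at this

end Vale.Agent.P097.H202
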