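import Vale.Agent.P097.H202.Laz2

set_option linter.all false

/-! # P097 / Theorem A / A1 : the complex Lazutkin coordinate -/

open Complex Metric Filter Topology Set
open scoped ComplexConjugate

namespace Vale.Agent.P097.H202

/-- holomorphic functions which are real on the reals commute with conjugation -/
theorem conj_strip {κ : ℝ} (hκ : 0 < κ) {f : ℂ → ℂ} (hf : DifferentiableOn ℂ f (Str κ))
    (hr : ∀ x : ℝ, (f x).im = 0) : ∀ z ∈ Str κ, f (conj z) = conj (f z) := by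
  have hg : DifferentiableOn ℂ (fun z => conj (f (conj z))) (Str κ) := by
    intro z hz
    have h1 := (hf.differentiableAt ((isOpen_Str κ).mem_nhds (conj_mem_Str hz))).hasDerivAt
    have h2 := h1.conj_conj
    rw [starRingEnd_self_apply] at h2
    exact h2.differentiableAt.differentiableWithinAt
  intro z hz
  have h3 := H500.strip_eq hκ hg hf (fun x => by
    show conj (f (conj (x : ℂ))) = f x
    rw [conj_ofReal]
    exact conj_eq_iff_im.2 (hr x)) z hz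
  have h3' : conj (f (conj z)) = f z := h3
  rw [← h3', starRingEnd_self_apply]

/-- distance of a point to the point of the real axis below it -/
theorem norm_sub_re (z : ℂ) : ‖z - ((z.re : ℝ) : ℂ)‖ = |z.im| := by
  have : z - ((z.re : ℝ) : ℂ) = ((z.im : ℝ) : ℂ) * Complex.I := by
    apply Complex.ext <;> simp
  rw [this, norm_mul, Complex.norm_I, mul_one, norm_real, Real.norm_eq_abs]

/-- complex extension of the normal angle as a function of the Lazutkin coordinate -/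
theorem laz_cx {κ κ₁ Λ : ℝ} (hκ : 0 < κ) (hκ₁ : 0 < κ₁) (hκ₁' : κ₁ ≤ κ) {lam : ℂ → ℂ} {l φ : ℝ → ℝ}
    (dl : DifferentiableOn ℂ lam (Str κ)) (hl : ∀ x : ℝ, lam x = l x) (hpos : ∀ x, 0 < l x)
    (hne : ∀ z ∈ Str κ, lam z ≠ 0)
    (aφ : ∀ x, AnalyticAt ℝ φ x) (dφ : ∀ x, HasDerivAt φ (Λ / l (φ x)) x)
    (pφ : ∀ x, φ (x + 1) = φ x + 2 * Real.pi) :
    ∃ (κ' L : ℝ) (Φ : ℂ → ℂ), 0 < κ' ∧ 0 ≤ L ∧ (∀ x : ℝ, Φ x = φ x) ∧
      (∀ z ∈ Str κ', Φ z ∈ Str κ₁) ∧ (∀ z ∈ Str κ', HasDerivAt Φ (Λ / lam (Φ z)) z) ∧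
      (∀ z ∈ Str κ', Φ (z + 1) = Φ z + 2 * Real.pi) ∧
      (∀ z ∈ Str κ', ∀ w ∈ Str κ', ‖Φ z - Φ w‖ ≤ L * ‖z - w‖) := by
  obtain ⟨κ₂, Γ, hκ₂, dΓ, hΓ⟩ := H500.strip_ext (F := fun x => φ x - 2 * Real.pi * x) (P := 1)
    one_pos (fun x => (aφ x).sub (by fun_prop)) (fun x => by rw [pφ]; ring)
  have dΓ' : DifferentiableOn ℂ Γ (Str κ₂) := dΓ
  have hΓp : ∀ z ∈ Str κ₂, Γ (z + ((1 : ℝ) : ℂ)) = Γ z := by
    intro z hz
    refine H500.strip_eq hκ₂ (f := fun z => Γ (z + ((1 : ℝ) : ℂ))) (g := Γ) ?_ dΓ ?_ z hz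
    · refine dΓ.comp (by fun_prop) ?_
      intro z hz
      exact add_real_mem_Str hz _
    · intro x
      show Γ ((x : ℂ) + ((1 : ℝ) : ℂ)) = Γ x
      rw [← ofReal_add, hΓ, hΓ, pφ]
      push_cast
      ring
  obtain ⟨L₀, hL₀, -, hlip⟩ := lip_strip one_pos (show κ₂ / 2 < κ₂ by linarith) dΓ' hΓp
  set Φ : ℂ → ℂ := fun z => Γ z + 2 * Real.pi * z with hΦ
  have hΦr : ∀ x : ℝ, Φ x = φ x := by
    intro x
    rw [hΦ]
    simp only []
    rw [hΓ]
    push_cast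
    ring
  set L : ℝ := L₀ + 2 * Real.pi with hL
  have hpi := Real.pi_pos
  have hL0 : 0 < L := by positivity
  have hΦL : ∀ z ∈ Str (κ₂ / 2), ∀ w ∈ Str (κ₂ / 2), ‖Φ z - Φ w‖ ≤ L * ‖z - w‖ := by
    intro z hz w hw
    have h1 := hlip z hz w hw
    have h2 : Φ z - Φ w = (Γ z - Γ w) + ((2 * Real.pi : ℝ) : ℂ) * (z - w) := by
      rw [hΦ]
      push_cast
      ring
    rw [h2]
    refine (norm_add_le _ _).trans ?_
    rw [norm_mul, norm_real, Real.norm_eq_abs, abs_of_pos (show (0 : ℝ) < 2 * Real.pi by positivity),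
      hL, add_mul]
    linarith
  set κ' : ℝ := min (κ₂ / 2) (κ₁ / L) with hκ'
  have hκ'0 : 0 < κ' := by positivity
  have hsub : Str κ' ⊆ Str (κ₂ / 2) := Str_mono (min_le_left _ _)
  have hsub2 : Str κ' ⊆ Str κ₂ := hsub.trans (Str_mono (by linarith))
  have hmap : ∀ z ∈ Str κ', Φ z ∈ Str κ₁ := by
    intro z hz
    have h1 := hΦL z (hsub hz) (z.re : ℂ) (real_mem_Str (by linarith) _)
    rw [norm_sub_re, hΦr] at h1
    have h2 := abs_im_le_norm (Φ z - ((φ z.re : ℝ) : ℂ))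
    rw [sub_im, ofReal_im, sub_zero] at h2
    have h3 : |z.im| < κ₁ / L := lt_of_lt_of_le hz (min_le_right _ _)
    rw [lt_div_iff₀ hL0] at h3
    rw [mem_Str]
    linarith
  have dΦ : DifferentiableOn ℂ Φ (Str κ') := (dΓ'.mono hsub2).add (by fun_prop)
  refine ⟨κ', L, Φ, hκ'0, hL0.le, hΦr, hmap, ?_, ?_, fun z hz w hw => hΦL z (hsub hz) w (hsub hw)⟩
  · have hlc : DifferentiableOn ℂ (fun z => lam (Φ z)) (Str κ') :=
      dl.comp dΦ fun z hz => Str_mono hκ₁' (hmap z hz)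
    have key : ∀ z : ℂ, |z.im| < κ' → deriv Φ z * lam (Φ z) = (Λ : ℂ) := by
      refine H500.strip_eq hκ'0 (f := fun z => deriv Φ z * lam (Φ z)) (g := fun _ => (Λ : ℂ))
        ((dΦ.deriv (isOpen_Str κ')).mul hlc) (differentiableOn_const _) ?_
      intro x
      have h1 := (deriv_ext hκ'0 dΦ hΦr x).2
      rw [h1, (dφ x).deriv, hΦr, hl, ← ofReal_mul, div_mul_cancel₀ _ (hpos _).ne']
    intro z hz
    have h1 := (dΦ.differentiableAt ((isOpen_Str κ').mem_nhds hz)).hasDerivAt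
    have h2 := key z hz
    have h3 := hne _ (Str_mono hκ₁' (hmap z hz))
    rw [← h2, mul_div_cancel_right₀ _ h3]
    exact h1
  · intro z hz
    have := hΓp z (hsub2 hz)
    rw [ofReal_one] at this
    rw [hΦ]
    simp only []
    rw [this]
    ring

end Vale.Agent.P097.H202
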