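import Vale.Agent.P097.H202.Br

set_option linter.all false

/-! # P097 : complex lines of the leaves (directions and support numbers)

From the joint holomorphic family of leaves (Theorem A) to the pair `(α, p)` = (direction, support
number) of the line with phase `t` and rotation number `w`. -/

open Complex Metric Filter Topology Set
open scoped ComplexConjugate
open Vale.Agent.P097.TA

namespace Vale.Agent.P097.H202

/-- support number of the line of direction `a` which bounces into the direction `c` -/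
noncomputable def KK (H : ℂ → ℂ) (a c : ℂ) : ℂ := Kc H a ((a + c) / 2)

/-- generating function in the directions -/
noncomputable def FF (H HH : ℂ → ℂ) (a c : ℂ) : ℂ :=
  HH c - HH a - 2 * H ((a + c) / 2) * Complex.sin ((c - a) / 2)

/-- the domain of a pair of directions -/
def PD (κ : ℝ) : Set (ℂ × ℂ) := {p | p.1 ∈ Str κ ∧ p.2 ∈ Str κ}

theorem isOpen_PD (κ : ℝ) : IsOpen (PD κ) := (isOpen_Str κ).prod (isOpen_Str κ)

theorem PD_mid {κ : ℝ} {a c : ℂ} (h : (a, c) ∈ PD κ) : (a + c) / 2 ∈ Str κ := by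
  obtain ⟨h1, h2⟩ := h
  rw [mem_Str, abs_lt] at *
  simp only [div_ofNat_im, add_im] at *
  constructor <;> linarith [h1.1, h1.2, h2.1, h2.2]

section
variable {κ : ℝ} {H HH : ℂ → ℂ} (dH : DifferentiableOn ℂ H (Str κ))
include dH

theorem JD_mid : JD (fun a c => H ((a + c) / 2)) (PD κ) :=
  JD.comp_one dH ((JD.fst.add JD.snd).div (JD.const 2) fun _ _ _ => two_ne_zero)
    fun _ _ h => PD_mid h

theorem JD_KK : JD (KK H) (PD κ) := by
  have h1 := JD_mid dH
  have h2 := JD_mid (dH.deriv (isOpen_Str κ))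
  have h3 : JD (fun a c => (a + c) / 2 - a) (PD κ) :=
    ((JD.fst.add JD.snd).div (JD.const 2) fun _ _ _ => two_ne_zero).sub JD.fst
  have h4 : JD (fun a c => Complex.cos ((a + c) / 2 - a)) (PD κ) :=
    JD.comp_one (U := univ) Complex.differentiable_cos.differentiableOn h3 fun _ _ _ => mem_univ _
  have h5 : JD (fun a c => Complex.sin ((a + c) / 2 - a)) (PD κ) :=
    JD.comp_one (U := univ) Complex.differentiable_sin.differentiableOn h3 fun _ _ _ => mem_univ _
  exact (h1.mul h4).sub (h2.mul h5)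

theorem de_KK {a c : ℂ} (h : (a, c) ∈ PD κ) : de (KK H) a c =
    -((H ((a + c) / 2) + deriv (deriv H) ((a + c) / 2)) * Complex.sin ((c - a) / 2)) / 2 := by
  have hm := PD_mid h
  have d1 : HasDerivAt H (deriv H ((a + c) / 2)) ((a + c) / 2) :=
    (dH.differentiableAt ((isOpen_Str κ).mem_nhds hm)).hasDerivAt
  have d2 : HasDerivAt (deriv H) (deriv (deriv H) ((a + c) / 2)) ((a + c) / 2) :=
    ((dH.deriv (isOpen_Str κ)).differentiableAt ((isOpen_Str κ).mem_nhds hm)).hasDerivAt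
  have hu : HasDerivAt (fun c : ℂ => (a + c) / 2) (1 / 2) c :=
    ((hasDerivAt_id c).const_add a).div_const 2
  have e1 := d1.comp c hu
  have e2 := d2.comp c hu
  have e3 := (Complex.hasDerivAt_cos ((a + c) / 2 - a)).comp c (hu.sub_const a)
  have e4 := (Complex.hasDerivAt_sin ((a + c) / 2 - a)).comp c (hu.sub_const a)
  have e5 := (e1.mul e3).sub (e2.mul e4)
  have e6 : de (KK H) a c = _ := e5.deriv
  rw [e6]
  simp only [Function.comp]
  rw [show (c - a) / 2 = (a + c) / 2 - a by ring]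
  ring

variable (dHH : ∀ z ∈ Str κ, HasDerivAt HH (H z) z)
include dHH

theorem JD_FF : JD (FF H HH) (PD κ) := by
  have dHH' : DifferentiableOn ℂ HH (Str κ) :=
    fun z hz => (dHH z hz).differentiableAt.differentiableWithinAt
  have h1 : JD (fun a c => HH c) (PD κ) := JD.comp_one dHH' JD.snd fun _ _ h => h.2
  have h2 : JD (fun a c => HH a) (PD κ) := JD.comp_one dHH' JD.fst fun _ _ h => h.1
  have h3 : JD (fun a c => (c - a) / 2) (PD κ) :=
    (JD.snd.sub JD.fst).div (JD.const 2) fun _ _ _ => two_ne_zero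
  have h5 : JD (fun a c => Complex.sin ((c - a) / 2)) (PD κ) :=
    JD.comp_one (U := univ) Complex.differentiable_sin.differentiableOn h3 fun _ _ _ => mem_univ _
  exact (h1.sub h2).sub ((JD.const_mul 2 (JD_mid dH)).mul h5)

theorem dx_FF {a c : ℂ} (h : (a, c) ∈ PD κ) : dx (FF H HH) a c = Kc H a ((a + c) / 2) - H a := by
  have hm := PD_mid h
  have d1 : HasDerivAt H (deriv H ((a + c) / 2)) ((a + c) / 2) :=
    (dH.differentiableAt ((isOpen_Str κ).mem_nhds hm)).hasDerivAt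
  have hu : HasDerivAt (fun a : ℂ => (a + c) / 2) (1 / 2) a :=
    ((hasDerivAt_id a).add_const c).div_const 2
  have hv : HasDerivAt (fun a : ℂ => (c - a) / 2) (-1 / 2) a :=
    ((hasDerivAt_id a).const_sub c).div_const 2
  have e1 := d1.comp a hu
  have e3 := (Complex.hasDerivAt_sin ((c - a) / 2)).comp a hv
  have e5 := ((dHH a h.1).const_sub (HH c)).sub ((e1.const_mul 2).mul e3)
  have e6 : dx (FF H HH) a c = _ := e5.deriv
  rw [e6, Kc, show (a + c) / 2 - a = (c - a) / 2 by ring]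
  simp only [Function.comp]
  ring

theorem de_FF {a c : ℂ} (h : (a, c) ∈ PD κ) : de (FF H HH) a c = H c - Kc H c ((a + c) / 2) := by
  have hm := PD_mid h
  have d1 : HasDerivAt H (deriv H ((a + c) / 2)) ((a + c) / 2) :=
    (dH.differentiableAt ((isOpen_Str κ).mem_nhds hm)).hasDerivAt
  have hu : HasDerivAt (fun c : ℂ => (a + c) / 2) (1 / 2) c :=
    ((hasDerivAt_id c).const_add a).div_const 2
  have hv : HasDerivAt (fun c : ℂ => (c - a) / 2) (1 / 2) c :=
    ((hasDerivAt_id c).sub_const a).div_const 2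
  have e1 := d1.comp c hu
  have e3 := (Complex.hasDerivAt_sin ((c - a) / 2)).comp c hv
  have e5 := ((dHH c h.2).sub_const (HH a)).sub ((e1.const_mul 2).mul e3)
  have e6 : de (FF H HH) a c = _ := e5.deriv
  rw [e6, Kc, show (a + c) / 2 - c = -((c - a) / 2) by ring, Complex.cos_neg, Complex.sin_neg]
  simp only [Function.comp]
  ring

end

/-- directions of a holomorphic family of leaves -/
structure AL (κ : ℝ) (H Φ : ℂ → ℂ) (r e : ℝ) (α : ℂ → ℂ → ℂ) : Prop where
  hr : 0 < r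
  he : 0 < e
  jα : JD α (WW 0 r e)
  αper : ∀ t w : ℂ, (t, w) ∈ WW 0 r e → α (t + 1) w = α t w + 2 * Real.pi
  αev : ∀ t w : ℂ, (t, w) ∈ WW 0 r e → α t (-w) = α t w
  αre : ∀ t w : ℂ, (t, w) ∈ WW 0 r e → α (conj t) (conj w) = conj (α t w)
  mem : ∀ t w : ℂ, (t, w) ∈ WW 0 r e → α t w ∈ Str (κ / 2)
  el : ∀ t w : ℂ, (t, w) ∈ WW 1 r e →
    Kc H (α t w) ((α (t - w) w + α t w) / 2) = Kc H (α t w) ((α t w + α (t + w) w) / 2)
  zero : ∀ t : ℂ, |t.im| < r → α t 0 = Φ t

variable {h : ℝ → ℝ} {κ ρ Λ L : ℝ} {H HH lam Φ : ℂ → ℂ} {l φ : ℝ → ℝ}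

/-- the directions of the leaves of Theorem A -/
theorem exists_AL (T : LD h κ ρ Λ L H HH lam Φ l φ) {ρ' : ℝ} (hρ' : 0 < ρ') {b : ℂ → ℂ → ℂ}
    (hb : IsGen ρ Λ H HH Φ ρ' b) {L' r e : ℝ} {θ : ℂ → ℂ → ℂ} (F : Fam b L' r e θ) :
    ∃ r₁ e₁ : ℝ, r₁ ≤ r ∧ e₁ ≤ e ∧ AL κ H Φ r₁ e₁ (fun t w => Φ (θ t w)) ∧
      ∀ t w : ℂ, (t, w) ∈ WW 0 r₁ e₁ → θ t w ∈ Str ρ := by
  have hr := F.hr
  have he := F.he
  have hρ := T.ρ0
  have hL' : 0 ≤ L' := by
    have h1 := F.cl 0 ((e / 2 : ℝ) : ℂ) ⟨by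
      rw [norm_real, Real.norm_eq_abs, abs_of_pos (by positivity)]; linarith, by simpa using hr⟩
    have h2 := (norm_nonneg _).trans h1
    rw [norm_real, Real.norm_eq_abs, abs_of_pos (by positivity)] at h2
    by_contra hcon
    push Not at hcon
    have : 0 < (e / 2) ^ 2 := by positivity
    nlinarith
  set r₁ : ℝ := min r (min (ρ / 2) (ρ' / 2)) with hr₁
  set e₁ : ℝ := min e (min (ρ' / 8) (min 1 (min (ρ / (2 * (L' + 1))) (ρ' / (8 * (L' + 1)))))) with he₁
  have hr₁0 : 0 < r₁ := by positivity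
  have he₁0 : 0 < e₁ := by positivity
  have hr₁r : r₁ ≤ r := min_le_left _ _
  have he₁e : e₁ ≤ e := min_le_left _ _
  have hr₁ρ : r₁ ≤ ρ / 2 := (min_le_right _ _).trans (min_le_left _ _)
  have hr₁ρ' : r₁ ≤ ρ' / 2 := (min_le_right _ _).trans (min_le_right _ _)
  have he₁ρ' : e₁ ≤ ρ' / 8 := (min_le_right _ _).trans (min_le_left _ _)
  have he₁1 : e₁ ≤ 1 :=
    (min_le_right _ _).trans ((min_le_right _ _).trans (min_le_left _ _))
  have he₁a : e₁ ≤ ρ / (2 * (L' + 1)) := (min_le_right _ _).trans ((min_le_right _ _).trans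
    ((min_le_right _ _).trans (min_le_left _ _)))
  have he₁b : e₁ ≤ ρ' / (8 * (L' + 1)) := (min_le_right _ _).trans ((min_le_right _ _).trans
    ((min_le_right _ _).trans (min_le_right _ _)))
  rw [le_div_iff₀ (by positivity)] at he₁a he₁b
  have hsub : ∀ {t w : ℂ}, (t, w) ∈ WW 0 r₁ e₁ → (t, w) ∈ WW 0 r e :=
    fun h => WW_mono le_rfl hr₁r he₁e h
  -- closeness
  have hsq : ∀ {w : ℂ}, ‖w‖ < e₁ → L' * ‖w‖ ^ 2 ≤ L' * e₁ := by
    intro w hw
    have h1 : ‖w‖ ^ 2 ≤ e₁ := by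
      have h2 : ‖w‖ ^ 2 ≤ e₁ ^ 2 := by gcongr
      nlinarith
    exact mul_le_mul_of_nonneg_left h1 hL'
  have hcl : ∀ {t w : ℂ}, (t, w) ∈ WW 0 r₁ e₁ → ‖θ t w - t‖ ≤ ρ / 2 - 0 ∧ ‖θ t w - t‖ ≤ ρ' / 8 := by
    intro t w h
    have h1 := F.cl t w (hsub h)
    have h2 := hsq h.1
    constructor <;> nlinarith
  have hmem : ∀ {t w : ℂ}, (t, w) ∈ WW 0 r₁ e₁ → θ t w ∈ Str ρ := by
    intro t w h
    have h1 := (hcl h).1
    have h2 := abs_im_le_norm (θ t w - t)
    rw [sub_im] at h2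
    have h3 : |t.im| < r₁ := by simpa using h.2
    have h4 := abs_sub_abs_le_abs_sub (θ t w).im t.im
    rw [mem_Str]
    linarith
  refine ⟨r₁, e₁, hr₁r, he₁e, ⟨hr₁0, he₁0, ?_, ?_, ?_, ?_, ?_, ?_, ?_⟩, fun t w h => hmem h⟩
  · exact JD.comp_one T.dΦ' (F.hol.mono fun p hp => hsub hp) fun _ _ h => hmem h
  · intro t w h
    show Φ (θ (t + 1) w) = _
    rw [F.per t w (hsub h), T.Φp _ (hmem h)]
  · intro t w h
    show Φ (θ t (-w)) = _
    rw [F.ev t w (hsub h)]
  · intro t w h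
    show Φ (θ (conj t) (conj w)) = _
    rw [F.re t w (hsub h), T.Φc _ (hmem h)]
  · intro t w h
    exact T.Φm _ (hmem h)
  · intro t w h
    have h0 : (t, w) ∈ WW 0 r₁ e₁ := WW_mono zero_le_one le_rfl le_rfl h
    have hm : (t - w, w) ∈ WW 0 r₁ e₁ := WW_sub (by simpa using h)
    have hp : (t + w, w) ∈ WW 0 r₁ e₁ := WW_add (by simpa using h)
    have hEL : EL b (θ (t - w) w) (θ t w) (θ (t + w) w) = 0 :=
      F.er t w (WW_mono le_rfl hr₁r he₁e h)
    have c0 := (hcl h0).2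
    have cm := (hcl hm).2
    have cp := (hcl hp).2
    have im_le : ∀ {t w : ℂ}, (t, w) ∈ WW 0 r₁ e₁ → |(θ t w).im| < r₁ + ρ' / 8 := by
      intro t w h
      have h1 := (hcl h).2
      have h2 := abs_im_le_norm (θ t w - t)
      rw [sub_im] at h2
      have h3 : |t.im| < r₁ := by simpa using h.2
      have h4 := abs_sub_abs_le_abs_sub (θ t w).im t.im
      linarith
    have hmid : ∀ {a c : ℂ}, |a.im| < r₁ + ρ' / 8 → |c.im| < r₁ + ρ' / 8 →
        |((a + c) / 2).im| < ρ' := by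
      intro a c h1 h2
      rw [div_ofNat_im, add_im, abs_div]
      have h3 := abs_add_le a.im c.im
      rw [show |(OfNat.ofNat 2 : ℝ)| = 2 by simp]
      linarith
    have hw : ‖w‖ < ρ' / 8 := lt_of_lt_of_le h.1 he₁ρ'
    have d1 : ‖θ t w - θ (t - w) w‖ < ρ' := by
      have e1 : θ t w - θ (t - w) w = (θ t w - t) - (θ (t - w) w - (t - w)) + w := by ring
      rw [e1]
      have h1 := norm_add_le ((θ t w - t) - (θ (t - w) w - (t - w))) w
      have h2 := norm_sub_le (θ t w - t) (θ (t - w) w - (t - w))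
      linarith
    have d2 : ‖θ (t + w) w - θ t w‖ < ρ' := by
      have e1 : θ (t + w) w - θ t w = (θ (t + w) w - (t + w)) - (θ t w - t) + w := by ring
      rw [e1]
      have h1 := norm_add_le ((θ (t + w) w - (t + w)) - (θ t w - t)) w
      have h2 := norm_sub_le (θ (t + w) w - (t + w)) (θ t w - t)
      linarith
    exact (EL_zero_iff T hb (hmid (im_le hm) (im_le h0)) d1 (hmid (im_le h0) (im_le hp)) d2).1 hEL
  · intro t ht
    show Φ (θ t 0) = Φ t
    have h1 := F.cl t 0 ⟨by simpa using he, by simpa using lt_of_lt_of_le ht hr₁r⟩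
    simp only [norm_zero, ne_eq, OfNat.ofNat_ne_zero, not_false_eq_true, zero_pow, mul_zero,
      norm_le_zero_iff, sub_eq_zero] at h1
    rw [h1]

end Vale.Agent.P097.H202
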