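import Vale.Agent.P097.H202.Prim
import Mathlib.Algebra.Group.ForwardDiff

/-! # P097 / RAT-A, part 1: Newton's formula for the derivative (numerical differentiation) -/

set_option linter.all false

open Complex Metric Filter Topology Set
open scoped ComplexConjugate

namespace Vale.Agent.P097.H202

/-- derivative at zero of the falling factorials -/
theorem descPoch_deriv (k : ℕ) :
    (Polynomial.derivative (descPochhammer ℂ (k + 1))).eval 0 = (-1) ^ k * (k.factorial : ℂ) := by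
  rw [descPochhammer_succ_left, Polynomial.derivative_mul, Polynomial.derivative_X,
    Polynomial.eval_add, Polynomial.eval_mul, Polynomial.eval_mul, Polynomial.eval_X,
    zero_mul, add_zero, Polynomial.eval_one, one_mul, Polynomial.eval_comp, Polynomial.eval_sub,
    Polynomial.eval_X, Polynomial.eval_one, zero_sub]
  induction k with
  | zero => simp
  | succ k ih =>
    rw [descPochhammer_succ_right, Polynomial.eval_mul, ih, Polynomial.eval_sub,
      Polynomial.eval_X, Nat.factorial_succ]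
    simp only [Polynomial.eval_natCast]
    push_cast
    ring

/-- exactness of Newton's formula on monomials -/
theorem newt_exact (m l : ℕ) (hl : l ≤ m) :
    ∑ n ∈ Finset.Icc 1 m, (-1 : ℂ) ^ (n + 1) / n *
      ∑ k ∈ Finset.range (n + 1), (-1 : ℂ) ^ (n - k) * (n.choose k : ℂ) * ((k : ℂ) ^ l)
      = if l = 1 then 1 else 0 := by
  -- the differences
  set D : ℕ → ℂ := fun n => (fwdDiff (1 : ℂ))^[n] (fun x : ℂ => x ^ l) 0 with hD
  have hD1 : ∀ n, ∑ k ∈ Finset.range (n + 1), (-1 : ℂ) ^ (n - k) * (n.choose k : ℂ) * ((k : ℂ) ^ l)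
      = D n := by
    intro n
    rw [hD]
    simp only
    rw [fwdDiff_iter_eq_sum_shift]
    refine Finset.sum_congr rfl fun k _ => ?_
    simp only [nsmul_eq_mul, mul_one, zero_add, zsmul_eq_mul]
    push_cast
    ring
  have hD0 : ∀ n, l < n → D n = 0 := by
    intro n hn
    rw [hD]
    simp only
    rw [fwdDiff_iter_pow_eq_zero_of_lt hn]
    rfl
  -- the polynomial identity
  have hpoly : (Polynomial.X : Polynomial ℂ) ^ l = ∑ k ∈ Finset.range (m + 1),
      Polynomial.C (D k / (k.factorial : ℂ)) * descPochhammer ℂ k := by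
    refine Polynomial.eq_of_infinite_eval_eq _ _ ?_
    refine Set.Infinite.mono (s := Set.range (fun N : ℕ => ((N + m : ℕ) : ℂ))) ?_
      (Set.infinite_range_of_injective ?_)
    · rintro _ ⟨N, rfl⟩
      rw [mem_setOf_eq, Polynomial.eval_pow, Polynomial.eval_X, Polynomial.eval_finset_sum]
      have h1 := shift_eq_sum_fwdDiff_iter (1 : ℂ) (fun x : ℂ => x ^ l) (N + m) 0
      simp only [nsmul_eq_mul, mul_one, zero_add] at h1
      rw [h1]
      have h2 : Finset.range (m + 1) ⊆ Finset.range (N + m + 1) := by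
        intro k hk
        rw [Finset.mem_range] at *
        omega
      rw [← Finset.sum_subset h2]
      · refine Finset.sum_congr rfl fun k _ => ?_
        rw [Polynomial.eval_mul, Polynomial.eval_C, descPochhammer_eval_eq_descFactorial,
          Nat.descFactorial_eq_factorial_mul_choose]
        have hk : (k.factorial : ℂ) ≠ 0 := by exact_mod_cast k.factorial_ne_zero
        rw [hD]
        push_cast
        field_simp
      · intro k _ hk
        have hk' : l < k := by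
          rw [Finset.mem_range] at hk
          omega
        have := hD0 k hk'
        rw [hD] at this
        simp only at this
        rw [this, mul_zero]
    · intro a b hab
      have hab' : ((a + m : ℕ) : ℂ) = ((b + m : ℕ) : ℂ) := hab
      have : a + m = b + m := by exact_mod_cast hab'
      omega
  have hder := congrArg (fun P : Polynomial ℂ => (Polynomial.derivative P).eval 0) hpoly
  simp only [Polynomial.derivative_sum, Polynomial.derivative_C_mul, Polynomial.eval_finset_sum,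
    Polynomial.eval_mul, Polynomial.eval_C, Polynomial.derivative_X_pow, Polynomial.eval_pow,
    Polynomial.eval_X, Polynomial.eval_natCast, map_natCast] at hder
  rw [Finset.sum_range_succ'] at hder
  simp only [descPoch_deriv] at hder
  have h0 : (Polynomial.derivative (descPochhammer ℂ 0)).eval 0 = 0 := by
    simp [descPochhammer_zero]
  rw [h0, mul_zero, add_zero] at hder
  have hlhs : (l : ℂ) * 0 ^ (l - 1) = if l = 1 then 1 else 0 := by
    rcases l with _ | _ | l
    · simp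
    · simp
    · simp
  rw [hlhs] at hder
  have hI : Finset.Icc 1 m = Finset.Ico 1 (m + 1) := by
    ext x
    simp only [Finset.mem_Icc, Finset.mem_Ico]
    omega
  rw [hder, hI, Finset.sum_Ico_eq_sum_range]
  refine Finset.sum_congr rfl fun k _ => ?_
  rw [show 1 + k = k + 1 by ring, hD1, Nat.factorial_succ]
  have hk : (k.factorial : ℂ) ≠ 0 := by exact_mod_cast k.factorial_ne_zero
  have hk1 : ((k : ℂ) + 1) ≠ 0 := by exact_mod_cast (Nat.succ_ne_zero k)
  push_cast
  field_simp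
  ring

/-- Taylor expansion with uniform remainder -/
theorem taylor_rem {g : ℂ → ℂ} {R M : ℝ} (hR : 0 < R) (hg : DifferentiableOn ℂ g (ball 0 R))
    (hM : ∀ z : ℂ, ‖z‖ < R → ‖g z‖ ≤ M) (m : ℕ) : ∃ a : ℕ → ℂ, a 1 = deriv g 0 ∧
      ∀ z : ℂ, ‖z‖ < R / 2 → ‖g z - ∑ l ∈ Finset.range (m + 1), a l * z ^ l‖
        ≤ (m + 2) * M * (‖z‖ / (R / 2)) ^ (m + 1) := by
  have hM0 : 0 ≤ M := (norm_nonneg _).trans (hM 0 (by simpa using hR))
  set R' : NNReal := ⟨R / 2, by positivity⟩ with hR'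
  have hR'c : (R' : ℝ) = R / 2 := rfl
  have hR'0 : 0 < R' := by
    rw [← NNReal.coe_pos, hR'c]
    positivity
  have hcb : closedBall (0 : ℂ) R' ⊆ ball 0 R := closedBall_subset_ball (by rw [hR'c]; linarith)
  have hp := (hg.mono hcb).hasFPowerSeriesOnBall hR'0
  set p := cauchyPowerSeries g 0 R' with hpdef
  set a : ℕ → ℂ := fun l => p.coeff l with ha
  have hab : ∀ l, ‖a l‖ * (R / 2) ^ l ≤ M := by
    intro l
    have h1 := norm_cauchyPowerSeries_le g 0 (R' : ℝ) l
    rw [FormalMultilinearSeries.norm_apply_eq_norm_coef] at h1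
    have h2 : (2 * Real.pi)⁻¹ * ∫ θ : ℝ in (0 : ℝ)..2 * Real.pi, ‖g (circleMap 0 R' θ)‖ ≤ M := by
      have h3 : ‖∫ θ : ℝ in (0 : ℝ)..2 * Real.pi, ‖g (circleMap 0 R' θ)‖‖
          ≤ M * |2 * Real.pi - 0| := by
        refine intervalIntegral.norm_integral_le_of_norm_le_const fun θ _ => ?_
        rw [norm_norm]
        refine hM _ ?_
        rw [norm_circleMap_zero, hR'c, abs_of_pos (by positivity)]
        linarith
      rw [sub_zero, abs_of_pos Real.two_pi_pos] at h3
      have h4 := (le_abs_self _).trans h3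
      rw [inv_mul_le_iff₀ Real.two_pi_pos]
      linarith
    have h5 : ‖a l‖ ≤ M * |(R' : ℝ)|⁻¹ ^ l := h1.trans (by gcongr)
    rw [hR'c, abs_of_pos (by positivity : (0 : ℝ) < R / 2)] at h5
    calc ‖a l‖ * (R / 2) ^ l ≤ M * (R / 2)⁻¹ ^ l * (R / 2) ^ l := by gcongr
      _ = M := by
        rw [mul_assoc, ← mul_pow, inv_mul_cancel₀ (by positivity), one_pow, mul_one]
  refine ⟨a, ?_, ?_⟩
  · rw [hp.hasFPowerSeriesAt.deriv]
    rfl
  · intro z hz
    set f : ℂ → ℂ := fun z => g z - ∑ l ∈ Finset.range (m + 1), a l * z ^ l with hf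
    have hfd : DifferentiableOn ℂ f (ball 0 (R / 2)) := by
      refine (hg.mono (ball_subset_ball (by linarith))).sub ?_
      exact Differentiable.differentiableOn (by fun_prop)
    have hO : f =O[𝓝 0] fun z : ℂ => z ^ (m + 1) := by
      have h1 := hp.hasFPowerSeriesAt.isBigO_sub_partialSum_pow (m + 1)
      have h2 : (fun y => g (0 + y) - p.partialSum (m + 1) y) = f := by
        ext y
        rw [zero_add, hf]
        simp only [FormalMultilinearSeries.partialSum]
        congr 1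
        refine Finset.sum_congr rfl fun l _ => ?_
        rw [FormalMultilinearSeries.apply_eq_pow_smul_coeff, smul_eq_mul, mul_comm]
      rw [h2] at h1
      refine h1.trans ?_
      refine Asymptotics.IsBigO.of_bound 1 (Eventually.of_forall fun z => ?_)
      simp
    have hf0 : f 0 = 0 := hO.eq_zero_imp.self_of_nhds (by simp)
    have hfb : ∀ z ∈ ball (0 : ℂ) (R / 2), ‖f z‖ ≤ (m + 2) * M := by
      intro z hz
      rw [mem_ball, dist_zero_right] at hz
      rw [hf]
      refine (norm_sub_le _ _).trans ?_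
      have h1 := hM z (by linarith)
      have h2 : ‖∑ l ∈ Finset.range (m + 1), a l * z ^ l‖ ≤ ∑ l ∈ Finset.range (m + 1), M := by
        refine norm_sum_le_of_le _ fun l _ => ?_
        rw [norm_mul, norm_pow]
        refine le_trans ?_ (hab l)
        gcongr
      rw [Finset.sum_const, Finset.card_range, nsmul_eq_mul] at h2
      push_cast at h2
      linarith
    exact schwarz_pow hfd hfb hf0 hO (by simpa using hz)

/-- Newton's formula applied to a polynomial -/
theorem newt_poly (m : ℕ) (hm : 1 ≤ m) (a : ℕ → ℂ) (w : ℂ) :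
    ∑ n ∈ Finset.Icc 1 m, (-1 : ℂ) ^ (n + 1) / n *
      ∑ k ∈ Finset.range (n + 1), (-1 : ℂ) ^ (n - k) * (n.choose k : ℂ) *
        (∑ l ∈ Finset.range (m + 1), a l * (k * w) ^ l) = a 1 * w := by
  have h1 : ∀ n : ℕ, (-1 : ℂ) ^ (n + 1) / n *
    ∑ k ∈ Finset.range (n + 1), (-1 : ℂ) ^ (n - k) * (n.choose k : ℂ) *
      (∑ l ∈ Finset.range (m + 1), a l * (k * w) ^ l) = ∑ l ∈ Finset.range (m + 1), a l * w ^ l *
      ((-1 : ℂ) ^ (n + 1) / n * ∑ k ∈ Finset.range (n + 1), (-1 : ℂ) ^ (n - k) *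
        (n.choose k : ℂ) * (k : ℂ) ^ l) := by
    intro n
    rw [Finset.mul_sum]
    simp_rw [Finset.mul_sum]
    rw [Finset.sum_comm]
    refine Finset.sum_congr rfl fun l _ => Finset.sum_congr rfl fun k _ => ?_
    rw [mul_pow]
    ring
  simp_rw [h1]
  rw [Finset.sum_comm]
  have h2 : ∀ l ∈ Finset.range (m + 1), ∑ n ∈ Finset.Icc 1 m, a l * w ^ l *
      ((-1 : ℂ) ^ (n + 1) / n * ∑ k ∈ Finset.range (n + 1), (-1 : ℂ) ^ (n - k) *
        (n.choose k : ℂ) * (k : ℂ) ^ l) = if l = 1 then a l * w ^ l else 0 := by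
    intro l hl
    rw [← Finset.mul_sum, newt_exact m l (by rw [Finset.mem_range] at hl; omega)]
    split_ifs <;> simp
  rw [Finset.sum_congr rfl h2, Finset.sum_ite_eq' (Finset.range (m + 1)) 1]
  simp only [Finset.mem_range, pow_one]
  rw [if_pos (by omega)]

/-- the constant in Newton's formula -/
noncomputable def newtC (m : ℕ) (B : ℝ) : ℝ :=
  ∑ n ∈ Finset.Icc 1 m, ‖(-1 : ℂ) ^ (n + 1) / n‖ *
      ∑ k ∈ Finset.range (n + 1), ‖(-1 : ℂ) ^ (n - k) * (n.choose k : ℂ)‖ *
        (B * (k : ℝ) ^ (m + 1))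

theorem newtC_nonneg (m : ℕ) {B : ℝ} (hB : 0 ≤ B) : 0 ≤ newtC m B := by
  refine Finset.sum_nonneg fun n _ => mul_nonneg (norm_nonneg _) (Finset.sum_nonneg fun k _ => ?_)
  positivity

theorem newt_bd (m : ℕ) {B W : ℝ} {f : ℕ → ℂ}
    (hf : ∀ k : ℕ, k ≤ m → ‖f k‖ ≤ B * (k : ℝ) ^ (m + 1) * W) :
    ‖∑ n ∈ Finset.Icc 1 m, (-1 : ℂ) ^ (n + 1) / n *
      ∑ k ∈ Finset.range (n + 1), (-1 : ℂ) ^ (n - k) * (n.choose k : ℂ) * f k‖
      ≤ newtC m B * W := by
  rw [newtC, Finset.sum_mul]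
  refine norm_sum_le_of_le _ fun n hn => ?_
  rw [norm_mul, mul_assoc]
  refine mul_le_mul_of_nonneg_left ?_ (norm_nonneg _)
  rw [Finset.sum_mul]
  refine norm_sum_le_of_le _ fun k hk => ?_
  rw [norm_mul, mul_assoc]
  refine mul_le_mul_of_nonneg_left ?_ (norm_nonneg _)
  refine hf k ?_
  rw [Finset.mem_Icc] at hn
  rw [Finset.mem_range] at hk
  omega

theorem newt_err_pos (m : ℕ) (hm : 1 ≤ m) {R M : ℝ} (hR : 0 < R) (hM0 : 0 ≤ M) : ∃ C : ℝ, 0 ≤ C ∧
    ∀ g : ℂ → ℂ, DifferentiableOn ℂ g (ball 0 R) → (∀ z : ℂ, ‖z‖ < R → ‖g z‖ ≤ M) →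
    ∀ w : ℂ, ‖w‖ < R / 2 / (m + 1) →
      ‖w * deriv g 0 - ∑ n ∈ Finset.Icc 1 m, (-1 : ℂ) ^ (n + 1) / n *
      ∑ k ∈ Finset.range (n + 1), (-1 : ℂ) ^ (n - k) * (n.choose k : ℂ) * g (k * w)‖
        ≤ C * ‖w‖ ^ (m + 1) := by
  obtain ⟨B, hB⟩ : ∃ B : ℝ, B = (m + 2) * M / (R / 2) ^ (m + 1) := ⟨_, rfl⟩
  have hB0 : 0 ≤ B := by rw [hB]; positivity
  refine ⟨newtC m B, newtC_nonneg m hB0, ?_⟩
  intro g hg hgM w hw
  obtain ⟨a, ha1, ha⟩ := taylor_rem hR hg hgM m
  rw [lt_div_iff₀ (by positivity)] at hw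
  -- remainder
  obtain ⟨f, hf⟩ : ∃ f : ℕ → ℂ, ∀ k, f k = g (k * w) -
    ∑ l ∈ Finset.range (m + 1), a l * (k * w) ^ l := ⟨_, fun _ => rfl⟩
  have hfb : ∀ k : ℕ, k ≤ m → ‖f k‖ ≤ B * (k : ℝ) ^ (m + 1) * ‖w‖ ^ (m + 1) := by
    intro k hk
    have h1 : ‖(k : ℂ) * w‖ = k * ‖w‖ := by rw [norm_mul, Complex.norm_natCast]
    have h2 : (k : ℝ) ≤ m + 1 := by
      have : (k : ℝ) ≤ m := by exact_mod_cast hk
      linarith
    have h3 := ha (k * w) (by
      rw [h1]
      have := norm_nonneg w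
      nlinarith)
    rw [h1, ← hf] at h3
    refine h3.trans (le_of_eq ?_)
    rw [hB, div_pow, mul_pow]
    ring
  have hsplit : w * deriv g 0 - ∑ n ∈ Finset.Icc 1 m, (-1 : ℂ) ^ (n + 1) / n *
      ∑ k ∈ Finset.range (n + 1), (-1 : ℂ) ^ (n - k) * (n.choose k : ℂ) * g (k * w)
      = -∑ n ∈ Finset.Icc 1 m, (-1 : ℂ) ^ (n + 1) / n *
      ∑ k ∈ Finset.range (n + 1), (-1 : ℂ) ^ (n - k) * (n.choose k : ℂ) * f k := by
    rw [← ha1, mul_comm w, ← newt_poly m hm a w, ← Finset.sum_neg_distrib,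
      ← Finset.sum_sub_distrib]
    refine Finset.sum_congr rfl fun n _ => ?_
    rw [← mul_sub, ← mul_neg, ← Finset.sum_neg_distrib, ← Finset.sum_sub_distrib]
    congr 1
    refine Finset.sum_congr rfl fun k _ => ?_
    rw [hf]
    ring
  rw [hsplit, norm_neg]
  exact newt_bd m hfb

theorem newt_err_zero {R M : ℝ} (hR : 0 < R) (g : ℂ → ℂ) (hg : DifferentiableOn ℂ g (ball 0 R))
    (hgM : ∀ z : ℂ, ‖z‖ < R → ‖g z‖ ≤ M) (w : ℂ) : ‖w * deriv g 0‖ ≤ M / (R / 2) * ‖w‖ := by
  have h1 : ‖deriv g 0‖ ≤ M / (R / 2) := by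
    refine Complex.norm_deriv_le_of_forall_mem_sphere_norm_le (by positivity) ?_ ?_
    · refine DifferentiableOn.diffContOnCl ?_
      rw [closure_ball _ (by positivity)]
      exact hg.mono (closedBall_subset_ball (by linarith))
    · intro z hz
      rw [mem_sphere, dist_zero_right] at hz
      exact hgM z (by rw [hz]; linarith)
  rw [norm_mul, mul_comm]
  gcongr

/-- **Newton's formula** for the derivative, with uniform remainder -/
theorem newt_err (m : ℕ) {R M : ℝ} (hR : 0 < R) (hM0 : 0 ≤ M) : ∃ ε C : ℝ, 0 < ε ∧ 0 ≤ C ∧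
    ∀ g : ℂ → ℂ, DifferentiableOn ℂ g (ball 0 R) → (∀ z : ℂ, ‖z‖ < R → ‖g z‖ ≤ M) →
    ∀ w : ℂ, ‖w‖ < ε → ‖w * deriv g 0 - ∑ n ∈ Finset.Icc 1 m, (-1 : ℂ) ^ (n + 1) / n *
      ∑ k ∈ Finset.range (n + 1), (-1 : ℂ) ^ (n - k) * (n.choose k : ℂ) * g (k * w)‖
        ≤ C * ‖w‖ ^ (m + 1) := by
  rcases Nat.eq_zero_or_pos m with rfl | hm
  · refine ⟨1, M / (R / 2), one_pos, by positivity, ?_⟩
    intro g hg hgM w _
    have h := newt_err_zero hR g hg hgM w
    simpa using h
  · obtain ⟨C, hC, h⟩ := newt_err_pos m hm hR hM0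
    exact ⟨R / 2 / (m + 1), C, by positivity, hC, h⟩

end Vale.Agent.P097.H202
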