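import Vale.Agent.P097.H402.Rat.Defs
import Vale.Agent.P097.H43.GI
import Vale.Agent.P097.H202.PenA1

/-! # P097 / RAT-A, part 2: tube lemma, lower Lipschitz bounds -/

set_option linter.all false

open Complex Metric Filter Topology Set
open scoped ComplexConjugate

namespace Vale.Agent.P097.H202

open Vale.Agent.P097.TA

/-- tube lemma for periodic properties -/
theorem per_tube {T : ℝ} (hT : 0 < T) {P : ℂ → ℂ → Prop}
    (hper : ∀ (t w : ℂ) (n : ℤ), P t w → P (t + n * T) w)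
    (h : ∀ s : ℝ, ∀ᶠ p : ℂ × ℂ in 𝓝 ((s : ℂ), (0 : ℂ)), P p.1 p.2) :
    ∃ δ > 0, ∀ t w : ℂ, |t.im| < δ → ‖w‖ < δ → P t w := by
  have hK : IsCompact (Icc (0 : ℝ) T) := isCompact_Icc
  have h1 : ∀ᶠ q : ℂ × ℂ in 𝓝 ((0 : ℂ), (0 : ℂ)), ∀ s ∈ Icc (0 : ℝ) T, P (s + q.1) q.2 := by
    refine hK.eventually_forall_of_forall_eventually fun s _ => ?_
    have hc : Tendsto (fun z : (ℂ × ℂ) × ℝ => ((z.2 : ℂ) + z.1.1, z.1.2))
        (𝓝 (((0 : ℂ), (0 : ℂ)), s)) (𝓝 ((s : ℂ), (0 : ℂ))) := by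
      have hc' : Continuous fun z : (ℂ × ℂ) × ℝ => ((z.2 : ℂ) + z.1.1, z.1.2) := by fun_prop
      have := hc'.tendsto (((0 : ℂ), (0 : ℂ)), s)
      simpa using this
    exact hc.eventually (h s)
  rw [Metric.eventually_nhds_iff] at h1
  obtain ⟨δ, hδ, h2⟩ := h1
  refine ⟨δ, hδ, fun t w ht hw => ?_⟩
  set n : ℤ := ⌊t.re / T⌋ with hn
  set s : ℝ := t.re - n * T with hs
  have hfl : (n : ℝ) * T ≤ t.re := by
    have := Int.floor_le (t.re / T)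
    rwa [le_div_iff₀ hT] at this
  have hfl2 : t.re < (n + 1) * T := by
    have := Int.lt_floor_add_one (t.re / T)
    rwa [div_lt_iff₀ hT] at this
  have h3 := h2 (y := (I * t.im, w)) (by
    rw [Prod.dist_eq, max_lt_iff]
    refine ⟨?_, ?_⟩
    · rw [dist_zero_right, norm_mul, norm_I, one_mul, norm_real]
      exact ht
    · simpa using hw) s ⟨by linarith, by linarith⟩
  have h4 := hper _ _ n h3
  have h5 : (s : ℂ) + I * t.im + n * T = t := by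
    apply Complex.ext <;> simp [hs]
  rwa [h5] at h4

/-- tube lemma, one step periodicity -/
theorem per_tube' {T : ℝ} (hT : 0 < T) {P : ℂ → ℂ → Prop}
    (hper : ∀ (t w : ℂ), P t w → P (t + T) w) (hper' : ∀ (t w : ℂ), P t w → P (t - T) w)
    (h : ∀ s : ℝ, ∀ᶠ p : ℂ × ℂ in 𝓝 ((s : ℂ), (0 : ℂ)), P p.1 p.2) :
    ∃ δ > 0, ∀ t w : ℂ, |t.im| < δ → ‖w‖ < δ → P t w := by
  refine per_tube hT ?_ h
  intro t w n hP
  induction n using Int.induction_on with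
  | zero => simpa using hP
  | succ n ih =>
    have := hper _ _ ih
    push_cast at this ⊢
    rwa [show t + ((n : ℂ) + 1) * T = t + n * T + T by ring]
  | pred n ih =>
    have := hper' _ _ ih
    push_cast at this ⊢
    rwa [show t + (-(n : ℂ) - 1) * T = t + -n * T - T by ring]

/-- a positive periodic continuous function is bounded below -/
theorem per_pos {T : ℝ} (hT : 0 < T) {f : ℝ → ℝ} (hf : Continuous f) (hp : ∀ x, f (x + T) = f x)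
    (h0 : ∀ x, 0 < f x) : ∃ c > 0, ∀ x, c ≤ f x := by
  have hK : IsCompact (Icc (0 : ℝ) T) := isCompact_Icc
  obtain ⟨x₀, hx₀, h1⟩ := hK.exists_isMinOn ⟨0, by simp [hT.le]⟩ hf.continuousOn
  refine ⟨f x₀, h0 _, fun x => ?_⟩
  have hper : Function.Periodic f T := hp
  obtain ⟨y, hy, hxy⟩ := hper.exists_mem_Ico₀ hT x
  rw [hxy]
  exact h1 ⟨hy.1, hy.2.le⟩

/-- mean value inequality from below -/
theorem lb_gen {S : Set (ℂ × ℂ)} (hS : IsOpen S) (hc : Convex ℝ S) {f : ℂ → ℂ → ℂ} (hf : JD f S)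
    {p q : ℂ × ℂ} (hp : p ∈ S) (hq : q ∈ S) {u : ℂ} (hu : ‖u‖ ≤ 1) {m : ℝ}
    (hm : ∀ z : ℂ × ℂ, z ∈ S →
      m ≤ (u * (dx f z.1 z.2 * (q.1 - p.1) + de f z.1 z.2 * (q.2 - p.2))).re) :
    m ≤ ‖f q.1 q.2 - f p.1 p.2‖ := by
  set γ : ℝ → ℂ × ℂ := fun s => (p.1 + s * (q.1 - p.1), p.2 + s * (q.2 - p.2)) with hγ
  have hγS : ∀ s ∈ Icc (0 : ℝ) 1, γ s ∈ S := by
    intro s hs
    have h1 := hc hp hq (sub_nonneg.2 hs.2) hs.1 (by ring)
    convert h1 using 1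
    rw [hγ]
    refine Prod.ext ?_ ?_
    · simp only [Prod.fst_add, Prod.smul_fst, real_smul]
      push_cast
      ring
    · simp only [Prod.snd_add, Prod.smul_snd, real_smul]
      push_cast
      ring
  have hder : ∀ s ∈ Icc (0 : ℝ) 1, HasDerivAt (fun s : ℝ => (u * f (γ s).1 (γ s).2).re)
      (u * (dx f (γ s).1 (γ s).2 * (q.1 - p.1) + de f (γ s).1 (γ s).2 * (q.2 - p.2))).re s := by
    intro s hs
    have h1 := hf.hasDerivAt_comp hS (u := fun s : ℂ => p.1 + s * (q.1 - p.1))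
      (v := fun s : ℂ => p.2 + s * (q.2 - p.2)) (t := (s : ℂ))
      (((hasDerivAt_id _).mul_const _).const_add _) (((hasDerivAt_id _).mul_const _).const_add _)
      (hγS s hs)
    have h2 := (h1.const_mul u).real_of_complex
    refine h2.congr_deriv ?_
    rw [one_mul, one_mul]
  have h1 : m * (1 - 0) ≤ (u * f (γ 1).1 (γ 1).2).re - (u * f (γ 0).1 (γ 0).2).re := by
    refine Convex.mul_sub_le_image_sub_of_le_deriv (convex_Icc (0 : ℝ) 1)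
      (fun s hs => (hder s hs).continuousAt.continuousWithinAt)
      (fun s hs => (hder s (interior_subset hs)).differentiableAt.differentiableWithinAt) ?_ 0
      (by simp) 1 (by simp) zero_le_one
    intro s hs
    rw [(hder s (interior_subset hs)).deriv]
    exact hm _ (hγS s (interior_subset hs))
  have hγ1 : γ 1 = q := by simp [hγ]
  have hγ0 : γ 0 = p := by simp [hγ]
  rw [hγ1, hγ0, ← sub_re, ← mul_sub] at h1
  have h2 := re_le_norm (u * (f q.1 q.2 - f p.1 p.2))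
  rw [norm_mul] at h2
  have h3 : ‖u‖ * ‖f q.1 q.2 - f p.1 p.2‖ ≤ ‖f q.1 q.2 - f p.1 p.2‖ :=
    mul_le_of_le_one_left (norm_nonneg _) hu
  linarith

theorem exists_unit (z : ℂ) : ∃ u : ℂ, ‖u‖ ≤ 1 ∧ u * z = ‖z‖ := by
  by_cases hz : z = 0
  · exact ⟨0, by simp, by simp [hz]⟩
  · have hz' : (‖z‖ : ℂ) ≠ 0 := by exact_mod_cast norm_ne_zero_iff.2 hz
    refine ⟨conj z / ‖z‖, ?_, ?_⟩
    · rw [norm_div, Complex.norm_conj, norm_real, norm_norm, div_self (norm_ne_zero_iff.2 hz)]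
    · rw [div_mul_eq_mul_div, mul_comm, mul_conj, normSq_eq_norm_sq]
      push_cast
      field_simp

/-- lower bound in the first variable -/
theorem lb_x {S : Set (ℂ × ℂ)} (hS : IsOpen S) (hc : Convex ℝ S) {f : ℂ → ℂ → ℂ} (hf : JD f S)
    {c η : ℝ} (h1 : ∀ z : ℂ × ℂ, z ∈ S → c ≤ (dx f z.1 z.2).re)
    (h2 : ∀ z : ℂ × ℂ, z ∈ S → ‖de f z.1 z.2‖ ≤ η)
    {p q : ℂ × ℂ} (hp : p ∈ S) (hq : q ∈ S) :
    c * ‖q.1 - p.1‖ - η * ‖q.2 - p.2‖ ≤ ‖f q.1 q.2 - f p.1 p.2‖ := by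
  obtain ⟨u, hu, huz⟩ := exists_unit (q.1 - p.1)
  refine lb_gen hS hc hf hp hq hu fun z hz => ?_
  have e1 : u * (dx f z.1 z.2 * (q.1 - p.1) + de f z.1 z.2 * (q.2 - p.2))
      = dx f z.1 z.2 * ‖q.1 - p.1‖ + u * (de f z.1 z.2 * (q.2 - p.2)) := by
    rw [← huz]
    ring
  rw [e1, add_re, re_mul_ofReal]
  have h3 := mul_le_mul_of_nonneg_right (h1 z hz) (norm_nonneg (q.1 - p.1))
  have h4 : ‖u * (de f z.1 z.2 * (q.2 - p.2))‖ ≤ η * ‖q.2 - p.2‖ := by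
    rw [norm_mul, norm_mul]
    calc ‖u‖ * (‖de f z.1 z.2‖ * ‖q.2 - p.2‖) ≤ 1 * (η * ‖q.2 - p.2‖) := by
          gcongr
          exact h2 z hz
      _ = _ := one_mul _
  have h5 := abs_re_le_norm (u * (de f z.1 z.2 * (q.2 - p.2)))
  have h6 := neg_abs_le (u * (de f z.1 z.2 * (q.2 - p.2))).re
  linarith

/-- lower bound in the second variable -/
theorem lb_e {S : Set (ℂ × ℂ)} (hS : IsOpen S) (hc : Convex ℝ S) {f : ℂ → ℂ → ℂ} (hf : JD f S)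
    {c η : ℝ} (h1 : ∀ z : ℂ × ℂ, z ∈ S → c ≤ (de f z.1 z.2).re)
    (h2 : ∀ z : ℂ × ℂ, z ∈ S → ‖dx f z.1 z.2‖ ≤ η)
    {p q : ℂ × ℂ} (hp : p ∈ S) (hq : q ∈ S) :
    c * ‖q.2 - p.2‖ - η * ‖q.1 - p.1‖ ≤ ‖f q.1 q.2 - f p.1 p.2‖ := by
  obtain ⟨u, hu, huz⟩ := exists_unit (q.2 - p.2)
  refine lb_gen hS hc hf hp hq hu fun z hz => ?_
  have e1 : u * (dx f z.1 z.2 * (q.1 - p.1) + de f z.1 z.2 * (q.2 - p.2))
      = de f z.1 z.2 * ‖q.2 - p.2‖ + u * (dx f z.1 z.2 * (q.1 - p.1)) := by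
    rw [← huz]
    ring
  rw [e1, add_re, re_mul_ofReal]
  have h3 := mul_le_mul_of_nonneg_right (h1 z hz) (norm_nonneg (q.2 - p.2))
  have h4 : ‖u * (dx f z.1 z.2 * (q.1 - p.1))‖ ≤ η * ‖q.1 - p.1‖ := by
    rw [norm_mul, norm_mul]
    calc ‖u‖ * (‖dx f z.1 z.2‖ * ‖q.1 - p.1‖) ≤ 1 * (η * ‖q.1 - p.1‖) := by
          gcongr
          exact h2 z hz
      _ = _ := one_mul _
  have h5 := abs_re_le_norm (u * (dx f z.1 z.2 * (q.1 - p.1)))
  have h6 := neg_abs_le (u * (dx f z.1 z.2 * (q.1 - p.1))).re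
  linarith

end Vale.Agent.P097.H202
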