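import Vale.Agent.P097.H202.PenA2

/-! # P097 / RAT-A, part 3: the vertex map -/

set_option linter.all false

open Complex Metric Filter Topology Set
open scoped ComplexConjugate

namespace Vale.Agent.P097.H202

open Vale.Agent.P097.TA

/-- vertex of two consecutive lines -/
noncomputable def vP (α : ℂ → ℂ → ℂ) (t w : ℂ) : ℂ := (α (t + w / 2) w + α (t - w / 2) w) / 2
/-- half angle of two consecutive lines -/
noncomputable def vY (α : ℂ → ℂ → ℂ) (t w : ℂ) : ℂ := (α (t + w / 2) w - α (t - w / 2) w) / 2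

section
variable {κ Λ : ℝ} {H Φ : ℂ → ℂ} {r e : ℝ} {α p : ℂ → ℂ → ℂ} {J : ℂ → ℂ}

theorem WW_plus {t w : ℂ} (h : (t, w) ∈ WW (1 / 2) r e) : (t + w / 2, w) ∈ WW 0 r e :=
  WW_add_half (a := 0) (by simpa using h)

theorem WW_minus {t w : ℂ} (h : (t, w) ∈ WW (1 / 2) r e) : (t - w / 2, w) ∈ WW 0 r e :=
  WW_sub_half (a := 0) (by simpa using h)

theorem WW_half_sub : WW (1 / 2) r e ⊆ WW 0 r e := WW_mono (by norm_num) le_rfl le_rfl

variable (T : Lines κ Λ H Φ r e α p J)
include T

theorem Lines.jplus : JD (fun t w => α (t + w / 2) w) (WW (1 / 2) r e) := by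
  have := JD.add_half (a := 0) (r := r) (e := e) T.jα
  simpa using this

theorem Lines.jminus : JD (fun t w => α (t - w / 2) w) (WW (1 / 2) r e) := by
  have := JD.sub_half (a := 0) (r := r) (e := e) T.jα
  simpa using this

theorem Lines.jvP : JD (vP α) (WW (1 / 2) r e) :=
  (T.jplus.add T.jminus).div (JD.const 2) fun _ _ _ => two_ne_zero

theorem Lines.jvY : JD (vY α) (WW (1 / 2) r e) :=
  (T.jplus.sub T.jminus).div (JD.const 2) fun _ _ _ => two_ne_zero

theorem Lines.vP_per {t w : ℂ} (h : (t, w) ∈ WW (1 / 2) r e) :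
    vP α (t + 1) w = vP α t w + 2 * Real.pi := by
  rw [vP, vP, show t + 1 + w / 2 = t + w / 2 + 1 by ring,
    show t + 1 - w / 2 = t - w / 2 + 1 by ring, T.αper _ _ (WW_plus h), T.αper _ _ (WW_minus h)]
  ring

theorem Lines.vY_per {t w : ℂ} (h : (t, w) ∈ WW (1 / 2) r e) :
    vY α (t + 1) w = vY α t w := by
  rw [vY, vY, show t + 1 + w / 2 = t + w / 2 + 1 by ring,
    show t + 1 - w / 2 = t - w / 2 + 1 by ring, T.αper _ _ (WW_plus h), T.αper _ _ (WW_minus h)]
  ring

theorem Lines.vP_neg {t w : ℂ} (h : (t, w) ∈ WW (1 / 2) r e) : vP α t (-w) = vP α t w := by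
  rw [vP, vP, show t + -w / 2 = t - w / 2 by ring, show t - -w / 2 = t + w / 2 by ring,
    T.αev _ _ (WW_plus h), T.αev _ _ (WW_minus h)]
  ring

theorem Lines.vY_neg {t w : ℂ} (h : (t, w) ∈ WW (1 / 2) r e) : vY α t (-w) = -vY α t w := by
  rw [vY, vY, show t + -w / 2 = t - w / 2 by ring, show t - -w / 2 = t + w / 2 by ring,
    T.αev _ _ (WW_plus h), T.αev _ _ (WW_minus h)]
  ring

theorem Lines.vP_zero {t : ℂ} (h : |t.im| < r) : vP α t 0 = Φ t := by
  rw [vP, zero_div, add_zero, sub_zero, T.αzero t h]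
  ring

theorem Lines.vY_zero (t : ℂ) : vY α t 0 = 0 := by
  rw [vY, zero_div, add_zero, sub_zero]
  ring

theorem Lines.vP_mem {t w : ℂ} (h : (t, w) ∈ WW (1 / 2) r e) : vP α t w ∈ Str (κ / 2) := by
  have h1 := T.mem _ _ (WW_plus h)
  have h2 := T.mem _ _ (WW_minus h)
  rw [mem_Str, abs_lt] at *
  rw [vP]
  simp only [div_ofNat_im, add_im] at *
  constructor <;> linarith [h1.1, h1.2, h2.1, h2.2]

omit T in
theorem vglue (α : ℂ → ℂ → ℂ) (t w : ℂ) : vP α (t + w) w - vY α (t + w) w = vP α t w + vY α t w := by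
  rw [vP, vY, vP, vY, show t + w - w / 2 = t + w / 2 by ring]
  ring

theorem Lines.p_plus {t w : ℂ} (h : (t, w) ∈ WW (1 / 2) r e) :
    p (t + w / 2) w = H (vP α t w) * Complex.cos (vY α t w)
      + deriv H (vP α t w) * Complex.sin (vY α t w) := by
  have h1 := T.sum t w h
  have h2 := T.diff t w h
  rw [vP, vY]
  linear_combination (1 / 2 : ℂ) * h1 + (1 / 2 : ℂ) * h2

theorem Lines.p_minus {t w : ℂ} (h : (t, w) ∈ WW (1 / 2) r e) :
    p (t - w / 2) w = H (vP α t w) * Complex.cos (vY α t w)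
      - deriv H (vP α t w) * Complex.sin (vY α t w) := by
  have h1 := T.sum t w h
  have h2 := T.diff t w h
  rw [vP, vY]
  linear_combination (1 / 2 : ℂ) * h1 - (1 / 2 : ℂ) * h2

/-- the line equation at the two ends of a chord -/
theorem Lines.ends {t w : ℂ} (h : (t, w) ∈ WW (1 / 2) r e) (h' : (t + w, w) ∈ WW (1 / 2) r e) :
    H (vP α t w) * Complex.cos (vY α t w) + deriv H (vP α t w) * Complex.sin (vY α t w) =
      H (vP α (t + w) w) * Complex.cos (vY α (t + w) w)
        - deriv H (vP α (t + w) w) * Complex.sin (vY α (t + w) w) := by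
  rw [← T.p_plus h, ← T.p_minus h', show t + w - w / 2 = t + w / 2 by ring]

/-- the area form -/
theorem Lines.area
    (hJ : ∀ t w : ℂ, (t, w) ∈ WW 0 r e → J w =
        -((H ((α t w + α (t + w) w) / 2) + deriv (deriv H) ((α t w + α (t + w) w) / 2)) *
          Complex.sin ((α (t + w) w - α t w) / 2)) / 2 * br α (fun t w => α (t + w) w) t w)
    {t w : ℂ} (h : (t, w) ∈ WW (1 / 2) r e) :
    J w = -((H (vP α t w) + deriv (deriv H) (vP α t w)) * Complex.sin (vY α t w)) *
      br (vP α) (vY α) t w := by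
  have o1 : IsOpen (WW (1 / 2) r e) := isOpen_WW _ _ _
  have o0 : IsOpen (WW 0 r e) := isOpen_WW _ _ _
  have h1 := hJ (t - w / 2) w (WW_minus h)
  have e1 : t - w / 2 + w = t + w / 2 := by ring
  rw [e1] at h1
  -- the second factor
  set α' : ℂ → ℂ → ℂ := fun t w => α (t + w) w with hα'
  set S : Set (ℂ × ℂ) := WW 0 r e ∩ {q | (q.1 + q.2, q.2) ∈ WW 0 r e} with hS
  have oS : IsOpen S := by
    refine o0.inter (o0.preimage ?_)
    fun_prop
  have jα : JD α S := T.jα.mono inter_subset_left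
  have jα' : JD α' S := JD.comp (f := fun t w => t + w) (g := fun _ w => w) T.jα
    (JD.fst.add JD.snd) JD.snd fun x w hx => hx.2
  have hmS : (t + (-(1 / 2 : ℂ)) * w, w) ∈ S := by
    refine ⟨?_, ?_⟩
    · have := WW_minus h
      rwa [show t + (-(1 / 2 : ℂ)) * w = t - w / 2 by ring]
    · have := WW_plus h
      simp only [mem_setOf_eq]
      rwa [show t + (-(1 / 2 : ℂ)) * w + w = t + w / 2 by ring]
  have h2 := br_shear oS jα jα' (s := -(1 / 2 : ℂ)) hmS
  have e2 : t + (-(1 / 2 : ℂ)) * w = t - w / 2 := by ring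
  rw [e2] at h2
  have e3 : br (fun x w => α (x + (-(1 / 2 : ℂ)) * w) w) (fun x w => α' (x + (-(1 / 2 : ℂ)) * w) w) t w
      = br (fun x w => α (x - w / 2) w) (fun x w => α (x + w / 2) w) t w := by
    have f1 : (fun x w => α (x + (-(1 / 2 : ℂ)) * w) w) = fun x w => α (x - w / 2) w := by
      ext x w
      congr 1
      ring
    have f2 : (fun x w => α' (x + (-(1 / 2 : ℂ)) * w) w) = fun x w => α (x + w / 2) w := by
      ext x w
      rw [hα']
      simp only
      congr 1
      ring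
    rw [f1, f2]
  rw [e3] at h2
  rw [← h2] at h1
  -- derivatives of the vertex map
  have j1 := T.jplus
  have j2 := T.jminus
  have c2 : ∀ z : ℂ, HasDerivAt (fun z : ℂ => z / 2) (1 / 2) z := fun z => (hasDerivAt_id z).div_const 2
  have d1 : dx (vP α) t w = (dx (fun x w => α (x + w / 2) w) t w
      + dx (fun x w => α (x - w / 2) w) t w) / 2 := by
    exact ((j1.hasDerivAt_x o1 h).add (j2.hasDerivAt_x o1 h)).div_const 2 |>.deriv
  have d2 : de (vP α) t w = (de (fun x w => α (x + w / 2) w) t w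
      + de (fun x w => α (x - w / 2) w) t w) / 2 := by
    exact ((j1.hasDerivAt_e o1 h).add (j2.hasDerivAt_e o1 h)).div_const 2 |>.deriv
  have d3 : dx (vY α) t w = (dx (fun x w => α (x + w / 2) w) t w
      - dx (fun x w => α (x - w / 2) w) t w) / 2 := by
    exact ((j1.hasDerivAt_x o1 h).sub (j2.hasDerivAt_x o1 h)).div_const 2 |>.deriv
  have d4 : de (vY α) t w = (de (fun x w => α (x + w / 2) w) t w
      - de (fun x w => α (x - w / 2) w) t w) / 2 := by
    exact ((j1.hasDerivAt_e o1 h).sub (j2.hasDerivAt_e o1 h)).div_const 2 |>.deriv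
  rw [h1, br, br, d1, d2, d3, d4]
  have m1 : (α (t - w / 2) w + α (t + w / 2) w) / 2 = vP α t w := by rw [vP]; ring
  have m2 : (α (t + w / 2) w - α (t - w / 2) w) / 2 = vY α t w := rfl
  rw [m1, m2]
  ring

/-- the derivatives on the axis -/
theorem Lines.dx_vP_zero {t : ℂ} (h : |t.im| < r) : dx (vP α) t 0 = deriv Φ t := by
  rw [dx]
  refine Filter.EventuallyEq.deriv_eq ?_
  filter_upwards [(isOpen_Str r).mem_nhds h] with z hz
  exact T.vP_zero hz

theorem Lines.dx_vY_zero (t : ℂ) : dx (vY α) t 0 = 0 := by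
  rw [dx]
  have : (fun t => vY α t 0) = fun _ => 0 := by
    ext z
    exact T.vY_zero z
  rw [this, deriv_const]

theorem Lines.mem0 {t : ℂ} (h : |t.im| < r) : (t, (0 : ℂ)) ∈ WW (1 / 2) r e := by
  refine ⟨by simpa using T.he, ?_⟩
  simpa using h

theorem Lines.de_vP_zero {t : ℂ} (h : |t.im| < r) : de (vP α) t 0 = 0 := by
  have h0 := T.mem0 h
  have h1 : HasDerivAt (fun w => vP α t w) (de (vP α) t 0) 0 :=
    T.jvP.hasDerivAt_e (isOpen_WW _ _ _) h0
  have h2 : HasDerivAt (fun w => vP α t (-w)) (de (vP α) t 0 * -1) 0 := by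
    have h3 : HasDerivAt (fun w : ℂ => -w) (-1) 0 := (hasDerivAt_id (0 : ℂ)).neg
    have h4 : HasDerivAt (fun w => vP α t w) (de (vP α) t 0) (-(0 : ℂ)) := by simpa using h1
    exact h4.comp (0 : ℂ) h3
  have h3 : (fun w => vP α t (-w)) =ᶠ[𝓝 0] fun w => vP α t w := by
    have hc : Continuous fun w : ℂ => (t, w) := by fun_prop
    filter_upwards [((isOpen_WW (1 / 2) r e).preimage hc).mem_nhds h0] with w hw
    exact T.vP_neg hw
  have h4 := (h2.congr_of_eventuallyEq h3.symm).unique h1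
  linear_combination (-1 / 2 : ℂ) * h4

theorem Lines.de_vY_zero {t : ℂ} (h : |t.im| < r) : de (vY α) t 0 = deriv Φ t / 2 := by
  have h0 := T.mem0 h
  have h00 : (t, (0 : ℂ)) ∈ WW 0 r e := WW_half_sub h0
  have h1 : HasDerivAt (fun w => α (t + w / 2) w) (dx α t 0 * (1 / 2) + de α t 0 * 1) 0 := by
    have := T.jα.hasDerivAt_comp (isOpen_WW _ _ _) (u := fun w => t + w / 2) (v := fun w => w)
      (t := (0 : ℂ)) (((hasDerivAt_id (0 : ℂ)).div_const 2).const_add t) (hasDerivAt_id _)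
      (by simpa using h00)
    simpa using this
  have h2 : HasDerivAt (fun w => α (t - w / 2) w) (dx α t 0 * (-(1 / 2)) + de α t 0 * 1) 0 := by
    have := T.jα.hasDerivAt_comp (isOpen_WW _ _ _) (u := fun w => t - w / 2) (v := fun w => w)
      (t := (0 : ℂ)) (((hasDerivAt_id (0 : ℂ)).div_const 2).const_sub t) (hasDerivAt_id _)
      (by simpa using h00)
    simpa using this
  have h3 : de (vY α) t 0 = _ := ((h1.sub h2).div_const 2).deriv
  have h4 : dx α t 0 = deriv Φ t := by
    rw [dx]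
    refine Filter.EventuallyEq.deriv_eq ?_
    filter_upwards [(isOpen_Str r).mem_nhds h] with z hz
    exact T.αzero z hz
  rw [h3, h4]
  ring

end

end Vale.Agent.P097.H202
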