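import Vale.Agent.P097.H202.PenA3

/-! # P097 / RAT-A, part 4: lower Lipschitz bound of the vertex map, inverse -/

set_option linter.all false

open Complex Metric Filter Topology Set
open scoped ComplexConjugate

namespace Vale.Agent.P097.H202

open Vale.Agent.P097.TA

theorem dx_per_of {S : Set (ℂ × ℂ)} (hS : IsOpen S) {f : ℂ → ℂ → ℂ} {c : ℂ}
    (hf : ∀ t w, (t, w) ∈ S → f (t + 1) w = f t w + c) {t w : ℂ} (h : (t, w) ∈ S) :
    dx f (t + 1) w = dx f t w := by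
  have hc : Continuous fun t : ℂ => (t, w) := by fun_prop
  have h1 : (fun z => f (z + 1) w) =ᶠ[𝓝 t] fun z => f z w + c := by
    filter_upwards [(hS.preimage hc).mem_nhds h] with z hz
    exact hf z w hz
  have h2 := h1.deriv_eq
  rw [deriv_add_const, deriv_comp_add_const (fun z => f z w) 1 t] at h2
  exact h2

theorem de_per_of {S : Set (ℂ × ℂ)} (hS : IsOpen S) {f : ℂ → ℂ → ℂ} {c : ℂ}
    (hf : ∀ t w, (t, w) ∈ S → f (t + 1) w = f t w + c) {t w : ℂ} (h : (t, w) ∈ S) :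
    de f (t + 1) w = de f t w := by
  have hc : Continuous fun w : ℂ => (t, w) := by fun_prop
  have h1 : (fun z => f (t + 1) z) =ᶠ[𝓝 w] fun z => f t z + c := by
    filter_upwards [(hS.preimage hc).mem_nhds h] with z hz
    exact hf t z hz
  have h2 := h1.deriv_eq
  rw [deriv_add_const] at h2
  exact h2

section
variable {h : ℝ → ℝ} {κ ρ Λ L : ℝ} {H HH lam Φ : ℂ → ℂ} {l φ : ℝ → ℝ} {r e : ℝ}
  {α p : ℂ → ℂ → ℂ} {J : ℂ → ℂ}

theorem LD.speed (D : LD h κ ρ Λ L H HH lam Φ l φ) : ∃ c > 0, ∃ C > 0, ∀ s : ℝ,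
    c ≤ Λ / l (φ s) ∧ Λ / l (φ s) ≤ C := by
  have hΛ := D.Λ0
  have hper : ∀ x : ℝ, Λ / l (φ (x + 1)) = Λ / l (φ x) := by
    intro x
    rw [D.φp]
    have h1 := D.lamp (φ x) (real_mem_Str D.κ0 _)
    have h2 : ((φ x : ℂ) + 2 * Real.pi) = ((φ x + 2 * Real.pi : ℝ) : ℂ) := by push_cast; ring
    rw [h2, D.lamr, D.lamr] at h1
    have h3 : l (φ x + 2 * Real.pi) = l (φ x) := by exact_mod_cast h1
    rw [h3]
  have hcl : Continuous l := by
    have h1 : Continuous fun x : ℝ => (lam x).re := by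
      refine continuous_re.comp ?_
      exact (D.dlam.continuousOn).comp_continuous continuous_ofReal fun x => real_mem_Str D.κ0 x
    have h2 : (fun x : ℝ => (lam x).re) = l := by
      ext x
      rw [D.lamr, ofReal_re]
    rwa [h2] at h1
  have hcφ : Continuous φ := continuous_iff_continuousAt.2 fun x => (D.dφ x).continuousAt
  have hcont : Continuous fun x => Λ / l (φ x) :=
    continuous_const.div (hcl.comp hcφ) fun x => (D.lpos _).ne'
  have hpos : ∀ x, 0 < Λ / l (φ x) := fun x => div_pos hΛ (D.lpos _)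
  obtain ⟨c, hc, h1⟩ := per_pos one_pos hcont hper hpos
  obtain ⟨c', hc', h2⟩ := per_pos (f := fun x => (Λ / l (φ x))⁻¹) one_pos
    (hcont.inv₀ fun x => (hpos x).ne') (fun x => by rw [hper]) fun x => inv_pos.2 (hpos x)
  refine ⟨c, hc, c'⁻¹, inv_pos.2 hc', fun s => ⟨h1 s, ?_⟩⟩
  exact (le_inv_comm₀ hc' (hpos s)).1 (h2 s)

theorem LD.dΦ_real (D : LD h κ ρ Λ L H HH lam Φ l φ) (s : ℝ) :
    deriv Φ s = ((Λ / l (φ s) : ℝ) : ℂ) := by
  rw [(D.dΦ s (real_mem_Str D.ρ0 s)).deriv, D.Φr, D.lamr]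
  push_cast
  rfl

/-- uniform bounds for the vertex map near the real axis -/
theorem Lines.bounds (D : LD h κ ρ Λ L H HH lam Φ l φ) (T : Lines κ Λ H Φ r e α p J) :
    ∃ c > 0, ∃ M : ℝ, ∃ δ > 0, ∀ t w : ℂ, |t.im| < δ → ‖w‖ < δ → (t, w) ∈ WW (1 / 2) r e ∧
      c ≤ (dx (vP α) t w).re ∧ c / 2 ≤ (de (vY α) t w).re ∧ ‖de (vP α) t w‖ ≤ c / 8 ∧
      ‖dx (vY α) t w‖ ≤ c / 8 ∧ ‖dx (vP α) t w‖ ≤ M := by
  obtain ⟨c₀, hc₀, C, hC, hs⟩ := D.speed
  have hS : IsOpen (WW (1 / 2) r e) := isOpen_WW _ _ _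
  set c := c₀ / 2 with hc
  have hc0 : 0 < c := by positivity
  have hp1 : ∀ t w : ℂ, (t, w) ∈ WW (1 / 2) r e → vP α (t + 1) w = vP α t w + 2 * Real.pi :=
    fun t w h => T.vP_per h
  have hp2 : ∀ t w : ℂ, (t, w) ∈ WW (1 / 2) r e → vY α (t + 1) w = vY α t w + 0 :=
    fun t w h => by rw [T.vY_per h, add_zero]
  have q1 := T.jvP.dx hS
  have q2 := T.jvP.de hS
  have q3 := T.jvY.dx hS
  have q4 := T.jvY.de hS
  refine ⟨c, hc0, C + 1, ?_⟩
  refine per_tube' one_pos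
    (P := fun t w => (t, w) ∈ WW (1 / 2) r e ∧ c ≤ (dx (vP α) t w).re ∧
      c / 2 ≤ (de (vY α) t w).re ∧ ‖de (vP α) t w‖ ≤ c / 8 ∧ ‖dx (vY α) t w‖ ≤ c / 8 ∧
      ‖dx (vP α) t w‖ ≤ C + 1) ?_ ?_ ?_
  · rintro t w ⟨m, h1, h2, h3, h4, h5⟩
    rw [ofReal_one, dx_per_of hS hp1 m, dx_per_of hS hp2 m, de_per_of hS hp1 m,
      de_per_of hS hp2 m]
    exact ⟨WW_one m, h1, h2, h3, h4, h5⟩
  · rintro t w ⟨m, h1, h2, h3, h4, h5⟩
    have m' : (t - 1, w) ∈ WW (1 / 2) r e := by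
      have := WW_real m (-1)
      simpa [sub_eq_add_neg] using this
    have e1 := dx_per_of hS hp1 m'
    have e2 := dx_per_of hS hp2 m'
    have e3 := de_per_of hS hp1 m'
    have e4 := de_per_of hS hp2 m'
    rw [sub_add_cancel] at e1 e2 e3 e4
    rw [ofReal_one, ← e1, ← e2, ← e3, ← e4]
    exact ⟨m', h1, h2, h3, h4, h5⟩
  · intro s
    have hsr : |(s : ℂ).im| < r := by simpa using T.hr
    have h0 : ((s : ℂ), (0 : ℂ)) ∈ WW (1 / 2) r e := T.mem0 hsr
    have hn := hS.mem_nhds h0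
    obtain ⟨hs1, hs2⟩ := hs s
    have k1 : ContinuousAt (fun q : ℂ × ℂ => (dx (vP α) q.1 q.2).re) ((s : ℂ), (0 : ℂ)) :=
      continuous_re.continuousAt.comp (q1.continuousOn.continuousAt hn)
    have k4 : ContinuousAt (fun q : ℂ × ℂ => (de (vY α) q.1 q.2).re) ((s : ℂ), (0 : ℂ)) :=
      continuous_re.continuousAt.comp (q4.continuousOn.continuousAt hn)
    have k2 := (q2.continuousOn.continuousAt hn).norm
    have k3 := (q3.continuousOn.continuousAt hn).norm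
    have k5 := (q1.continuousOn.continuousAt hn).norm
    have v1 : (dx (vP α) s 0).re = Λ / l (φ s) := by
      rw [T.dx_vP_zero hsr, D.dΦ_real, ofReal_re]
    have v4 : (de (vY α) s 0).re = Λ / l (φ s) / 2 := by
      rw [T.de_vY_zero hsr, D.dΦ_real, div_ofNat_re, ofReal_re]
    have v2 : ‖de (vP α) s 0‖ = 0 := by rw [T.de_vP_zero hsr, norm_zero]
    have v3 : ‖dx (vY α) s 0‖ = 0 := by rw [T.dx_vY_zero, norm_zero]
    have v5 : ‖dx (vP α) s 0‖ = Λ / l (φ s) := by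
      rw [T.dx_vP_zero hsr, D.dΦ_real, norm_real, Real.norm_of_nonneg]
      exact (div_pos D.Λ0 (D.lpos _)).le
    have w1 := k1.tendsto.eventually_const_lt (show c < (dx (vP α) s 0).re by rw [v1]; linarith)
    have w4 := k4.tendsto.eventually_const_lt (show c / 2 < (de (vY α) s 0).re by rw [v4]; linarith)
    have w2 := k2.tendsto.eventually_lt_const (show ‖de (vP α) s 0‖ < c / 8 by rw [v2]; positivity)
    have w3 := k3.tendsto.eventually_lt_const (show ‖dx (vY α) s 0‖ < c / 8 by rw [v3]; positivity)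
    have w5 := k5.tendsto.eventually_lt_const (show ‖dx (vP α) s 0‖ < C + 1 by rw [v5]; linarith)
    filter_upwards [hn, w1, w2, w3, w4, w5] with q g0 g1 g2 g3 g4 g5
    exact ⟨g0, g1.le, g4.le, g2.le, g3.le, g5.le⟩

/-- `Φ` maps the real axis onto the real axis -/
theorem LD.surj (D : LD h κ ρ Λ L H HH lam Φ l φ) (x : ℝ) : ∃ s : ℝ, Φ s = x := by
  have hcφ : Continuous φ := continuous_iff_continuousAt.2 fun x => (D.dφ x).continuousAt
  have hint : ∀ n : ℤ, φ n = φ 0 + n * (2 * Real.pi) := by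
    intro n
    induction n using Int.induction_on with
    | zero => simp
    | succ n ih =>
      have := D.φp n
      push_cast at ih ⊢
      rw [this, ih]
      ring
    | pred n ih =>
      have := D.φp (-(n : ℝ) - 1)
      rw [sub_add_cancel] at this
      push_cast at ih ⊢
      linarith
  have hpi := Real.two_pi_pos
  obtain ⟨N, hN⟩ := exists_nat_gt (|x - φ 0| / (2 * Real.pi))
  rw [div_lt_iff₀ hpi] at hN
  have h1 := hint N
  have h2 := hint (-N)
  push_cast at h1 h2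
  have h3 := le_abs_self (x - φ 0)
  have h4 := neg_abs_le (x - φ 0)
  have h5 : x ∈ Icc (φ (-N)) (φ N) := by
    rw [h1, h2]
    constructor <;> linarith
  have h6 : x ∈ φ '' Icc (-(N : ℝ)) N := by
    have : (-(N : ℝ)) ≤ N := by
      have : (0 : ℝ) ≤ N := Nat.cast_nonneg N
      linarith
    exact intermediate_value_Icc this hcφ.continuousOn h5
  obtain ⟨s, -, hs⟩ := h6
  exact ⟨s, by rw [D.Φr, hs]⟩

end

end Vale.Agent.P097.H202
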