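import Vale.Agent.P097.H202.PenA5

/-! # P097 / RAT-A, part 6: chord map, velocity of the vertex, Newton bound -/

set_option linter.all false

open Complex Metric Filter Topology Set
open scoped ComplexConjugate

namespace Vale.Agent.P097.H202

open Vale.Agent.P097.TA Vale.Agent.P097.H402.Rat

/-- chord map -/
noncomputable def XX (α τ ω : ℂ → ℂ → ℂ) (φ y : ℂ) : ℂ := vP α (τ φ y + ω φ y) (ω φ y) - φ

/-- velocity of the vertex -/
noncomputable def xiX (α τ ω : ℂ → ℂ → ℂ) (φ y : ℂ) : ℂ := ω φ y * dx (vP α) (τ φ y) (ω φ y)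

namespace VI

variable {κ Λ : ℝ} {H Φ : ℂ → ℂ} {r e : ℝ} {α p : ℂ → ℂ → ℂ} {J : ℂ → ℂ} {d c M : ℝ}
    {V : Set (ℂ × ℂ)} {τ ω : ℂ → ℂ → ℂ} (W : VI κ Λ H Φ r e α p J d c M V τ ω)

theorem in_add {d' : ℝ} {t w : ℂ} {K : ℕ} (ht : |t.im| < d' / 2) (hw : ‖w‖ < d' / (2 * (K + 1)))
    {k : ℕ} (hk : k ≤ K) : (t + k * w, w) ∈ WW 0 d' d' := by
  have hd' : 0 < d' := by
    have := abs_nonneg t.im
    linarith
  rw [mem_WW0]
  have hK : (0 : ℝ) < 2 * (K + 1) := by positivity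
  rw [lt_div_iff₀ hK] at hw
  have h0 := norm_nonneg w
  have hkK : (k : ℝ) ≤ K := by exact_mod_cast hk
  have hK0 : (0 : ℝ) ≤ K := Nat.cast_nonneg K
  constructor
  · have h1 : |(t + k * w).im| ≤ |t.im| + k * ‖w‖ := by
      have h2 : (t + k * w).im = t.im + ((k : ℂ) * w).im := by simp
      rw [h2]
      refine (abs_add_le _ _).trans ?_
      have h3 := abs_im_le_norm ((k : ℂ) * w)
      rw [norm_mul, Complex.norm_natCast] at h3
      linarith
    nlinarith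
  · nlinarith

include W

/-- the image of `(t, w)` under the chord map -/
theorem XX_eq {t w : ℂ} (h : (t, w) ∈ WW 0 d d) :
    XX α τ ω (vP α t w) (vY α t w) = vP α (t + w) w - vP α t w := by
  rw [XX, W.τ_ _ _ h, W.ω_ _ _ h]

theorem XX_sub {t w : ℂ} (h : (t, w) ∈ WW 0 d d) :
    XX α τ ω (vP α t w) (vY α t w) - vY α t w = vY α (t + w) w := by
  rw [W.XX_eq h]
  linear_combination vglue α t w

/-- iterates -/
theorem Tn_eq {t w : ℂ} {K : ℕ} (h : ∀ k ≤ K, (t + k * w, w) ∈ WW 0 d d) :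
    ∀ k ≤ K, Tn (XX α τ ω) k (vP α t w, vY α t w) = (vP α (t + k * w) w, vY α (t + k * w) w) := by
  intro k
  induction k with
  | zero => intro _; simp [Tn]
  | succ k ih =>
    intro hk
    have h1 := ih (by omega)
    have h2 := h k (by omega)
    have h3 := W.XX_eq h2
    have h4 := W.XX_sub h2
    have e1 : t + ((k + 1 : ℕ) : ℂ) * w = t + k * w + w := by push_cast; ring
    rw [Tn, h1]
    simp only
    rw [h4, h3, e1]
    refine Prod.ext ?_ rfl
    simp only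
    ring

theorem newt_eq {t w : ℂ} {K : ℕ} (h : ∀ k ≤ K, (t + k * w, w) ∈ WW 0 d d) :
    newt (XX α τ ω) K (vP α t w) (vY α t w) = ∑ n ∈ Finset.Icc 1 K, (-1 : ℂ) ^ (n + 1) / n *
      ∑ k ∈ Finset.range (n + 1), (-1 : ℂ) ^ (n - k) * (n.choose k : ℂ) *
        (vP α (t + k * w) w - vP α t w) := by
  have h0 := newt_exact K 0 (Nat.zero_le _)
  simp only [pow_zero, mul_one, zero_ne_one, if_false] at h0
  have h1 : newt (XX α τ ω) K (vP α t w) (vY α t w) = ∑ n ∈ Finset.Icc 1 K, (-1 : ℂ) ^ (n + 1) / n *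
      ∑ k ∈ Finset.range (n + 1), (-1 : ℂ) ^ (n - k) * (n.choose k : ℂ) * vP α (t + k * w) w := by
    rw [newt]
    refine Finset.sum_congr rfl fun n hn => ?_
    congr 1
    refine Finset.sum_congr rfl fun k hk => ?_
    rw [Finset.mem_Icc] at hn
    rw [Finset.mem_range] at hk
    rw [W.Tn_eq h k (by omega)]
  rw [h1]
  have h2 : ∑ n ∈ Finset.Icc 1 K, (-1 : ℂ) ^ (n + 1) / n *
      ∑ k ∈ Finset.range (n + 1), (-1 : ℂ) ^ (n - k) * (n.choose k : ℂ) *
        (vP α (t + k * w) w - vP α t w) = ∑ n ∈ Finset.Icc 1 K, (-1 : ℂ) ^ (n + 1) / n *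
      ∑ k ∈ Finset.range (n + 1), (-1 : ℂ) ^ (n - k) * (n.choose k : ℂ) * vP α (t + k * w) w
      - (∑ n ∈ Finset.Icc 1 K, (-1 : ℂ) ^ (n + 1) / n *
      ∑ k ∈ Finset.range (n + 1), (-1 : ℂ) ^ (n - k) * (n.choose k : ℂ)) * vP α t w := by
    rw [Finset.sum_mul, ← Finset.sum_sub_distrib]
    refine Finset.sum_congr rfl fun n hn => ?_
    rw [mul_assoc, ← mul_sub, Finset.sum_mul, ← Finset.sum_sub_distrib]
    congr 1
    refine Finset.sum_congr rfl fun k hk => ?_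
    ring
  rw [h2, h0, zero_mul, sub_zero]

/-- Newton bound -/
theorem newton (hsurj : ∀ x : ℝ, ∃ s : ℝ, Φ s = x) (m : ℕ) :
    ∃ ε > 0, ∃ C : ℝ, ∀ φ y : ℂ, |φ.im| < ε → ‖y‖ < ε →
    ‖xiX α τ ω φ y - newt (XX α τ ω) m φ y‖ ≤ C * ‖y‖ ^ (m + 1) := by
  have hd := W.hd
  have hc := W.hc
  have hM : 0 ≤ M := by
    have := W.bd 0 0 (mem_WW0.2 ⟨by simpa using hd, by simpa using hd⟩)
    exact (norm_nonneg _).trans this
  obtain ⟨ε₁, C, hε₁, hC, hN⟩ := newt_err (M := M * (d / 2)) m (show 0 < d / 2 by positivity)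
    (by positivity)
  obtain ⟨ε, hε, hb⟩ := W.box hsurj (P := fun _ _ => True) (fun _ _ _ _ => trivial)
    (fun _ _ _ _ => trivial) (fun _ => Eventually.of_forall fun _ => trivial)
    (d' := min (d / (2 * ((m : ℝ) + 1))) ε₁) (by positivity)
  refine ⟨ε, hε, C * (c⁻¹) ^ (m + 1), fun φ y hφ hy => ?_⟩
  obtain ⟨hV, ht, hw, -⟩ := hb φ y hφ hy
  have hU := W.inU φ y hV
  have hψ := W.ψ_ φ y hV
  have hy' := W.y_ φ y hV
  set t := τ φ y with htd
  set w := ω φ y with hwd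
  have hw1 : ‖w‖ < d / (2 * ((m : ℝ) + 1)) := lt_of_lt_of_le hw (min_le_left _ _)
  have hw2 : ‖w‖ < ε₁ := lt_of_lt_of_le hw (min_le_right _ _)
  have hm1 : d / (2 * ((m : ℝ) + 1)) ≤ d / 2 := by
    refine div_le_div_of_nonneg_left hd.le two_pos ?_
    have : (0 : ℝ) ≤ m := Nat.cast_nonneg m
    linarith
  have ht1 : |t.im| < d / 2 := lt_of_lt_of_le ht ((min_le_left _ _).trans hm1)
  have hk : ∀ k ≤ m, (t + k * w, w) ∈ WW 0 d d := fun k hk => in_add ht1 hw1 hk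
  -- the function
  set g : ℂ → ℂ := fun u => vP α (t + u) w - vP α t w with hg
  have hin : ∀ u : ℂ, ‖u‖ < d / 2 → (t + u, w) ∈ WW 0 d d := by
    intro u hu
    rw [mem_WW0]
    refine ⟨?_, lt_of_lt_of_le hw1 (hm1.trans (by linarith))⟩
    have h1 := abs_add_le t.im u.im
    have h2 := abs_im_le_norm u
    rw [add_im]
    linarith
  have hjP : JD (vP α) (WW 0 d d) := W.T.jvP.mono fun q hq => W.sub q.1 q.2 hq
  have hgd : ∀ u : ℂ, ‖u‖ < d / 2 → HasDerivAt g (dx (vP α) (t + u) w) u := by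
    intro u hu
    have h1 := hjP.hasDerivAt_x (isOpen_WW _ _ _) (hin u hu)
    have h2 : HasDerivAt (fun u : ℂ => t + u) 1 u := (hasDerivAt_id u).const_add t
    have h3 := (HasDerivAt.comp u h1 h2).sub_const (vP α t w)
    rw [mul_one] at h3
    exact h3
  have hg0 : g 0 = 0 := by simp [hg]
  have hgb : ∀ u : ℂ, ‖u‖ < d / 2 → ‖g u‖ ≤ M * (d / 2) := by
    intro u hu
    have h1 := (convex_ball (0 : ℂ) (d / 2)).norm_image_sub_le_of_norm_hasDerivWithin_le
      (f := g) (f' := fun u => dx (vP α) (t + u) w) (C := M) (x := 0) (y := u)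
      (fun x hx => (hgd x (by simpa using hx)).hasDerivWithinAt)
      (fun x hx => W.bd _ _ (hin x (by simpa using hx))) (by simpa using hd) (by simpa using hu)
    rw [hg0, sub_zero, sub_zero] at h1
    refine h1.trans ?_
    gcongr
  have h1 := hN g (fun u hu => (hgd u (by simpa using hu)).differentiableAt.differentiableWithinAt)
    hgb w hw2
  have h2 : deriv g 0 = dx (vP α) t w := by
    have := (hgd 0 (by simpa using hd)).deriv
    rwa [add_zero] at this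
  have h3 := W.newt_eq hk
  rw [hψ, hy'] at h3
  have he : ∀ k : ℕ, vP α (t + k * w) w - φ = g (k * w) := fun k => by rw [hg, ← hψ]
  simp only [he] at h3
  rw [xiX, h3, ← h2]
  refine h1.trans ?_
  have h4 := W.low t w hU
  rw [hy'] at h4
  have h5 : ‖w‖ ≤ c⁻¹ * ‖y‖ := by
    rw [le_inv_mul_iff₀ hc]
    exact h4
  calc C * ‖w‖ ^ (m + 1) ≤ C * (c⁻¹ * ‖y‖) ^ (m + 1) := by gcongr
    _ = C * c⁻¹ ^ (m + 1) * ‖y‖ ^ (m + 1) := by rw [mul_pow]; ring

end VI

end Vale.Agent.P097.H202
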