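import Vale.Agent.P097.H202.PenA6

/-! # P097 / RAT-A, part 7: the pencil Hamiltonian -/

set_option linter.all false

open Complex Metric Filter Topology Set
open scoped ComplexConjugate

namespace Vale.Agent.P097.H202

open Vale.Agent.P097.TA Vale.Agent.P097.H402.Rat

/-- radius of curvature -/
noncomputable def RR (H : ℂ → ℂ) (z : ℂ) : ℂ := H z + deriv (deriv H) z

/-- the pencil Hamiltonian -/
noncomputable def EE (Z : ℂ → ℂ) (H : ℂ → ℂ) (ω : ℂ → ℂ → ℂ) (φ y : ℂ) : ℂ := Z (ω φ y) / RR H φ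

/-- unique root of the chord equation -/
def ChordU : Prop := ∀ {R : ℂ → ℂ} {κ : ℝ}, 0 < κ → DifferentiableOn ℂ R (Str κ) →
  (∀ z ∈ Str κ, R (z + 2 * Real.pi) = R z) → (∀ x : ℝ, ∃ c : ℝ, 0 < c ∧ R x = c) →
  ∃ δ > 0, ∀ φ x₁ x₂ y : ℂ, |φ.im| < δ → ‖x₁‖ < δ → ‖x₂‖ < δ → ‖y‖ < δ →
    Chord R φ x₁ y → Chord R φ x₂ y → x₁ = x₂

/-- chords from the line equations -/
def ChordK : Prop := ∀ {H : ℂ → ℂ} {κ : ℝ}, DifferentiableOn ℂ H (Str κ) → ∀ {φ x y : ℂ},
  φ ∈ Str κ → φ + x ∈ Str κ → x ≠ 0 →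
  H φ * Complex.cos y + deriv H φ * Complex.sin y =
    H (φ + x) * Complex.cos (y - x) + deriv H (φ + x) * Complex.sin (y - x) →
  Chord (fun z => H z + deriv (deriv H) z) φ x y

namespace VI

variable {κ Λ : ℝ} {H Φ : ℂ → ℂ} {r e : ℝ} {α p : ℂ → ℂ → ℂ} {J : ℂ → ℂ} {d c M : ℝ}
    {V : Set (ℂ × ℂ)} {τ ω : ℂ → ℂ → ℂ} (W : VI κ Λ H Φ r e α p J d c M V τ ω)
include W

/-- the chord map solves the chord equation -/
theorem chord_XX (hK : ChordK) (hκ : 0 < κ) (dH : DifferentiableOn ℂ H (Str κ)) {φ y : ℂ}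
    (hV : (φ, y) ∈ V) (hadd : (τ φ y + ω φ y, ω φ y) ∈ WW 0 d d) :
    Chord (RR H) φ (XX α τ ω φ y) y := by
  have hU := W.inU φ y hV
  have hψ := W.ψ_ φ y hV
  have hy := W.y_ φ y hV
  have h1 := W.XX_eq hU
  have h2 := W.XX_sub hU
  rw [hψ, hy] at h1 h2
  have hsub : Str (κ / 2) ⊆ Str κ := Str_mono (by linarith)
  by_cases hX : XX α τ ω φ y = 0
  · -- degenerate chord
    rw [hX, zero_sub] at h2
    have h3 : vP α (τ φ y + ω φ y) (ω φ y) = φ := by
      rw [XX] at hX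
      linear_combination hX
    have h4 := W.τ_ _ _ hadd
    rw [h3, ← h2, (W.neg hV).2.1] at h4
    have h5 : ω φ y = 0 := by linear_combination -h4
    have h6 : y = 0 := by rw [← hy, h5, W.T.vY_zero]
    rw [hX, h6, Chord]
    simp
  · refine hK dH ?_ ?_ hX ?_
    · have := W.T.vP_mem (W.sub _ _ hU)
      rw [hψ] at this
      exact hsub this
    · have := W.T.vP_mem (W.sub _ _ hadd)
      have h3 : φ + XX α τ ω φ y = vP α (τ φ y + ω φ y) (ω φ y) := by rw [XX]; ring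
      rw [h3]
      exact hsub this
    · have h3 := W.T.ends (W.sub _ _ hU) (W.sub _ _ hadd)
      have h4 : φ + XX α τ ω φ y = vP α (τ φ y + ω φ y) (ω φ y) := by rw [XX]; ring
      rw [hψ, hy, ← h4, ← h2] at h3
      rw [h3, show y - XX α τ ω φ y = -(XX α τ ω φ y - y) by ring, Complex.cos_neg,
        Complex.sin_neg]
      ring

/-- derivative of the rotation number along the pencil -/
theorem de_ω {φ y : ℂ} (hV : (φ, y) ∈ V) :
    br (vP α) (vY α) (τ φ y) (ω φ y) * de ω φ y = dx (vP α) (τ φ y) (ω φ y) := by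
  have hU := W.inU φ y hV
  have oU : IsOpen (WW 0 d d) := isOpen_WW _ _ _
  have j1 : JD (vP α) (WW 0 d d) := W.T.jvP.mono fun q hq => W.sub q.1 q.2 hq
  have j2 : JD (vY α) (WW 0 d d) := W.T.jvY.mono fun q hq => W.sub q.1 q.2 hq
  have hc : Continuous fun y : ℂ => (φ, y) := by fun_prop
  have hn := (W.oV.preimage hc).mem_nhds hV
  have k1 := j1.hasDerivAt_comp oU (u := fun y => τ φ y) (v := fun y => ω φ y) (t := y)
    (W.jτ.hasDerivAt_e W.oV hV) (W.jω.hasDerivAt_e W.oV hV) hU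
  have k2 := j2.hasDerivAt_comp oU (u := fun y => τ φ y) (v := fun y => ω φ y) (t := y)
    (W.jτ.hasDerivAt_e W.oV hV) (W.jω.hasDerivAt_e W.oV hV) hU
  have k3 : HasDerivAt (fun y => vP α (τ φ y) (ω φ y)) 0 y := by
    refine (hasDerivAt_const y φ).congr_of_eventuallyEq ?_
    filter_upwards [hn] with z hz
    exact W.ψ_ φ z hz
  have k4 : HasDerivAt (fun y => vY α (τ φ y) (ω φ y)) 1 y := by
    refine (hasDerivAt_id y).congr_of_eventuallyEq ?_
    filter_upwards [hn] with z hz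
    exact W.y_ φ z hz
  have e1 := k1.unique k3
  have e2 := k2.unique k4
  rw [br]
  linear_combination (-dx (vY α) (τ φ y) (ω φ y)) * e1 + dx (vP α) (τ φ y) (ω φ y) * e2

end VI

theorem BX_mem {δ : ℝ} {φ y : ℂ} : (φ, y) ∈ BX δ ↔ |φ.im| < δ ∧ ‖y‖ < δ := Iff.rfl

/-- **RAT-A** from the two facts on chords -/
theorem pa_of (hCU : ChordU) (hCK : ChordK) {h : ℝ → ℝ} {κ ρ Λ L : ℝ} {H HH lam Φ : ℂ → ℂ}
    {l φ₀ : ℝ → ℝ} {r e : ℝ} {α p : ℂ → ℂ → ℂ} {J : ℂ → ℂ}
    (D : LD h κ ρ Λ L H HH lam Φ l φ₀) (T : Lines κ Λ H Φ r e α p J)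
    (hJ : ∀ t w : ℂ, (t, w) ∈ WW 0 r e → J w =
        -((H ((α t w + α (t + w) w) / 2) + deriv (deriv H) ((α t w + α (t + w) w) / 2)) *
          Complex.sin ((α (t + w) w - α t w) / 2)) / 2 * br α (fun t w => α (t + w) w) t w) :
    ∃ (R : ℂ → ℂ) (δ : ℝ) (E ξ X : ℂ → ℂ → ℂ),
      (∀ x : ℝ, R x = ((h x + deriv (deriv h) x : ℝ) : ℂ)) ∧ Pen R δ E ξ X := by
  have hκ := D.κ0
  have oκ : IsOpen (Str κ) := isOpen_Str κ
  -- the radius of curvature
  have hRR : ∀ z ∈ Str κ, RR H z = lam z ^ 3 := fun z hz => (D.lam3 z hz).symm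
  have dR : DifferentiableOn ℂ (RR H) (Str κ) := D.dH.add ((D.dH.deriv oκ).deriv oκ)
  have R0 : ∀ z ∈ Str κ, RR H z ≠ 0 := by
    intro z hz
    rw [hRR z hz]
    exact pow_ne_zero 3 (D.lam0 z hz)
  have Rp : ∀ z ∈ Str κ, RR H (z + 2 * Real.pi) = RR H z := by
    intro z hz
    have hz' : z + 2 * Real.pi ∈ Str κ := by
      have := add_real_mem_Str hz (2 * Real.pi)
      push_cast at this
      exact this
    rw [hRR z hz, hRR _ hz', D.lamp z hz]
  have Rx : ∀ x : ℝ, RR H x = ((l x ^ 3 : ℝ) : ℂ) := by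
    intro x
    rw [hRR x (real_mem_Str hκ x), D.lamr]
    push_cast
    rfl
  have Rpos : ∀ x : ℝ, ∃ c : ℝ, 0 < c ∧ RR H x = c :=
    fun x => ⟨l x ^ 3, pow_pos (D.lpos x) 3, Rx x⟩
  obtain ⟨δ₀, hδ₀, hU0⟩ := hCU hκ dR Rp Rpos
  obtain ⟨d, c, M, V, τ, ω, W⟩ := exists_VI D T
  have hd := W.hd
  have hsurj := D.surj
  have he := T.he
  -- the primitive
  have dZ : DifferentiableOn ℂ (fun w => -(w * J w)) (ball 0 e) :=
    (differentiableOn_id.mul T.jJ).neg
  obtain ⟨Z₀, hZ₀⟩ := prim_convex isOpen_ball (convex_ball _ _) dZ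
  obtain ⟨Z, hZ⟩ : ∃ Z : ℂ → ℂ, Z = fun w => Z₀ w - Z₀ 0 := ⟨_, rfl⟩
  have hZd : ∀ w ∈ ball (0 : ℂ) e, HasDerivAt Z (-(w * J w)) w := fun w hw => by
    rw [hZ]
    exact (hZ₀ w hw).sub_const _
  have hZ0 : Z 0 = 0 := by rw [hZ]; simp
  have hZodd : ∀ w ∈ ball (0 : ℂ) e, Z (-w) = -Z w := by
    intro w hw
    have hneg : ∀ w ∈ ball (0 : ℂ) e, -w ∈ ball (0 : ℂ) e := by
      intro w hw
      simpa using hw
    have hder : ∀ w ∈ ball (0 : ℂ) e, HasDerivAt (fun w => Z (-w) + Z w) 0 w := by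
      intro w hw
      have h1 := hZd _ (hneg w hw)
      have h2 := h1.comp w (hasDerivAt_id w).neg
      have h3 := h2.add (hZd w hw)
      refine h3.congr_deriv ?_
      rw [T.Jodd w (by simpa using hw)]
      ring
    have hcst := (convex_ball (0 : ℂ) e).is_const_of_fderivWithin_eq_zero (𝕜 := ℂ)
      (f := fun w => Z (-w) + Z w) (fun w hw => (hder w hw).differentiableAt.differentiableWithinAt)
      (fun w hw => by
        have := (hder w hw).hasFDerivAt.hasFDerivWithinAt.fderivWithin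
          (isOpen_ball.uniqueDiffWithinAt hw)
        rw [this]
        ext
        simp) hw (show (0 : ℂ) ∈ ball (0 : ℂ) e by simpa using he)
    simp only [neg_zero, hZ0, add_zero] at hcst
    linear_combination hcst
  have hwe : ∀ {t w : ℂ}, (t, w) ∈ WW 0 d d → w ∈ ball (0 : ℂ) e := by
    intro t w h
    have := (W.sub t w h).1
    simpa using this
  -- the chord map
  have hadd' : ∀ {t w : ℂ}, |t.im| < d / 4 → ‖w‖ < d / 4 → (t + w, w) ∈ WW 0 d d := by
    intro t w ht hw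
    rw [mem_WW0]
    have h1 := abs_add_le t.im w.im
    have h2 := abs_im_le_norm w
    rw [add_im]
    constructor <;> linarith
  have oU : IsOpen (WW 0 d d) := isOpen_WW _ _ _
  have j1 : JD (vP α) (WW 0 d d) := T.jvP.mono fun q hq => W.sub q.1 q.2 hq
  set S : Set (ℂ × ℂ) := V ∩ {q | (τ q.1 q.2 + ω q.1 q.2, ω q.1 q.2) ∈ WW 0 d d} with hS
  have oS : IsOpen S := by
    have h1 : ContinuousOn (fun q : ℂ × ℂ => (τ q.1 q.2 + ω q.1 q.2, ω q.1 q.2)) V :=
      (W.jτ.continuousOn.add W.jω.continuousOn).prodMk W.jω.continuousOn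
    exact h1.isOpen_inter_preimage W.oV oU
  have jX : JD (XX α τ ω) S := by
    refine JD.sub ?_ JD.fst
    exact JD.comp (f := fun φ y => τ φ y + ω φ y) (g := ω) j1
      ((W.jτ.mono inter_subset_left).add (W.jω.mono inter_subset_left))
      (W.jω.mono inter_subset_left) fun x y hxy => hxy.2
  have jξ : JD (xiX α τ ω) V :=
    W.jω.mul (JD.comp (f := τ) (g := ω) (j1.dx oU) W.jτ W.jω fun x y hxy => W.inU x y hxy)
  obtain ⟨ε, hε, hbox⟩ := W.box hsurj
    (P := fun φ y => ‖XX α τ ω φ y‖ < δ₀ ∧ (τ φ y + ω φ y, ω φ y) ∈ WW 0 d d) (by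
      rintro φ y hV ⟨h1, h2⟩
      obtain ⟨g1, g2, g3⟩ := W.per hV
      have h3 : XX α τ ω (φ + 2 * Real.pi) y = XX α τ ω φ y := by
        rw [XX, XX, g2, g3, show τ φ y + 1 + ω φ y = τ φ y + ω φ y + 1 by ring,
          T.vP_per (W.sub _ _ h2)]
        ring
      rw [h3, g2, g3, show τ φ y + 1 + ω φ y = τ φ y + ω φ y + 1 by ring]
      exact ⟨h1, WW_one h2⟩) (by
      rintro φ y hV ⟨h1, h2⟩
      obtain ⟨g1, g2, g3⟩ := W.per' hV
      have h4 : (τ φ y + ω φ y - 1, ω φ y) ∈ WW 0 d d := by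
        have := WW_real h2 (-1)
        simpa [sub_eq_add_neg] using this
      have h5 := T.vP_per (W.sub _ _ h4)
      rw [sub_add_cancel] at h5
      have h3 : XX α τ ω (φ - 2 * Real.pi) y = XX α τ ω φ y := by
        rw [XX, XX, g2, g3, show τ φ y - 1 + ω φ y = τ φ y + ω φ y - 1 by ring, h5]
        ring
      rw [h3, g2, g3, show τ φ y - 1 + ω φ y = τ φ y + ω φ y - 1 by ring]
      exact ⟨h1, h4⟩) (by
      intro x
      obtain ⟨s, hs⟩ := hsurj x
      obtain ⟨g1, g2, g3⟩ := W.real hs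
      have g4 : ((x : ℂ), (0 : ℂ)) ∈ S := by
        refine ⟨g1, ?_⟩
        simp only [mem_setOf_eq, g2, g3, add_zero]
        rw [mem_WW0]
        simpa using hd
      have hn := oS.mem_nhds g4
      have k1 := (jX.continuousOn.continuousAt hn).norm
      have v1 : ‖XX α τ ω x 0‖ = 0 := by
        have h1 := W.ψ_ _ _ g1
        rw [g2, g3] at h1
        rw [XX, g2, g3, add_zero, h1, sub_self, norm_zero]
      have w1 := k1.tendsto.eventually_lt_const (show ‖XX α τ ω x 0‖ < δ₀ by rw [v1]; exact hδ₀)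
      filter_upwards [hn, w1] with q a b using ⟨b, a.2⟩) (show 0 < d / 4 by positivity)
  obtain ⟨δ, hδdef⟩ : ∃ δ, δ = min ε (min δ₀ κ) := ⟨_, rfl⟩
  have hδ : 0 < δ := by rw [hδdef]; positivity
  have hδε : δ ≤ ε := by rw [hδdef]; exact min_le_left _ _
  have hδδ₀ : δ ≤ δ₀ := by rw [hδdef]; exact (min_le_right _ _).trans (min_le_left _ _)
  have hδκ : δ ≤ κ := by rw [hδdef]; exact (min_le_right _ _).trans (min_le_right _ _)
  have hstr : Str δ ⊆ Str κ := Str_mono hδκ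
  have hB : ∀ φ y : ℂ, |φ.im| < δ → ‖y‖ < δ → (φ, y) ∈ V ∧ |(τ φ y).im| < d / 4 ∧
      ‖ω φ y‖ < d / 4 ∧ ‖XX α τ ω φ y‖ < δ₀ ∧ (τ φ y + ω φ y, ω φ y) ∈ WW 0 d d :=
    fun φ y h1 h2 => hbox φ y (lt_of_lt_of_le h1 hδε) (lt_of_lt_of_le h2 hδε)
  have hBV : BX δ ⊆ V := fun q hq => (hB q.1 q.2 hq.1 hq.2).1
  have hBS : BX δ ⊆ S := fun q hq => ⟨(hB q.1 q.2 hq.1 hq.2).1, (hB q.1 q.2 hq.1 hq.2).2.2.2.2⟩
  have hXc : ∀ φ y : ℂ, |φ.im| < δ → ‖y‖ < δ → Chord (RR H) φ (XX α τ ω φ y) y := by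
    intro φ y h1 h2
    obtain ⟨g1, -, -, -, g5⟩ := hB φ y h1 h2
    exact W.chord_XX hCK hκ D.dH g1 g5
  refine ⟨RR H, δ, EE Z H ω, xiX α τ ω, XX α τ ω, ?_, ?_⟩
  · intro x
    rw [Rx, D.l3]
  exact
    { hδ := hδ
      dR := dR.mono hstr
      R0 := fun z hz => R0 z (hstr hz)
      Rp := fun z hz => Rp z (hstr hz)
      Rpos := Rpos
      jE := by
        refine JD.div ?_ ?_ fun φ y h => R0 φ (hstr h.1)
        · refine JD.comp_one (U := ball (0 : ℂ) e)
            (fun w hw => (hZd w hw).differentiableAt.differentiableWithinAt) (W.jω.mono hBV) ?_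
          intro φ y h
          exact hwe (W.inU φ y (hBV h))
        · exact JD.comp_one (U := Str κ) dR JD.fst fun φ y h => hstr h.1
      jξ := jξ.mono hBV
      jX := jX.mono hBS
      Ep := by
        intro φ y h
        rw [EE, EE, (W.per (hBV h)).2.2, Rp φ (hstr h.1)]
      odd := by
        intro φ y h
        rw [EE, EE, (W.neg (hBV h)).2.2, hZodd _ (hwe (W.inU φ y (hBV h))), neg_div]
      chord := by
        intro φ x y h1 h2 h3 h4 h5 hch
        obtain ⟨g1, g2, g3, g4, g5⟩ := hB φ y h1 h4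
        have hx : x = XX α τ ω φ y := hU0 φ x _ y (lt_of_lt_of_le h1 hδδ₀)
          (lt_of_lt_of_le h3 hδδ₀) g4 (lt_of_lt_of_le h4 hδδ₀) hch (hXc φ y h1 h4)
        have hU := W.inU φ y g1
        have e1 := W.XX_sub hU
        rw [W.ψ_ φ y g1, W.y_ φ y g1, ← hx] at e1
        have e2 : φ + x = vP α (τ φ y + ω φ y) (ω φ y) := by rw [hx, XX]; ring
        have e3 := W.ω_ _ _ g5
        rw [← e1, ← e2] at e3
        rw [EE, EE, e3, mul_div_cancel₀ _ (R0 φ (hstr h1)), mul_div_cancel₀ _ (R0 _ (hstr h2))]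
      E0 := by
        intro φ h1
        rw [EE, W.ω_zero (hBV (⟨h1, by simpa using hδ⟩ : (φ, (0 : ℂ)) ∈ BX δ)), hZ0, zero_div]
      dE := by
        intro φ y h
        have hV := hBV h
        have hU := W.inU φ y hV
        have h1 := W.jω.hasDerivAt_e W.oV hV
        have h2 := ((hZd _ (hwe hU)).comp y h1).div_const (RR H φ)
        refine h2.congr_deriv ?_
        have h3 := T.area hJ (W.sub _ _ hU)
        have h4 := W.de_ω hV
        rw [W.ψ_ φ y hV, W.y_ φ y hV] at h3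
        have hR := R0 φ (hstr h.1)
        rw [h3, xiX, ← h4]
        have e1 : H φ + deriv (deriv H) φ = RR H φ := rfl
        rw [e1]
        field_simp
      X0 := by
        intro φ h1
        have hV := hBV (⟨h1, by simpa using hδ⟩ : (φ, (0 : ℂ)) ∈ BX δ)
        have h2 := W.ω_zero hV
        have h3 := W.ψ_ φ 0 hV
        rw [h2] at h3
        rw [XX, h2, add_zero, h3, sub_self]
      Xc := ⟨δ, hδ, hXc⟩
      newton := W.newton hsurj }

/-- restriction of a family of leaves -/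
theorem Fam_restrict {b : ℂ → ℂ → ℂ} {L r e r' : ℝ} {θ : ℂ → ℂ → ℂ} (F : Fam b L r e θ)
    (h0 : 0 < r') (h : r' ≤ r) : Fam b L r' e θ := by
  have hs : WW 0 r' e ⊆ WW 0 r e := WW_mono le_rfl h le_rfl
  have hs1 : WW 1 r' e ⊆ WW 1 r e := WW_mono le_rfl h le_rfl
  exact
    { hr := h0, he := F.he, hol := F.hol.mono hs
      per := fun x ε hx => F.per x ε (hs hx)
      ev := fun x ε hx => F.ev x ε (hs hx)
      re := fun x ε hx => F.re x ε (hs hx)
      cl := fun x ε hx => F.cl x ε (hs hx)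
      er := fun x ε hx => F.er x ε (hs1 hx) }

end Vale.Agent.P097.H202
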