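import Vale.Agent.P097.H402.Main0
import Vale.Agent.P097.H402.StepP
import Vale.Agent.P097.H202.PenA7

/-! # P097 / RAT-A, part 8 -/

set_option linter.all false

open Complex Metric Filter Topology Set
open scoped ComplexConjugate

namespace Vale.Agent.P097.H202

open Vale.Agent.P097.TA Vale.Agent.P097.H402.Rat

/-- **RAT-A** from the two facts on chords -/
theorem pa_of_chords (hCU : ChordU) (hCK : ChordK) : PA := by
  intro h η h0 Hs hC
  obtain ⟨κ, ρ, Λ, L, Hh, HH, lam, Φ, l, φ, ρ', M, L', r, e, b, θ, T, hρρ, hG, hb, F⟩ :=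
    H402.main_cx_of H402.famEx Hs h0 (Or.inl hC)
  have F' := Fam_restrict F (lt_min F.hr T.ρ0) (min_le_left r ρ)
  obtain ⟨r₁, e₁, hr₁, he₁, A, hθ⟩ := exists_AL T hG.hρ hb F'
  obtain ⟨r₂, e₂, J, hr₂, he₂, Ln, hJ⟩ := exists_lines T (hr₁.trans (min_le_right _ _)) A
  exact pa_of hCU hCK T Ln hJ

end Vale.Agent.P097.H202
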