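import Vale.Agent.P097.H202.T1La

/-! # P097 / TRIG-T1, local lemmas, part 2: the model equation, the segment lemma, the cusp limit -/

set_option linter.all false

open Complex Metric Filter Topology Set
open scoped ComplexConjugate
open Vale.Agent.P097.TA Vale.Agent.P097.H536

namespace Vale.Agent.P097.H202

/-- **(L2)** the model equation `B'³ = 27 B²` -/
theorem model_cube {U : Set ℂ} (hU : IsOpen U) (hc : Convex ℝ U) (hne : U.Nonempty) {B : ℂ → ℂ}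
    (hB : DifferentiableOn ℂ B U) (h0 : ∀ x ∈ U, B x ≠ 0)
    (heq : ∀ x ∈ U, deriv B x ^ 3 = 27 * B x ^ 2) : ∃ β : ℂ, ∀ x ∈ U, B x = (x - β) ^ 3 := by
  obtain ⟨u, du, hu⟩ := exists_root_convex hU hc hB h0 (n := 3) (by norm_num)
  have hda : ∀ x ∈ U, HasDerivAt u (deriv u x) x := fun x hx =>
    (du.differentiableAt (hU.mem_nhds hx)).hasDerivAt
  have hu0 : ∀ x ∈ U, u x ≠ 0 := by
    intro x hx h
    apply h0 x hx
    rw [← hu x hx, h]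
    norm_num
  have hdB : ∀ x ∈ U, deriv B x = 3 * u x ^ 2 * deriv u x := by
    intro x hx
    have h1 : HasDerivAt (fun x => u x ^ 3) (3 * u x ^ 2 * deriv u x) x :=
      ((hda x hx).pow 3).congr_deriv (by norm_num)
    have h2 : B =ᶠ[𝓝 x] fun x => u x ^ 3 := by
      filter_upwards [hU.mem_nhds hx] with y hy
      exact (hu y hy).symm
    rw [h2.deriv_eq, h1.deriv]
  have hdu3 : ∀ x ∈ U, deriv u x ^ 3 = 1 := by
    intro x hx
    have h1 := heq x hx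
    rw [hdB x hx, ← hu x hx] at h1
    have h2 : (27 * u x ^ 6) * (deriv u x ^ 3) = (27 * u x ^ 6) * 1 := by linear_combination h1
    exact mul_left_cancel₀ (mul_ne_zero (by norm_num) (pow_ne_zero _ (hu0 x hx))) h2
  obtain ⟨x₀, hx₀⟩ := hne
  -- the second derivative vanishes
  have hd2 : ∀ x ∈ U, HasDerivAt (deriv u) 0 x := by
    intro x hx
    have h1 := ((du.deriv hU).differentiableAt (hU.mem_nhds hx)).hasDerivAt
    have h2 : HasDerivAt (fun x => deriv u x ^ 3) (3 * deriv u x ^ 2 * deriv (deriv u) x) x :=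
      (h1.pow 3).congr_deriv (by norm_num)
    have h3 : (fun x => deriv u x ^ 3) =ᶠ[𝓝 x] fun _ => 1 := by
      filter_upwards [hU.mem_nhds hx] with y hy
      exact hdu3 y hy
    have h4 : 3 * deriv u x ^ 2 * deriv (deriv u) x = 0 := by
      rw [← h2.deriv, h3.deriv_eq, deriv_const]
    have h5 : deriv u x ≠ 0 := by
      intro h
      have := hdu3 x hx
      rw [h] at this
      norm_num at this
    have h6 : deriv (deriv u) x = 0 := by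
      rcases mul_eq_zero.1 h4 with h | h
      · exact absurd h (mul_ne_zero (by norm_num) (pow_ne_zero _ h5))
      · exact h
    rw [h6] at h1
    exact h1
  set ω : ℂ := deriv u x₀ with hω
  have hω3 : ω ^ 3 = 1 := hdu3 x₀ hx₀
  have hω0 : ω ≠ 0 := by
    intro h
    rw [h] at hω3
    norm_num at hω3
  have h1 : ∀ x ∈ U, deriv u x = ω := fun x hx => const_of_deriv_zero hU hc hd2 hx hx₀
  have h2 : ∀ x ∈ U, u x - ω * x = u x₀ - ω * x₀ := by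
    intro x hx
    refine const_of_deriv_zero (f := fun x => u x - ω * x) hU hc ?_ hx hx₀
    intro y hy
    have h3 := (hda y hy).sub ((hasDerivAt_id y).const_mul ω)
    refine h3.congr_deriv ?_
    rw [h1 y hy, mul_one, sub_self]
  refine ⟨x₀ - u x₀ / ω, fun x hx => ?_⟩
  have h3 : u x = ω * (x - (x₀ - u x₀ / ω)) := by
    have h4 := h2 x hx
    field_simp
    linear_combination h4
  rw [← hu x hx, h3, mul_pow, hω3, one_mul]

variable {R E : ℂ → ℂ} {Λ r₀ m M : ℝ} {ψ₀ : ℂ} {j : ℕ}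

/-- the normal form function -/
noncomputable def AA (ψ₀ : ℂ) (j : ℕ) (E : ℂ → ℂ) (ξ : ℂ) : ℂ := (ξ - ψ₀) ^ (j + 3) * E ξ

namespace LocA

variable (T : LocA R Λ ψ₀ j r₀ m M E)

include T

theorem dA : DifferentiableOn ℂ (AA ψ₀ j E) (ball ψ₀ r₀) := by
  have h1 : DifferentiableOn ℂ (fun ξ : ℂ => (ξ - ψ₀) ^ (j + 3)) (ball ψ₀ r₀) :=
    Differentiable.differentiableOn (by fun_prop)
  exact h1.mul T.dE

theorem A_lo {ξ : ℂ} (hξ : ξ ∈ ball ψ₀ r₀) : m * ‖ξ - ψ₀‖ ^ (j + 3) ≤ ‖AA ψ₀ j E ξ‖ := by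
  rw [AA, norm_mul, norm_pow, mul_comm m]
  have := T.lo ξ hξ
  gcongr

theorem A_hi {ξ : ℂ} (hξ : ξ ∈ ball ψ₀ r₀) : ‖AA ψ₀ j E ξ‖ ≤ M * ‖ξ - ψ₀‖ ^ (j + 3) := by
  rw [AA, norm_mul, norm_pow, mul_comm M]
  have := T.hi ξ hξ
  gcongr

theorem hM : 0 < M := lt_of_lt_of_le T.hm
  ((T.lo ψ₀ (mem_ball_self T.hr)).trans (T.hi ψ₀ (mem_ball_self T.hr)))

theorem A_ne {ξ : ℂ} (hξ : ξ ∈ ball ψ₀ r₀) (h : ξ ≠ ψ₀) : AA ψ₀ j E ξ ≠ 0 := by
  have h1 := T.A_lo hξ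
  have h2 : 0 < ‖ξ - ψ₀‖ := norm_pos_iff.2 (sub_ne_zero.2 h)
  have h3 : 0 < m * ‖ξ - ψ₀‖ ^ (j + 3) := mul_pos T.hm (pow_pos h2 _)
  exact norm_pos_iff.1 (lt_of_lt_of_le h3 h1)

end LocA

/-- **(L3)** segment lemma: a solution close to `ψ₀` at `z` comes from a point `β` outside the domain,
and equals the model in the part of the domain close to `β` -/
theorem LocA.segment (T : LocA R Λ ψ₀ j r₀ m M E) (hΛ : 0 < Λ) {U : Set ℂ} (hU : IsOpen U)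
    (hc : Convex ℝ U) {Φ : ℂ → ℂ} (dΦ : DifferentiableOn ℂ Φ U)
    (hode : ∀ z ∈ U, deriv Φ z ^ 3 * R (Φ z) = (Λ : ℂ) ^ 3) {z : ℂ} (hz : z ∈ U)
    (hz1 : Φ z ∈ ball ψ₀ r₀) (hz2 : M * ‖Φ z - ψ₀‖ ^ (j + 3) < m * (r₀ / 2) ^ (j + 3)) :
    ∃ β : ℂ, β ∉ U ∧ ‖z - β‖ ^ 3 = ‖AA ψ₀ j E (Φ z)‖ ∧
      (∀ x ∈ U, ‖x - β‖ ^ 3 < m * (r₀ / 2) ^ (j + 3) →
        Φ x ∈ ball ψ₀ (r₀ / 2) ∧ AA ψ₀ j E (Φ x) = (x - β) ^ 3) := by
  have hr := T.hr
  have hm := T.hm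
  have hΛc : (Λ : ℂ) ≠ 0 := by exact_mod_cast hΛ.ne'
  have hΦψ : ∀ x ∈ U, Φ x ≠ ψ₀ := by
    intro x hx h
    have h1 := hode x hx
    rw [h, T.R0, mul_zero] at h1
    exact pow_ne_zero 3 hΛc h1.symm
  have hcΦ : ∀ x ∈ U, ContinuousAt Φ x := fun x hx =>
    (dΦ.differentiableAt (hU.mem_nhds hx)).continuousAt
  -- `A ∘ Φ` satisfies the model equation where `Φ` is in the ball
  have hmodel : ∀ x ∈ U, Φ x ∈ ball ψ₀ r₀ →
      DifferentiableAt ℂ (fun x => AA ψ₀ j E (Φ x)) x ∧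
      deriv (fun x => AA ψ₀ j E (Φ x)) x ^ 3 = 27 * AA ψ₀ j E (Φ x) ^ 2 := by
    intro x hx hxb
    have h1 := (T.dA.differentiableAt (isOpen_ball.mem_nhds hxb)).hasDerivAt
    have h2 := (dΦ.differentiableAt (hU.mem_nhds hx)).hasDerivAt
    have h3 := h1.comp x h2
    refine ⟨h3.differentiableAt, ?_⟩
    have h4 : deriv (fun x => AA ψ₀ j E (Φ x)) x = deriv (AA ψ₀ j E) (Φ x) * deriv Φ x := h3.deriv
    have h5 : deriv (AA ψ₀ j E) (Φ x) ^ 3 * (Λ : ℂ) ^ 3 = 27 * AA ψ₀ j E (Φ x) ^ 2 * R (Φ x) :=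
      T.eq (Φ x) hxb
    have h6 := hode x hx
    have hd0 : deriv Φ x ≠ 0 := by
      intro h
      rw [h] at h6
      simp only [ne_eq, OfNat.ofNat_ne_zero, not_false_eq_true, zero_pow, zero_mul] at h6
      exact pow_ne_zero 3 hΛc h6.symm
    have h7 : (Λ : ℂ) ^ 3 ≠ 0 := pow_ne_zero 3 hΛc
    refine mul_right_cancel₀ h7 ?_
    rw [h4]
    calc (deriv (AA ψ₀ j E) (Φ x) * deriv Φ x) ^ 3 * (Λ : ℂ) ^ 3
        = (deriv (AA ψ₀ j E) (Φ x) ^ 3 * (Λ : ℂ) ^ 3) * deriv Φ x ^ 3 := by ring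
      _ = 27 * AA ψ₀ j E (Φ x) ^ 2 * (deriv Φ x ^ 3 * R (Φ x)) := by rw [h5]; ring
      _ = 27 * AA ψ₀ j E (Φ x) ^ 2 * (Λ : ℂ) ^ 3 := by rw [h6]
  -- local model near a point
  have hloc : ∀ x ∈ U, Φ x ∈ ball ψ₀ r₀ → ∃ ε > 0, ball x ε ⊆ U ∧ (∀ y ∈ ball x ε, Φ y ∈ ball ψ₀ r₀) ∧
      ∃ β : ℂ, ∀ y ∈ ball x ε, AA ψ₀ j E (Φ y) = (y - β) ^ 3 := by
    intro x hx hxb
    have h1 : ∀ᶠ y in 𝓝 x, y ∈ U ∧ Φ y ∈ ball ψ₀ r₀ :=
      (hU.eventually_mem hx).and ((hcΦ x hx).eventually (isOpen_ball.eventually_mem hxb))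
    obtain ⟨ε, hε, h2⟩ := Metric.eventually_nhds_iff_ball.1 h1
    refine ⟨ε, hε, fun y hy => (h2 y hy).1, fun y hy => (h2 y hy).2, ?_⟩
    refine model_cube isOpen_ball (convex_ball x ε) ⟨x, mem_ball_self hε⟩ ?_ ?_ ?_
    · intro y hy
      exact (hmodel y (h2 y hy).1 (h2 y hy).2).1.differentiableWithinAt
    · intro y hy
      exact T.A_ne (h2 y hy).2 (hΦψ y (h2 y hy).1)
    · intro y hy
      exact (hmodel y (h2 y hy).1 (h2 y hy).2).2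
  obtain ⟨ε, hε, hεU, hεb, β, hβ⟩ := hloc z hz hz1
  have hzβ : ‖z - β‖ ^ 3 = ‖AA ψ₀ j E (Φ z)‖ := by
    rw [hβ z (mem_ball_self hε), norm_pow]
  have hzβ' : ‖z - β‖ ^ 3 < m * (r₀ / 2) ^ (j + 3) := by
    rw [hzβ]
    exact lt_of_le_of_lt (T.A_hi hz1) hz2
  -- the convex set where the identity propagates
  set V : Set ℂ := U ∩ {x | ‖x - β‖ ^ 3 < m * (r₀ / 2) ^ (j + 3)} with hV
  have hcV2 : Convex ℝ {x : ℂ | ‖x - β‖ ^ 3 < m * (r₀ / 2) ^ (j + 3)} := by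
    have hpos : 0 < m * (r₀ / 2) ^ (j + 3) := by positivity
    intro x hx y hy a b ha hb hab
    have hx' : ‖x - β‖ ^ 3 < m * (r₀ / 2) ^ (j + 3) := hx
    have hy' : ‖y - β‖ ^ 3 < m * (r₀ / 2) ^ (j + 3) := hy
    have h1 : ‖a • x + b • y - β‖ ≤ max ‖x - β‖ ‖y - β‖ := by
      have e : a • x + b • y - β = a • (x - β) + b • (y - β) := by
        have : β = (a + b) • β := by rw [hab, one_smul]
        rw [smul_sub, smul_sub]
        nth_rewrite 1 [this]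
        rw [add_smul]
        abel
      rw [e]
      refine (norm_add_le _ _).trans ?_
      rw [norm_smul, norm_smul, Real.norm_eq_abs, Real.norm_eq_abs, abs_of_nonneg ha,
        abs_of_nonneg hb]
      have m1 := le_max_left ‖x - β‖ ‖y - β‖
      have m2 := le_max_right ‖x - β‖ ‖y - β‖
      calc a * ‖x - β‖ + b * ‖y - β‖ ≤ a * max ‖x - β‖ ‖y - β‖ + b * max ‖x - β‖ ‖y - β‖ := by
            gcongr
        _ = max ‖x - β‖ ‖y - β‖ := by rw [← add_mul, hab, one_mul]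
    have h2 : ‖a • x + b • y - β‖ ^ 3 ≤ max ‖x - β‖ ‖y - β‖ ^ 3 :=
      pow_le_pow_left₀ (norm_nonneg _) h1 3
    refine lt_of_le_of_lt h2 ?_
    rcases max_choice ‖x - β‖ ‖y - β‖ with h | h <;> rw [h] <;> assumption
  have hcV : Convex ℝ V := hc.inter hcV2
  have hpV : IsPreconnected V := hcV.isPreconnected
  set W : Set ℂ := {x | x ∈ U ∧ Φ x ∈ ball ψ₀ (r₀ / 2) ∧
    (fun x => AA ψ₀ j E (Φ x)) =ᶠ[𝓝 x] fun x => (x - β) ^ 3} with hW
  have hWo : IsOpen W := by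
    rw [isOpen_iff_mem_nhds]
    rintro x ⟨hx1, hx2, hx3⟩
    filter_upwards [hU.eventually_mem hx1, (hcΦ x hx1).eventually (isOpen_ball.eventually_mem hx2),
      hx3.eventually_nhds] with y h1 h2 h3
    exact ⟨h1, h2, h3⟩
  have hhalf : ball ψ₀ (r₀ / 2) ⊆ ball ψ₀ r₀ := ball_subset_ball (by linarith)
  have hin : ∀ x ∈ U, Φ x ∈ ball ψ₀ r₀ → AA ψ₀ j E (Φ x) = (x - β) ^ 3 →
      ‖x - β‖ ^ 3 < m * (r₀ / 2) ^ (j + 3) → Φ x ∈ ball ψ₀ (r₀ / 2) := by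
    intro x hx h1 h2 h3
    have h4 := T.A_lo h1
    rw [h2, norm_pow] at h4
    have h5 : m * ‖Φ x - ψ₀‖ ^ (j + 3) < m * (r₀ / 2) ^ (j + 3) := lt_of_le_of_lt h4 h3
    have h6 : ‖Φ x - ψ₀‖ ^ (j + 3) < (r₀ / 2) ^ (j + 3) := lt_of_mul_lt_mul_left h5 hm.le
    rw [mem_ball, dist_eq_norm]
    exact lt_of_pow_lt_pow_left₀ _ (by positivity) h6
  have hzW : z ∈ W := by
    refine ⟨hz, ?_, ?_⟩
    · exact hin z hz hz1 (hβ z (mem_ball_self hε)) hzβ'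
    · filter_upwards [ball_mem_nhds z hε] with y hy
      exact hβ y hy
  have hVW : V ⊆ W := by
    refine hpV.subset_of_closure_inter_subset hWo ⟨z, ⟨hz, hzβ'⟩, hzW⟩ ?_
    rintro x ⟨hx1, hx2⟩
    obtain ⟨hxU, hxβ⟩ := hx2
    have hxβ' : ‖x - β‖ ^ 3 < m * (r₀ / 2) ^ (j + 3) := hxβ
    -- `Φ x` in the closed half ball
    have h1 : Φ x ∈ closedBall ψ₀ (r₀ / 2) := by
      rw [mem_closure_iff_nhds] at hx1
      by_contra hcon
      have hopen : (closedBall ψ₀ (r₀ / 2))ᶜ ∈ 𝓝 (Φ x) :=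
        isClosed_closedBall.isOpen_compl.mem_nhds hcon
      obtain ⟨y, hy1, hy2⟩ := hx1 _ ((hcΦ x hxU) hopen)
      exact hy1 (ball_subset_closedBall hy2.2.1)
    have h2 : Φ x ∈ ball ψ₀ r₀ := by
      rw [mem_closedBall] at h1
      rw [mem_ball]
      linarith
    obtain ⟨δ, hδ, hδU, hδb, β', hβ'⟩ := hloc x hxU h2
    -- identity on the ball
    have hana1 : AnalyticOnNhd ℂ (fun y => (y - β') ^ 3 - (y - β) ^ 3) (ball x δ) := by
      intro y _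
      fun_prop
    have hex : ∃ y ∈ ball x δ, y ∈ W := by
      rw [Metric.mem_closure_iff] at hx1
      obtain ⟨y, hy1, hy2⟩ := hx1 δ hδ
      exact ⟨y, by rwa [mem_ball, dist_comm], hy1⟩
    obtain ⟨y, hyb, hyW⟩ := hex
    have h3 : (fun y => (y - β') ^ 3 - (y - β) ^ 3) =ᶠ[𝓝 y] 0 := by
      filter_upwards [isOpen_ball.mem_nhds hyb, hyW.2.2] with w hw1 hw2
      have := hβ' w hw1
      rw [hw2] at this
      simp only [Pi.zero_apply]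
      rw [← this, sub_self]
    have h4 := hana1.eqOn_zero_of_preconnected_of_eventuallyEq_zero
      (convex_ball x δ).isPreconnected hyb h3
    have h5 : ∀ w ∈ ball x δ, AA ψ₀ j E (Φ w) = (w - β) ^ 3 := by
      intro w hw
      rw [hβ' w hw]
      exact sub_eq_zero.1 (h4 hw)
    refine ⟨hxU, ?_, ?_⟩
    · exact hin x hxU h2 (h5 x (mem_ball_self hδ)) hxβ'
    · filter_upwards [ball_mem_nhds x hδ] with w hw
      exact h5 w hw
  have hmain : ∀ x ∈ U, ‖x - β‖ ^ 3 < m * (r₀ / 2) ^ (j + 3) →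
        Φ x ∈ ball ψ₀ (r₀ / 2) ∧ AA ψ₀ j E (Φ x) = (x - β) ^ 3 := by
    intro x hx hxβ
    have h1 := hVW ⟨hx, hxβ⟩
    exact ⟨h1.2.1, h1.2.2.eq_of_nhds⟩
  refine ⟨β, ?_, hzβ, hmain⟩
  intro hβU
  have h1 := hmain β hβU (by rw [sub_self, norm_zero, zero_pow (by norm_num)]; positivity)
  rw [sub_self, zero_pow (by norm_num)] at h1
  exact T.A_ne (hhalf h1.1) (hΦψ β hβU) h1.2

end Vale.Agent.P097.H202
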