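import Vale.Agent.P097.H202.T1Lb

/-! # P097 / TRIG-T1, local lemmas, part 3: the cusp limit -/

set_option linter.all false

open Complex Metric Filter Topology Set
open scoped ComplexConjugate
open Vale.Agent.P097.TA Vale.Agent.P097.H536

namespace Vale.Agent.P097.H202

variable {R E : ℂ → ℂ} {Λ r₀ m M : ℝ} {ψ₀ : ℂ} {j : ℕ}

theorem cpow_mu_pow {n : ℕ} {x : ℂ} (hx : x ≠ 0) : (x ^ mu n) ^ (n + 2) = x ^ 3 := by
  rw [← Complex.cpow_nat_mul, mu]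
  have h1 : ((n : ℂ) + 2) ≠ 0 := by
    have : ((n + 2 : ℕ) : ℂ) ≠ 0 := by exact_mod_cast (by omega : n + 2 ≠ 0)
    push_cast at this
    exact this
  have h2 : ((n + 2 : ℕ) : ℂ) * (3 / ((n : ℂ) + 2)) = ((3 : ℕ) : ℂ) := by
    push_cast
    field_simp
  rw [h2, Complex.cpow_natCast]

/-- **(L4)** distance to the boundary and size of the derivative near a zero -/
theorem LocA.geo (T : LocA R Λ ψ₀ j r₀ m M E) (hΛ : 0 < Λ) {Y c : ℝ} (hc : 0 < c)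
    (hRlo : ∀ ξ ∈ ball ψ₀ r₀, c * ‖ξ - ψ₀‖ ^ j ≤ ‖R ξ‖) {Φ : ℂ → ℂ}
    (dΦ : DifferentiableOn ℂ Φ (Str Y))
    (hode : ∀ z ∈ Str Y, deriv Φ z ^ 3 * R (Φ z) = (Λ : ℂ) ^ 3) {z : ℂ} (hz : z ∈ Str Y)
    (hz1 : Φ z ∈ ball ψ₀ r₀) (hz2 : M * ‖Φ z - ψ₀‖ ^ (j + 3) < m * (r₀ / 2) ^ (j + 3)) :
    (Y - |z.im|) ^ 3 ≤ M * ‖Φ z - ψ₀‖ ^ (j + 3) ∧
      (‖deriv Φ z‖ * (Y - |z.im|)) ^ 3 ≤ Λ ^ 3 * M / c * ‖Φ z - ψ₀‖ ^ 3 := by
  obtain ⟨β, hβ, h1, -⟩ := T.segment hΛ (isOpen_Str Y) (convex_Str Y) dΦ hode hz hz1 hz2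
  have hz' : |z.im| < Y := hz
  have hd : 0 < Y - |z.im| := by linarith
  have h2 : Y - |z.im| ≤ ‖z - β‖ := by
    have h3 : Y ≤ |β.im| := not_lt.1 hβ
    have h4 := abs_im_le_norm (z - β)
    rw [sub_im] at h4
    have h5 := abs_sub_abs_le_abs_sub β.im z.im
    rw [abs_sub_comm] at h5
    linarith
  have h3 : (Y - |z.im|) ^ 3 ≤ M * ‖Φ z - ψ₀‖ ^ (j + 3) :=
    (pow_le_pow_left₀ hd.le h2 3).trans (h1.le.trans (T.A_hi hz1))
  refine ⟨h3, ?_⟩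
  have h4 := congrArg norm (hode z hz)
  rw [norm_mul, norm_pow, norm_pow, norm_real, Real.norm_eq_abs, abs_of_pos hΛ] at h4
  have h5 := hRlo _ hz1
  set D : ℝ := ‖deriv Φ z‖ with hD
  set η : ℝ := ‖Φ z - ψ₀‖ with hη
  have hD0 : 0 ≤ D := norm_nonneg _
  have hη0 : 0 ≤ η := norm_nonneg _
  have hM := T.hM
  have h6 : D ^ 3 * (c * η ^ j) ≤ Λ ^ 3 := by
    rw [← h4]
    gcongr
  rw [mul_pow, div_mul_eq_mul_div, le_div_iff₀ hc]
  calc D ^ 3 * (Y - |z.im|) ^ 3 * c ≤ D ^ 3 * (M * η ^ (j + 3)) * c := by gcongr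
    _ = (D ^ 3 * (c * η ^ j)) * (M * η ^ 3) := by ring
    _ ≤ Λ ^ 3 * (M * η ^ 3) := by gcongr
    _ = Λ ^ 3 * M * η ^ 3 := by ring

/-- **(L5)** the cusp limit -/
theorem LocA.cusp_lim (T : LocA R Λ ψ₀ j r₀ m M E) {Y R₀ : ℝ} {β : ℂ} (hR₀ : 0 < R₀)
    (hβ : β.im = Y) {Φ : ℂ → ℂ} (dΦ : DifferentiableOn ℂ Φ (Str Y)) (hY : 0 < Y)
    (hA : ∀ x ∈ Str Y, ‖x - β‖ < R₀ → Φ x ∈ ball ψ₀ r₀ ∧ AA ψ₀ j E (Φ x) = (x - β) ^ 3) :
    ∃ C₀ : ℂ, C₀ ≠ 0 ∧ Tendsto (fun x : ℂ => (Φ x - ψ₀) / (I * (x - β)) ^ mu (j + 1))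
      (𝓝[Str Y] β) (𝓝 C₀) := by
  have hm := T.hm
  have hr := T.hr
  -- a root of `E`
  have hE0 : ∀ ξ ∈ ball ψ₀ r₀, E ξ ≠ 0 := by
    intro ξ hξ
    exact norm_pos_iff.1 (lt_of_lt_of_le hm (T.lo ξ hξ))
  obtain ⟨g, dg, hg⟩ := exists_root_convex isOpen_ball (convex_ball ψ₀ r₀) T.dE hE0
    (n := j + 3) (by omega)
  set V : Set ℂ := Str Y ∩ ball β R₀ with hV
  have hVo : IsOpen V := (isOpen_Str Y).inter isOpen_ball
  have hVc : Convex ℝ V := (convex_Str Y).inter (convex_ball β R₀)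
  have hVb : ∀ x ∈ V, Φ x ∈ ball ψ₀ r₀ ∧ AA ψ₀ j E (Φ x) = (x - β) ^ 3 := by
    intro x hx
    exact hA x hx.1 (by simpa [dist_eq_norm] using hx.2)
  -- the right half plane
  have hre : ∀ x ∈ V, 0 < (I * (x - β)).re := by
    intro x hx
    have h1 : |x.im| < Y := hx.1
    have h2 := (abs_lt.1 h1).2
    simp only [mul_re, I_re, I_im, sub_re, sub_im, zero_mul, one_mul]
    rw [hβ]
    linarith
  have hne : ∀ x ∈ V, I * (x - β) ≠ 0 := by
    intro x hx h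
    have := hre x hx
    rw [h] at this
    simp at this
  set N : ℕ := j + 3 with hN
  have hpow : ∀ x ∈ V, ((I * (x - β)) ^ mu (j + 1)) ^ N = (I * (x - β)) ^ 3 := by
    intro x hx
    exact cpow_mu_pow (hne x hx)
  have hp0 : ∀ x ∈ V, (I * (x - β)) ^ mu (j + 1) ≠ 0 := by
    intro x hx h
    have h1 := hpow x hx
    rw [h, zero_pow (by omega)] at h1
    exact pow_ne_zero 3 (hne x hx) h1.symm
  -- the function `χ g(Φ)`
  set F : ℂ → ℂ := fun x => (Φ x - ψ₀) / (I * (x - β)) ^ mu (j + 1) * g (Φ x) with hF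
  have hFN : ∀ x ∈ V, F x ^ N = I := by
    intro x hx
    obtain ⟨h1, h2⟩ := hVb x hx
    have h3 := hne x hx
    have h4 : x - β ≠ 0 := fun h => h3 (by rw [h, mul_zero])
    simp only [hF]
    rw [mul_pow, div_pow, hpow x hx, hg _ h1]
    rw [AA] at h2
    rw [div_mul_eq_mul_div, h2, mul_pow, I_pow_three]
    have h5 : (x - β) ^ 3 ≠ 0 := pow_ne_zero 3 h4
    rw [div_eq_iff (mul_ne_zero (neg_ne_zero.2 I_ne_zero) h5)]
    linear_combination ((x - β) ^ 3) * I_mul_I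
  have hFd : DifferentiableOn ℂ F V := by
    have d1 : DifferentiableOn ℂ Φ V := dΦ.mono inter_subset_left
    have d2 : DifferentiableOn ℂ (fun x => (I * (x - β)) ^ mu (j + 1)) V := by
      intro x hx
      refine DifferentiableWithinAt.cpow_const (by fun_prop) ?_
      left
      exact hre x hx
    have d3 : DifferentiableOn ℂ (fun x => g (Φ x)) V := dg.comp d1 fun x hx => (hVb x hx).1
    exact ((d1.sub_const _).div d2 hp0).mul d3
  -- it is constant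
  have hN0 : (N : ℂ) ≠ 0 := by exact_mod_cast (by omega : N ≠ 0)
  have hF0 : ∀ x ∈ V, HasDerivAt F 0 x := by
    intro x hx
    have h1 := (hFd.differentiableAt (hVo.mem_nhds hx)).hasDerivAt
    have h2 : HasDerivAt (fun x => F x ^ N) ((N : ℂ) * F x ^ (N - 1) * deriv F x) x :=
      (h1.pow N).congr_deriv (by ring)
    have h3 : (fun x => F x ^ N) =ᶠ[𝓝 x] fun _ => I := by
      filter_upwards [hVo.mem_nhds hx] with y hy
      exact hFN y hy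
    have h4 : (N : ℂ) * F x ^ (N - 1) * deriv F x = 0 := by
      rw [← h2.deriv, h3.deriv_eq, deriv_const]
    have hFx : F x ≠ 0 := by
      intro h
      have := hFN x hx
      rw [h, zero_pow (by omega)] at this
      exact I_ne_zero this.symm
    rcases mul_eq_zero.1 h4 with h | h
    · exact absurd h (mul_ne_zero hN0 (pow_ne_zero _ hFx))
    · rwa [h] at h1
  -- a point of `V`
  have hβV : β - I * ((min R₀ Y / 2 : ℝ) : ℂ) ∈ V := by
    have hpos : 0 < min R₀ Y := lt_min hR₀ hY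
    have e1 : min R₀ Y ≤ R₀ := min_le_left _ _
    have e2 : min R₀ Y ≤ Y := min_le_right _ _
    refine ⟨?_, ?_⟩
    · rw [mem_Str, sub_im, mul_im, I_re, I_im, ofReal_re, ofReal_im, hβ, abs_lt]
      constructor <;> linarith
    · rw [mem_ball, dist_eq_norm, sub_sub_cancel_left, norm_neg, norm_mul, norm_I, one_mul,
        norm_real, Real.norm_eq_abs, abs_of_pos (by positivity)]
      linarith
  set x₀ : ℂ := β - I * ((min R₀ Y / 2 : ℝ) : ℂ) with hx₀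
  have hconst : ∀ x ∈ V, F x = F x₀ := fun x hx => const_of_deriv_zero hVo hVc hF0 hx hβV
  have hFx₀ : F x₀ ≠ 0 := by
    intro h
    have := hFN x₀ hβV
    rw [h, zero_pow (by omega)] at this
    exact I_ne_zero this.symm
  have hψb : ψ₀ ∈ ball ψ₀ r₀ := mem_ball_self hr
  have hgne : ∀ ξ ∈ ball ψ₀ r₀, g ξ ≠ 0 := by
    intro ξ hξ h
    have := hg ξ hξ
    rw [h, zero_pow (by omega)] at this
    exact hE0 ξ hξ this.symm
  -- `Φ → ψ₀`
  have hVnh : V ∈ 𝓝[Str Y] β := inter_mem self_mem_nhdsWithin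
    (mem_nhdsWithin_of_mem_nhds (ball_mem_nhds β hR₀))
  have hΦlim : Tendsto Φ (𝓝[Str Y] β) (𝓝 ψ₀) := by
    have h1 : ∀ᶠ x in 𝓝[Str Y] β, m * ‖Φ x - ψ₀‖ ^ N ≤ ‖x - β‖ ^ 3 := by
      filter_upwards [hVnh] with x hx
      have h2 := T.A_lo (hVb x hx).1
      rwa [(hVb x hx).2, norm_pow] at h2
    have h2 : Tendsto (fun x : ℂ => ‖x - β‖ ^ 3 / m) (𝓝[Str Y] β) (𝓝 0) := by
      have h3 : Tendsto (fun x : ℂ => ‖x - β‖ ^ 3 / m) (𝓝 β) (𝓝 (‖β - β‖ ^ 3 / m)) :=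
        Continuous.tendsto (by fun_prop) β
      rw [sub_self, norm_zero, zero_pow (by norm_num), zero_div] at h3
      exact h3.mono_left nhdsWithin_le_nhds
    have h3 : Tendsto (fun x : ℂ => ‖Φ x - ψ₀‖ ^ N) (𝓝[Str Y] β) (𝓝 0) := by
      refine squeeze_zero' (Eventually.of_forall fun x => by positivity) ?_ h2
      filter_upwards [h1] with x hx
      rw [le_div_iff₀ hm]
      linarith
    rw [tendsto_iff_norm_sub_tendsto_zero]
    have h4 : Tendsto (fun x : ℂ => (‖Φ x - ψ₀‖ ^ N) ^ ((N : ℝ)⁻¹)) (𝓝[Str Y] β)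
        (𝓝 ((0 : ℝ) ^ ((N : ℝ)⁻¹))) := by
      refine h3.rpow_const (Or.inr ?_)
      positivity
    rw [Real.zero_rpow (by
      have : (N : ℝ) ≠ 0 := by exact_mod_cast (by omega : N ≠ 0)
      exact inv_ne_zero this)] at h4
    refine h4.congr fun x => ?_
    rw [Real.pow_rpow_inv_natCast (norm_nonneg _) (by omega)]
  have hglim : Tendsto (fun x => g (Φ x)) (𝓝[Str Y] β) (𝓝 (g ψ₀)) :=
    (dg.differentiableAt (isOpen_ball.mem_nhds hψb)).continuousAt.tendsto.comp hΦlim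
  refine ⟨F x₀ / g ψ₀, div_ne_zero hFx₀ (hgne ψ₀ hψb), ?_⟩
  have h5 : Tendsto (fun x => F x₀ / g (Φ x)) (𝓝[Str Y] β) (𝓝 (F x₀ / g ψ₀)) :=
    tendsto_const_nhds.div hglim (hgne ψ₀ hψb)
  refine h5.congr' ?_
  filter_upwards [hVnh] with x hx
  rw [← hconst x hx]
  simp only [hF]
  rw [mul_div_assoc, div_self (hgne _ (hVb x hx).1), mul_one]

end Vale.Agent.P097.H202
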