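import Vale.Agent.P097.H202.T2b

/-! # P097 / TRIG-T2: generating function on the cone -/

set_option linter.all false

open Complex Metric Filter Topology Set
open scoped ComplexConjugate
open Vale.Agent.P097.TA Vale.Agent.P097.H536

namespace Vale.Agent.P097.H202

/-- identity theorem for entire functions -/
theorem entire_eq {f g : ℂ → ℂ} (hf : Differentiable ℂ f) (hg : Differentiable ℂ g) {κ : ℝ}
    (hκ : 0 < κ) (h : ∀ z ∈ Str κ, f z = g z) : f = g := by
  have h0 : (0 : ℂ) ∈ Str κ := by simpa using real_mem_Str hκ 0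
  refine AnalyticOnNhd.eq_of_eventuallyEq (𝕜 := ℂ) (z₀ := 0)
    (hf.differentiableOn.analyticOnNhd isOpen_univ) (hg.differentiableOn.analyticOnNhd isOpen_univ) ?_
  filter_upwards [(isOpen_Str κ).mem_nhds h0] with w hw
  exact h w hw

theorem differentiable_conj_conj {f : ℂ → ℂ} (hf : Differentiable ℂ f) :
    Differentiable ℂ fun z => conj (f (conj z)) := by
  intro z
  have h1 := (hf (conj z)).hasDerivAt
  have h2 := h1.conj_conj
  simp only [conj_conj] at h2
  exact h2.differentiableAt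

theorem t2 : T2 := by
  intro h κ ρ Λ L Hh HH lam Φ l φ ρ' M b H G Φ' Y C T hGen hIs dH dG hHh hGHH S hΦ
  have hκ := T.κ0
  have hρ := T.ρ0
  have hΛ := T.Λ0
  have hY := S.hY
  have hC := S.hC
  have hρ' := hGen.hρ
  have hΛc : (Λ : ℂ) ≠ 0 := by exact_mod_cast hΛ.ne'
  have dG' : Differentiable ℂ G := fun z => (dG z).differentiableAt
  -- symmetries of `H`, `G`
  have Hper : ∀ z, H (z + 2 * Real.pi) = H z := by
    have h1 : (fun z => H (z + 2 * Real.pi)) = H := by
      refine entire_eq (dH.comp (by fun_prop)) dH hκ ?_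
      intro z hz
      have hz' : z + 2 * Real.pi ∈ Str κ := by
        have := add_real_mem_Str hz (2 * Real.pi)
        simpa using this
      rw [hHh _ hz, hHh _ hz', T.Hp z hz]
    exact fun z => congrFun h1 z
  have Hconj : ∀ z, H (conj z) = conj (H z) := by
    have h1 : (fun z => conj (H (conj z))) = H := by
      refine entire_eq (differentiable_conj_conj dH) dH hκ ?_
      intro z hz
      have hz' : conj z ∈ Str κ := by rw [mem_Str, conj_im, abs_neg]; exact hz
      rw [hHh _ hz, hHh _ hz', T.Hc z hz, conj_conj]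
    intro z
    have h2 := congrFun h1 z
    rw [← h2, conj_conj]
  have Gconj : ∀ z, G (conj z) = conj (G z) := by
    have h1 : (fun z => conj (G (conj z))) = G := by
      refine entire_eq (differentiable_conj_conj dG') dG' hκ ?_
      intro z hz
      have hz' : conj z ∈ Str κ := by rw [mem_Str, conj_im, abs_neg]; exact hz
      rw [hGHH _ hz, hGHH _ hz', T.HHc z hz, conj_conj]
    intro z
    have h2 := congrFun h1 z
    rw [← h2, conj_conj]
  obtain ⟨c₀, hc₀⟩ := T.HHp
  have Gper : ∀ z, G (z + 2 * Real.pi) = G z + c₀ := by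
    have h1 : (fun z => G (z + 2 * Real.pi)) = fun z => G z + c₀ := by
      refine entire_eq (dG'.comp (by fun_prop)) (dG'.add_const _) hκ ?_
      intro z hz
      have hz' : z + 2 * Real.pi ∈ Str κ := by
        have := add_real_mem_Str hz (2 * Real.pi)
        simpa using this
      rw [hGHH _ hz, hGHH _ hz', hc₀ z hz]
    exact fun z => congrFun h1 z
  -- constants
  set c₁ : ℝ := min 1 (1 / (2 * C)) with hc₁
  have hc₁0 : 0 < c₁ := by positivity
  have hc₁1 : c₁ ≤ 1 := min_le_left _ _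
  have hc₁C : 2 * c₁ * C ≤ 1 := by
    have h1 : c₁ ≤ 1 / (2 * C) := min_le_right _ _
    rw [le_div_iff₀ (by positivity)] at h1
    linarith
  -- the remainder
  set q : ℂ → ℂ → ℂ := fun m d => 4 / (Λ : ℂ) ^ 3 * F0 H G Φ' (m - d / 2) (m + d / 2) - d ^ 3 / 6
    with hq
  have hqJ : JD q (Cone Y c₁) := by
    have h1 : DifferentiableOn ℂ (fun p : ℂ × ℂ => F0 H G Φ' (p.1 - p.2 / 2) (p.1 + p.2 / 2))
      (Cone Y c₁) := F0_cone_JD dH dG S.dΦ hc₁0 hc₁1
    have h2 : DifferentiableOn ℂ (fun p : ℂ × ℂ => p.2 ^ 3 / 6) (Cone Y c₁) :=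
      Differentiable.differentiableOn (by fun_prop)
    exact (h1.const_mul _).sub h2
  have hqb : ∀ m d : ℂ, (m, d) ∈ Cone Y c₁ → ‖q m d‖ ≤ 129 * ‖d‖ ^ 3 := by
    intro m d hp
    have h1 := F0_cone_bd dH dG S hc₁0 hc₁1 hc₁C (m := m) (d := d) hp
    have h2 : ‖4 / (Λ : ℂ) ^ 3 * F0 H G Φ' (m - d / 2) (m + d / 2)‖ ≤ 128 * ‖d‖ ^ 3 := by
      rw [norm_mul, norm_div, norm_pow, norm_real, Real.norm_eq_abs, abs_of_pos hΛ,
        show ‖(4 : ℂ)‖ = 4 by simp]
      calc 4 / Λ ^ 3 * ‖F0 H G Φ' (m - d / 2) (m + d / 2)‖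
          ≤ 4 / Λ ^ 3 * (32 * Λ ^ 3 * ‖d‖ ^ 3) := by gcongr
        _ = 128 * ‖d‖ ^ 3 := by field_simp; ring
    have h3 : ‖d ^ 3 / 6‖ ≤ ‖d‖ ^ 3 := by
      rw [norm_div, norm_pow, show ‖(6 : ℂ)‖ = 6 by simp]
      have := pow_nonneg (norm_nonneg d) 3
      linarith
    exact (norm_sub_le _ _).trans (by linarith)
  have hqodd : ∀ m d : ℂ, q m (-d) = -q m d := by
    intro m d
    simp only [hq, F0]
    rw [show m - -d / 2 = m + d / 2 by ring, show m + -d / 2 = m - d / 2 by ring,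
      add_comm (Φ' (m + d / 2)) (Φ' (m - d / 2)),
      show (Φ' (m - d / 2) - Φ' (m + d / 2)) / 2 = -((Φ' (m + d / 2) - Φ' (m - d / 2)) / 2) by ring,
      Complex.sin_neg]
    ring
  have hqper : ∀ m d : ℂ, (m, d) ∈ Cone Y c₁ → q (m + 1) d = q m d := by
    intro m d hp
    obtain ⟨-, -, hx, hy⟩ := cone_mem hc₁0 hc₁1 (m := m) (d := d) hp
    simp only [hq, F0]
    rw [show m + 1 - d / 2 = (m - d / 2) + 1 by ring, show m + 1 + d / 2 = (m + d / 2) + 1 by ring,
      S.per _ hx, S.per _ hy, Gper, Gper,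
      show (Φ' (m - d / 2) + 2 * (Real.pi : ℂ) + (Φ' (m + d / 2) + 2 * Real.pi)) / 2
        = (Φ' (m - d / 2) + Φ' (m + d / 2)) / 2 + 2 * Real.pi by ring, Hper,
      show (Φ' (m + d / 2) + 2 * (Real.pi : ℂ) - (Φ' (m - d / 2) + 2 * Real.pi)) / 2
        = (Φ' (m + d / 2) - Φ' (m - d / 2)) / 2 by ring]
    ring
  have hqreal : ∀ m d : ℂ, (m, d) ∈ Cone Y c₁ → q (conj m) (conj d) = conj (q m d) := by
    intro m d hp
    obtain ⟨-, -, hx, hy⟩ := cone_mem hc₁0 hc₁1 (m := m) (d := d) hp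
    have hgr : F0 H G Φ' (conj m - conj d / 2) (conj m + conj d / 2)
        = conj (F0 H G Φ' (m - d / 2) (m + d / 2)) := by
      simp only [F0]
      rw [show conj m - conj d / 2 = conj (m - d / 2) by simp [LD.conj_num.1],
        show conj m + conj d / 2 = conj (m + d / 2) by simp [LD.conj_num.1], S.re _ hx, S.re _ hy,
        Gconj, Gconj,
        show (conj (Φ' (m - d / 2)) + conj (Φ' (m + d / 2))) / 2
          = conj ((Φ' (m - d / 2) + Φ' (m + d / 2)) / 2) by simp [LD.conj_num.1], Hconj,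
        show (conj (Φ' (m + d / 2)) - conj (Φ' (m - d / 2))) / 2
          = conj ((Φ' (m + d / 2) - Φ' (m - d / 2)) / 2) by simp [LD.conj_num.1], Complex.sin_conj]
      simp only [map_sub, map_mul, LD.conj_num.1]
    simp only [hq, hgr, map_sub, map_mul, map_div₀, map_pow, conj_ofReal, LD.conj_num.2.1,
      LD.conj_num.2.2]
  -- comparison near the real axis
  set ε : ℝ := min ρ' (min (Y / 2) (c₁ * Y / 2)) with hε
  have hε0 : 0 < ε := by positivity
  have hε1 : ε ≤ ρ' := min_le_left _ _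
  have hε2 : ε ≤ Y / 2 := (min_le_right _ _).trans (min_le_left _ _)
  have hε3 : ε ≤ c₁ * Y / 2 := (min_le_right _ _).trans (min_le_right _ _)
  have hcone : ∀ m d : ℂ, |m.im| < ε → ‖d‖ < ε → (m, d) ∈ Cone Y c₁ := by
    intro m d hm hd
    have h1 : ‖d‖ < c₁ * (Y - |m.im|) := by nlinarith
    exact h1
  have hqb' : ∀ m d : ℂ, |m.im| < ε → ‖d‖ < ε → q m d = d ^ 5 * b m d := by
    intro m d hm hd
    obtain ⟨-, -, hx, hy⟩ := cone_mem hc₁0 hc₁1 (m := m) (d := d) (hcone m d hm hd)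
    have e1 : (m - d / 2 + (m + d / 2)) / 2 = m := by ring
    have e2 : m + d / 2 - (m - d / 2) = d := by ring
    obtain ⟨hx', hy', h1⟩ := hIs (m - d / 2) (m + d / 2) (by rw [e1]; linarith) (by rw [e2]; linarith)
    have hx2 : m - d / 2 ∈ Str (min ρ Y) := mem_Str.2 (lt_min hx' hx)
    have hy2 : m + d / 2 ∈ Str (min ρ Y) := mem_Str.2 (lt_min hy' hy)
    rw [Fg, e1, e2] at h1
    have h2 : F0 H G Φ' (m - d / 2) (m + d / 2) = F0 Hh HH Φ (m - d / 2) (m + d / 2) := by
      simp only [F0]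
      rw [hΦ _ hx2, hΦ _ hy2, hGHH _ (T.Φm' hx'), hGHH _ (T.Φm' hy'),
        hHh _ (Str_mono (by linarith) (T.mid_mem hx' hy'))]
    simp only [hq]
    rw [h2, ← h1]
    ring
  have hnear : ∀ m d : ℂ, |m.im| < ε → ‖d‖ < ε → ‖q m d‖ ≤ M * ‖d‖ ^ 5 := by
    intro m d hm hd
    rw [hqb' m d hm hd, norm_mul, norm_pow, mul_comm]
    have := hGen.bd m d (by linarith) (by linarith)
    gcongr
  have hM0 : 0 ≤ M := by linarith [hGen.hM]
  obtain ⟨B1, B2, B3, B4⟩ := cone5 hY hc₁0 (by norm_num : (0 : ℝ) ≤ 129) hε0 hM0 hqJ hqb hqodd hnear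
  have hc8 : 0 < c₁ / 8 := by positivity
  have hsub : ∀ m d : ℂ, (m, d) ∈ Cone Y (c₁ / 8) → (m, d) ∈ Cone Y c₁ := by
    intro m d hp
    have hp' : ‖d‖ < c₁ / 8 * (Y - |m.im|) := hp
    have h0 := (cone_mem hc8 (by linarith) (m := m) (d := d) hp).1
    have h1 : ‖d‖ < c₁ * (Y - |m.im|) := by
      have : c₁ / 8 * (Y - |m.im|) ≤ c₁ * (Y - |m.im|) := by
        gcongr
        linarith
      linarith
    exact h1
  -- points of the fibre
  have hfib : ∀ m d : ℂ, (m, d) ∈ Cone Y (c₁ / 8) → |m.im| < Y ∧ 0 < c₁ / 8 * (Y - |m.im|) ∧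
      ‖d‖ < c₁ / 8 * (Y - |m.im|) := by
    intro m d hp
    have h0 := (cone_mem hc8 (by linarith) (m := m) (d := d) hp).1
    exact ⟨by linarith, by positivity, hp⟩
  refine ⟨c₁ / 8, 16 * 129 / c₁ ^ 2, B5 q, by linarith, ?_, ?_, ?_⟩
  · refine ⟨hY, hc8, by positivity, B1, B3, ?_, ?_, ?_⟩
    · -- periodicity
      intro m d hp
      obtain ⟨hm, hr, hd⟩ := hfib m d hp
      have him : (m + 1).im = m.im := by rw [add_im, one_im, add_zero]
      refine (B5_eq (q := q) (m := m + 1) (g := B5 q m) hr (B4 m hm) ?_ d hd)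
      intro d hd0 hd
      have hp : (m, d) ∈ Cone Y (c₁ / 8) := hd
      rw [hqper m d (hsub m d hp)]
      exact B2 m d hp
    · -- evenness
      intro m d hp
      obtain ⟨hm, hr, hd⟩ := hfib m d hp
      have h1 : ∀ d : ℂ, ‖d‖ < c₁ / 8 * (Y - |m.im|) → B5 q m (-d) = B5 q m d := by
        refine eq_of_punct ?_ (B4 m hm) ?_
        · have h1 : ContinuousAt (B5 q m) (-0) := by
            rw [neg_zero]
            exact B4 m hm
          exact h1.comp (continuous_neg.continuousAt)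
        · intro d hd0 hd
          rw [B5_ne q m hd0, B5_ne q m (neg_ne_zero.2 hd0), hqodd]
          have : (-d) ^ 5 = -d ^ 5 := by ring
          rw [this, neg_div_neg_eq]
      exact h1 d hd
    · -- reality
      intro m d hp
      obtain ⟨hm, hr, hd⟩ := hfib m d hp
      have hm' : |(conj m).im| < Y := by simpa using hm
      have h1 : ∀ d : ℂ, ‖d‖ < c₁ / 8 * (Y - |m.im|) →
          B5 q (conj m) (conj d) = conj (B5 q m d) := by
        refine eq_of_punct (f := fun d => B5 q (conj m) (conj d))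
          (g := fun d => conj (B5 q m d)) ?_ ?_ ?_
        · have h1 : ContinuousAt (B5 q (conj m)) (conj 0) := by
            rw [map_zero]
            exact B4 _ hm'
          exact h1.comp (Complex.continuous_conj.continuousAt)
        · exact Complex.continuous_conj.continuousAt.comp (B4 m hm)
        · intro d hd0 hd
          have hp : (m, d) ∈ Cone Y (c₁ / 8) := hd
          have hd0' : conj d ≠ 0 := by simpa using hd0
          rw [B5_ne q m hd0, B5_ne q _ hd0', hqreal m d (hsub m d hp), map_div₀, map_pow]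
      exact h1 d hd
  · -- the formula
    intro x y hp
    have h1 := B2 _ _ hp
    have ex : (x + y) / 2 - (y - x) / 2 = x := by ring
    have ey : (x + y) / 2 + (y - x) / 2 = y := by ring
    simp only [hq] at h1
    rw [ex, ey] at h1
    rw [Fg]
    linear_combination -h1
  · -- comparison
    refine ⟨ε, hε0, ?_⟩
    intro m d hm hd
    refine B5_eq (q := q) (m := m) (g := b m) hε0 ?_ (fun d _ hd => hqb' m d hm hd) d hd
    have hopen := isOpen_box ρ' ρ'
    have h1 : ContinuousAt (fun p : ℂ × ℂ => b p.1 p.2) (m, 0) :=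
      (DifferentiableOn.differentiableAt hGen.hol
        (hopen.mem_nhds ⟨by simp only; linarith, by simpa using hρ'⟩)).continuousAt
    exact h1.comp (f := fun x : ℂ => (m, x)) (by fun_prop)

end Vale.Agent.P097.H202
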