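import Vale.Agent.P097.H536.Defs
import Vale.Agent.P097.H202.Dict

/-! # P097 / TRIG-T2, part 1: third order bound of the generating function on the cone -/

set_option linter.all false

open Complex Metric Filter Topology Set
open scoped ComplexConjugate
open Vale.Agent.P097.TA Vale.Agent.P097.H536

namespace Vale.Agent.P097.H202

theorem norm_one_sub_cos_le {z : ℂ} (hz : ‖z‖ ≤ 2) : ‖1 - Complex.cos z‖ ≤ 2 * ‖z‖ ^ 2 := by
  have h0 : z = 2 * (z / 2) := by ring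
  have h1 : 1 - Complex.cos z = 2 * Complex.sin (z / 2) ^ 2 := by
    have h2 := Complex.cos_two_mul (z / 2)
    rw [← h0] at h2
    have h3 := Complex.sin_sq_add_cos_sq (z / 2)
    rw [h2]
    linear_combination (-2 : ℂ) * h3
  have h4 := norm_sin_le (z := z / 2) (by
    rw [norm_div, show ‖(2 : ℂ)‖ = 2 by simp]
    linarith)
  rw [norm_div, show ‖(2 : ℂ)‖ = 2 by simp] at h4
  rw [h1, norm_mul, norm_pow, show ‖(2 : ℂ)‖ = 2 by simp]
  have h5 : ‖Complex.sin (z / 2)‖ ≤ ‖z‖ := by linarith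
  gcongr

/-- third order bound of the flat generating function -/
theorem flat3 {H G : ℂ → ℂ} (dH : Differentiable ℂ H) (dG : ∀ z, HasDerivAt G (H z) z) {v a : ℂ}
    {S : ℝ} (ha : ‖a‖ ≤ 1)
    (hS : ∀ s : ℂ, ‖s‖ ≤ ‖a‖ → ‖H (v + s) + deriv (deriv H) (v + s)‖ ≤ S) :
    ‖G (v + a) - G (v - a) - 2 * H v * Complex.sin a‖ ≤ 16 * S * ‖a‖ ^ 3 := by
  have d1 : Differentiable ℂ (deriv H) := dH.deriv
  have d2 : Differentiable ℂ (deriv (deriv H)) := d1.deriv
  have hS0 : 0 ≤ S := (norm_nonneg _).trans (hS 0 (by simp))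
  set E : ℂ → ℂ := fun z =>
    (G (v + z) - G (v - z) - 2 * H v * Complex.sin z)
      + Complex.sin (a - z) * (H (v + z) + H (v - z) - 2 * H v * Complex.cos z)
      + (1 - Complex.cos (a - z)) *
        (deriv H (v + z) - deriv H (v - z) + 2 * H v * Complex.sin z) with hE
  have hp : ∀ (f f' : ℂ → ℂ), (∀ z, HasDerivAt f (f' z) z) → ∀ z : ℂ,
      HasDerivAt (fun z => f (v + z)) (f' (v + z)) z := by
    intro f f' hf z
    have h1 := (hf (v + z)).comp z ((hasDerivAt_id z).const_add v)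
    exact h1.congr_deriv (by ring)
  have hm : ∀ (f f' : ℂ → ℂ) (v : ℂ), (∀ z, HasDerivAt f (f' z) z) → ∀ z : ℂ,
      HasDerivAt (fun z => f (v - z)) (-f' (v - z)) z := by
    intro f f' v hf z
    have h1 := (hf (v - z)).comp z ((hasDerivAt_id z).const_sub v)
    exact h1.congr_deriv (by ring)
  have hd : ∀ (f : ℂ → ℂ), Differentiable ℂ f → ∀ z, HasDerivAt f (deriv f z) z :=
    fun f hf z => (hf z).hasDerivAt
  have hder : ∀ z : ℂ, HasDerivAt E ((1 - Complex.cos (a - z)) *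
      ((H (v + z) + deriv (deriv H) (v + z)) + (H (v - z) + deriv (deriv H) (v - z)))) z := by
    intro z
    have a1 := hp _ _ dG z
    have a2 := hm _ _ v dG z
    have a3 := (Complex.hasDerivAt_sin z).const_mul (2 * H v)
    have b1 := hp _ _ (hd _ dH) z
    have b2 := hm _ _ v (hd _ dH) z
    have b3 := (Complex.hasDerivAt_cos z).const_mul (2 * H v)
    have c1 := hp _ _ (hd _ d1) z
    have c2 := hm _ _ v (hd _ d1) z
    have s1 := hm _ _ a Complex.hasDerivAt_sin z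
    have s2 := hm _ _ a Complex.hasDerivAt_cos z
    refine ((((a1.sub a2).sub a3).add (s1.mul ((b1.add b2).sub b3))).add
      ((s2.const_sub 1).mul ((c1.sub c2).add a3))).congr_deriv ?_
    simp only [Pi.add_apply, Pi.sub_apply, Pi.mul_apply]
    ring
  have hmem : ∀ w ∈ closedBall (0 : ℂ) ‖a‖, ‖w‖ ≤ ‖a‖ := by
    intro w hw
    rwa [mem_closedBall, dist_zero_right] at hw
  have h1 := Convex.norm_image_sub_le_of_norm_hasDerivWithin_le (f := E)
    (f' := fun z => (1 - Complex.cos (a - z)) *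
      ((H (v + z) + deriv (deriv H) (v + z)) + (H (v - z) + deriv (deriv H) (v - z))))
    (C := 8 * ‖a‖ ^ 2 * (S + S)) (s := closedBall (0 : ℂ) ‖a‖) (x := 0) (y := a)
    (fun w _ => (hder w).hasDerivWithinAt)
    (fun w hw => by
      have hw' := hmem w hw
      have e1 : ‖a - w‖ ≤ 2 * ‖a‖ := (norm_sub_le _ _).trans (by linarith)
      have e2 := norm_one_sub_cos_le (z := a - w) (by linarith)
      have e3 : 2 * ‖a - w‖ ^ 2 ≤ 8 * ‖a‖ ^ 2 := by
        have := pow_le_pow_left₀ (norm_nonneg _) e1 2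
        nlinarith
      have e4 := hS w hw'
      have e5 := hS (-w) (by rwa [norm_neg])
      rw [← sub_eq_add_neg] at e5
      rw [norm_mul]
      refine mul_le_mul (e2.trans e3) ((norm_add_le _ _).trans (add_le_add e4 e5)) (norm_nonneg _)
        (by positivity))
    (convex_closedBall _ _) (mem_closedBall_self (norm_nonneg _))
    (by rw [mem_closedBall, dist_zero_right])
  have h2 : E a = G (v + a) - G (v - a) - 2 * H v * Complex.sin a := by
    simp [hE]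
  have h3 : E 0 = 0 := by
    simp only [hE, add_zero, sub_zero, sub_self, Complex.sin_zero, mul_zero, Complex.cos_zero,
      mul_one, zero_add, add_zero]
    ring
  rw [h2, h3, sub_zero, sub_zero] at h1
  refine h1.trans (le_of_eq (by ring))

variable {H G Φ : ℂ → ℂ} {Λ Y C : ℝ}

theorem cone_mem {Y c : ℝ} (hc : 0 < c) (hc1 : c ≤ 1) {m d : ℂ} (h : ‖d‖ < c * (Y - |m.im|)) :
    0 < Y - |m.im| ∧ m ∈ Str Y ∧ m - d / 2 ∈ Str Y ∧ m + d / 2 ∈ Str Y := by
  have h0 : 0 < Y - |m.im| := by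
    have h1 := lt_of_le_of_lt (norm_nonneg _) h
    by_contra h2
    push Not at h2
    nlinarith
  have h1 : ‖d‖ ≤ Y - |m.im| := h.le.trans (by nlinarith)
  have h2 : ‖d / 2‖ ≤ (Y - |m.im|) / 2 := by
    rw [norm_div, show ‖(2 : ℂ)‖ = 2 by simp]
    linarith
  have h3 := abs_im_le_norm (d / 2)
  refine ⟨h0, by rw [mem_Str]; linarith, ?_, ?_⟩
  · rw [mem_Str, sub_im]
    have := abs_sub m.im (d / 2).im
    linarith
  · rw [mem_Str, add_im]
    have := abs_add_le m.im (d / 2).im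
    linarith

/-- third order bound of the generating function on the cone -/
theorem F0_cone_bd (dH : Differentiable ℂ H) (dG : ∀ z, HasDerivAt G (H z) z)
    (S : StripΦ (fun z => H z + deriv (deriv H) z) Λ Y C Φ) {c : ℝ} (hc : 0 < c) (hc1 : c ≤ 1)
    (hcC : 2 * c * C ≤ 1) {m d : ℂ} (h : ‖d‖ < c * (Y - |m.im|)) :
    ‖F0 H G Φ (m - d / 2) (m + d / 2)‖ ≤ 32 * Λ ^ 3 * ‖d‖ ^ 3 := by
  obtain ⟨h0, hm, hx, hy⟩ := cone_mem hc hc1 h
  have hC := S.hC
  have hΛ := S.hΛ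
  have hd2 : ‖d / 2‖ = ‖d‖ / 2 := by rw [norm_div, show ‖(2 : ℂ)‖ = 2 by simp]
  have hdC : 2 * ‖d‖ * C ≤ Y - |m.im| := by
    have h1 : 2 * ‖d‖ * C ≤ 2 * (c * (Y - |m.im|)) * C := by gcongr
    have h2 : 2 * (c * (Y - |m.im|)) * C = (2 * c * C) * (Y - |m.im|) := by ring
    nlinarith
  set D : ℝ := ‖deriv Φ m‖ with hD
  have hD0 : 0 ≤ D := norm_nonneg _
  have hdn := norm_nonneg d
  have g1 : D * (Y - |m.im|) ≤ C := S.geo1 m hm
  have gx : ‖Φ (m - d / 2) - Φ m‖ ≤ D * ‖d‖ := by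
    have h1 := S.geo3 m hm (m - d / 2) (by
      rw [show m - d / 2 - m = -(d / 2) by ring, norm_neg, hd2]
      nlinarith)
    rw [show m - d / 2 - m = -(d / 2) by ring, norm_neg, hd2] at h1
    refine h1.trans (le_of_eq (by ring))
  have gy : ‖Φ (m + d / 2) - Φ m‖ ≤ D * ‖d‖ := by
    have h1 := S.geo3 m hm (m + d / 2) (by
      rw [show m + d / 2 - m = d / 2 by ring, hd2]
      nlinarith)
    rw [show m + d / 2 - m = d / 2 by ring, hd2] at h1
    refine h1.trans (le_of_eq (by ring))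
  set v : ℂ := (Φ (m - d / 2) + Φ (m + d / 2)) / 2 with hv
  set a : ℂ := (Φ (m + d / 2) - Φ (m - d / 2)) / 2 with ha
  have hva : ‖a‖ ≤ D * ‖d‖ := by
    have e : a = ((Φ (m + d / 2) - Φ m) - (Φ (m - d / 2) - Φ m)) / 2 := by rw [ha]; ring
    rw [e, norm_div, show ‖(2 : ℂ)‖ = 2 by simp]
    have := norm_sub_le (Φ (m + d / 2) - Φ m) (Φ (m - d / 2) - Φ m)
    linarith
  have hvm : ‖v - Φ m‖ ≤ D * ‖d‖ := by
    have e : v - Φ m = ((Φ (m + d / 2) - Φ m) + (Φ (m - d / 2) - Φ m)) / 2 := by rw [hv]; ring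
    rw [e, norm_div, show ‖(2 : ℂ)‖ = 2 by simp]
    have := norm_add_le (Φ (m + d / 2) - Φ m) (Φ (m - d / 2) - Φ m)
    linarith
  have ha1 : ‖a‖ ≤ 1 := by
    have h1 : D * ‖d‖ ≤ D * (c * (Y - |m.im|)) := by gcongr
    have h2 : D * (c * (Y - |m.im|)) = c * (D * (Y - |m.im|)) := by ring
    have h3 : c * (D * (Y - |m.im|)) ≤ c * C := by gcongr
    linarith
  have hS : ∀ s : ℂ, ‖s‖ ≤ ‖a‖ → ‖H (v + s) + deriv (deriv H) (v + s)‖
      ≤ 2 * ‖H (Φ m) + deriv (deriv H) (Φ m)‖ := by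
    intro s hs
    refine S.geo2 m hm (v + s) ?_
    have h1 : ‖v + s - Φ m‖ ≤ 2 * (D * ‖d‖) := by
      rw [show v + s - Φ m = (v - Φ m) + s by ring]
      refine (norm_add_le _ _).trans ?_
      linarith
    calc ‖v + s - Φ m‖ * C ≤ 2 * (D * ‖d‖) * C := by gcongr
      _ = D * (2 * ‖d‖ * C) := by ring
      _ ≤ D * (Y - |m.im|) := by gcongr
  have h4 := flat3 dH dG ha1 hS
  have e1 : v + a = Φ (m + d / 2) := by rw [hv, ha]; ring
  have e2 : v - a = Φ (m - d / 2) := by rw [hv, ha]; ring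
  rw [e1, e2] at h4
  have hode := S.ode m hm
  have h5 : D ^ 3 * ‖H (Φ m) + deriv (deriv H) (Φ m)‖ = Λ ^ 3 := by
    have h6 := congrArg norm hode
    rw [norm_mul, norm_pow, norm_pow, norm_real, Real.norm_eq_abs, abs_of_pos hΛ] at h6
    exact h6
  have e3 : F0 H G Φ (m - d / 2) (m + d / 2)
      = G (Φ (m + d / 2)) - G (Φ (m - d / 2)) - 2 * H v * Complex.sin a := rfl
  rw [e3]
  refine h4.trans ?_
  have h7 : ‖a‖ ^ 3 ≤ (D * ‖d‖) ^ 3 := pow_le_pow_left₀ (norm_nonneg _) hva 3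
  calc 16 * (2 * ‖H (Φ m) + deriv (deriv H) (Φ m)‖) * ‖a‖ ^ 3
      ≤ 16 * (2 * ‖H (Φ m) + deriv (deriv H) (Φ m)‖) * (D * ‖d‖) ^ 3 := by gcongr
    _ = 32 * (D ^ 3 * ‖H (Φ m) + deriv (deriv H) (Φ m)‖) * ‖d‖ ^ 3 := by ring
    _ = 32 * Λ ^ 3 * ‖d‖ ^ 3 := by rw [h5]

/-- joint holomorphy on the cone -/
theorem F0_cone_JD (dH : Differentiable ℂ H) (dG : ∀ z, HasDerivAt G (H z) z)
    (dΦ : DifferentiableOn ℂ Φ (Str Y)) {c : ℝ} (hc : 0 < c) (hc1 : c ≤ 1) :
    JD (fun m d => F0 H G Φ (m - d / 2) (m + d / 2)) (Cone Y c) := by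
  have dG' : Differentiable ℂ G := fun z => (dG z).differentiableAt
  have hy : ∀ p ∈ Cone Y c, p.1 + p.2 / 2 ∈ Str Y := fun p hp => (cone_mem hc hc1 hp).2.2.2
  have hx : ∀ p ∈ Cone Y c, p.1 - p.2 / 2 ∈ Str Y := fun p hp => (cone_mem hc hc1 hp).2.2.1
  have dy : DifferentiableOn ℂ (fun p : ℂ × ℂ => Φ (p.1 + p.2 / 2)) (Cone Y c) :=
    dΦ.comp (f := fun p : ℂ × ℂ => p.1 + p.2 / 2)
      (Differentiable.differentiableOn (by fun_prop)) hy
  have dx : DifferentiableOn ℂ (fun p : ℂ × ℂ => Φ (p.1 - p.2 / 2)) (Cone Y c) :=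
    dΦ.comp (f := fun p : ℂ × ℂ => p.1 - p.2 / 2)
      (Differentiable.differentiableOn (by fun_prop)) hx
  have d1 : DifferentiableOn ℂ (fun p : ℂ × ℂ => G (Φ (p.1 + p.2 / 2))) (Cone Y c) :=
    dG'.comp_differentiableOn dy
  have d2 : DifferentiableOn ℂ (fun p : ℂ × ℂ => G (Φ (p.1 - p.2 / 2))) (Cone Y c) :=
    dG'.comp_differentiableOn dx
  have d3 : DifferentiableOn ℂ
      (fun p : ℂ × ℂ => (Φ (p.1 - p.2 / 2) + Φ (p.1 + p.2 / 2)) / 2) (Cone Y c) := by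
    simp only [div_eq_mul_inv] at *
    exact (dx.add dy).mul_const _
  have d4 : DifferentiableOn ℂ
      (fun p : ℂ × ℂ => (Φ (p.1 + p.2 / 2) - Φ (p.1 - p.2 / 2)) / 2) (Cone Y c) := by
    simp only [div_eq_mul_inv] at *
    exact (dy.sub dx).mul_const _
  have d5 : DifferentiableOn ℂ
      (fun p : ℂ × ℂ => H ((Φ (p.1 - p.2 / 2) + Φ (p.1 + p.2 / 2)) / 2)) (Cone Y c) :=
    dH.comp_differentiableOn d3
  have d6 : DifferentiableOn ℂ
      (fun p : ℂ × ℂ => Complex.sin ((Φ (p.1 + p.2 / 2) - Φ (p.1 - p.2 / 2)) / 2)) (Cone Y c) :=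
    Complex.differentiable_sin.comp_differentiableOn d4
  exact (d1.sub d2).sub ((d5.const_mul 2).mul d6)

end Vale.Agent.P097.H202
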