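import Vale.Agent.P097.H202.T2a

/-! # P097 / TRIG-T2, part 2: fifth order bound, extension of the fifth order part to the cone -/

set_option linter.all false

open Complex Metric Filter Topology Set
open scoped ComplexConjugate
open Vale.Agent.P097.TA Vale.Agent.P097.H536

namespace Vale.Agent.P097.H202

/-- an even function vanishing at the centre vanishes to second order -/
theorem schwarz_even {f : ℂ → ℂ} {r K : ℝ} (hr : 0 < r) (hd : DifferentiableOn ℂ f (ball 0 r))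
    (hb : ∀ z : ℂ, ‖z‖ < r → ‖f z‖ ≤ K) (h0 : f 0 = 0)
    (hev : ∀ z : ℂ, ‖z‖ < r → f (-z) = f z) {z : ℂ} (hz : ‖z‖ < r) :
    ‖f z‖ ≤ K * (‖z‖ / r) ^ 2 := by
  have hda : HasDerivAt f (deriv f 0) 0 :=
    (hd.differentiableAt (ball_mem_nhds 0 hr)).hasDerivAt
  have h1 : HasDerivAt (fun z => f (-z)) (-deriv f 0) 0 := by
    have h2 : HasDerivAt f (deriv f 0) (-0) := by rw [neg_zero]; exact hda
    have h3 := h2.comp (0 : ℂ) (hasDerivAt_neg (0 : ℂ))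
    exact h3.congr_deriv (by ring)
  have h4 : (fun z => f (-z)) =ᶠ[𝓝 0] f := by
    filter_upwards [ball_mem_nhds (0 : ℂ) hr] with w hw
    exact hev w (by simpa using hw)
  have h5 : HasDerivAt f (-deriv f 0) 0 := h1.congr_of_eventuallyEq h4.symm
  have h6 : deriv f 0 = 0 := by
    have h7 := hda.unique h5
    linear_combination (1 / 2 : ℂ) * h7
  rw [h6] at hda
  have h8 := hasDerivAt_iff_isLittleO.1 hda
  simp only [smul_zero, sub_zero] at h8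
  have h9 := Complex.dist_le_mul_div_pow_of_mapsTo_ball_of_isLittleO (f := f) (c := 0) (R₁ := r)
    (R₂ := K) (n := 1) (z := z) hd (by
      intro w hw
      rw [h0, mem_closedBall, dist_zero_right]
      exact hb w (by simpa using hw)) (by
      simp only [h0, sub_zero, pow_one] at h8 ⊢
      exact h8.norm_right) (by simpa using hz)
  simpa [h0] using h9

/-- fifth order bound on boxes -/
theorem box5 {q : ℂ → ℂ → ℂ} {κ r K ε M : ℝ} (hκ : 0 < κ) (hr : 0 < r) (hK : 0 ≤ K) (hε : 0 < ε)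
    (hM : 0 ≤ M) (hq : JD q {p | |p.1.im| < κ ∧ ‖p.2‖ < r})
    (hb : ∀ m d : ℂ, |m.im| < κ → ‖d‖ < r → ‖q m d‖ ≤ K * ‖d‖ ^ 3)
    (hodd : ∀ m d : ℂ, q m (-d) = -q m d)
    (hnear : ∀ m d : ℂ, |m.im| < ε → ‖d‖ < ε → ‖q m d‖ ≤ M * ‖d‖ ^ 5) :
    ∀ m d : ℂ, |m.im| < κ → ‖d‖ < r / 2 → ‖q m d‖ ≤ 4 * K / r ^ 2 * ‖d‖ ^ 5 := by
  obtain ⟨b₁, hJ, heq, hbd, hct⟩ := div_pow_JD 2 hr hK hq hb
  have hne : ∀ {d : ℂ}, d ≠ 0 → d ^ (2 + 1) ≠ 0 := fun hd => pow_ne_zero _ hd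
  have hr2 : 0 < r / 2 := by positivity
  -- evenness
  have hev : ∀ m : ℂ, |m.im| < κ → ∀ d : ℂ, ‖d‖ < r / 2 → b₁ m (-d) = b₁ m d := by
    intro m hm
    refine eq_of_punct (R := r / 2) (f := fun d => b₁ m (-d)) (g := b₁ m) ?_ (hct m hm) ?_
    · have h1 : ContinuousAt (b₁ m) (-0) := by
        rw [neg_zero]
        exact hct m hm
      exact h1.comp (continuous_neg.continuousAt)
    · intro d hd0 hd
      have h1 := heq m (-d) hm (by rwa [norm_neg])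
      rw [hodd, heq m d hm hd] at h1
      refine mul_left_cancel₀ (hne hd0) ?_
      have h3 : (-d) ^ (2 + 1) = -d ^ (2 + 1) := by ring
      rw [h3] at h1
      linear_combination h1
  -- vanishing near the real axis
  have hz : ∀ m : ℂ, |m.im| < κ → |m.im| < ε → b₁ m 0 = 0 := by
    intro m hm hmε
    have h1 : ∀ d : ℂ, d ≠ 0 → ‖d‖ < min (r / 2) ε → ‖b₁ m d‖ ≤ M * ‖d‖ ^ 2 := by
      intro d hd0 hd
      have hd1 : ‖d‖ < r / 2 := lt_of_lt_of_le hd (min_le_left _ _)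
      have hd2 : ‖d‖ < ε := lt_of_lt_of_le hd (min_le_right _ _)
      have h2 := hnear m d hmε hd2
      rw [heq m d hm hd1, norm_mul, norm_pow] at h2
      have h3 : 0 < ‖d‖ ^ (2 + 1) := pow_pos (norm_pos_iff.2 hd0) _
      refine le_of_mul_le_mul_left ?_ h3
      refine h2.trans (le_of_eq (by ring))
    have h2 : Tendsto (fun d : ℂ => M * ‖d‖ ^ 2) (𝓝[≠] 0) (𝓝 0) := by
      have h3 : Tendsto (fun d : ℂ => M * ‖d‖ ^ 2) (𝓝 0) (𝓝 (M * ‖(0 : ℂ)‖ ^ 2)) :=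
        Continuous.tendsto (by fun_prop) 0
      rw [norm_zero, zero_pow two_ne_zero, mul_zero] at h3
      exact h3.mono_left nhdsWithin_le_nhds
    have h3 : Tendsto (b₁ m) (𝓝[≠] 0) (𝓝 0) := by
      refine squeeze_zero_norm' ?_ h2
      filter_upwards [self_mem_nhdsWithin, nhdsWithin_le_nhds (ball_mem_nhds (0 : ℂ)
        (lt_min hr2 hε))] with w hw hw'
      exact h1 w hw (by simpa using hw')
    exact tendsto_nhds_unique ((hct m hm).mono_left nhdsWithin_le_nhds) h3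
  -- identity theorem
  have hz' : ∀ m : ℂ, |m.im| < κ → b₁ m 0 = 0 := by
    have hd : DifferentiableOn ℂ (fun m => b₁ m 0) (Str κ) := by
      have hJ' : DifferentiableOn ℂ (fun p : ℂ × ℂ => b₁ p.1 p.2)
        {p | |p.1.im| < κ ∧ ‖p.2‖ < r / 2} := hJ
      refine hJ'.comp (f := fun m : ℂ => (m, (0 : ℂ))) (by fun_prop) ?_
      intro m hm
      exact ⟨hm, by simpa using hr⟩
    have ha := hd.analyticOnNhd (isOpen_Str κ)
    have h0 : (0 : ℂ) ∈ Str κ := by simpa using real_mem_Str hκ 0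
    have h0' : (0 : ℂ) ∈ Str ε := by simpa using real_mem_Str hε 0
    have hE : (fun m => b₁ m 0) =ᶠ[𝓝 0] 0 := by
      filter_upwards [(isOpen_Str κ).mem_nhds h0, (isOpen_Str ε).mem_nhds h0'] with w hw hw'
      exact hz w hw hw'
    intro m hm
    exact ha.eqOn_zero_of_preconnected_of_eventuallyEq_zero
      (convex_Str κ).isPreconnected h0 hE hm
  intro m d hm hd
  have hfd : DifferentiableOn ℂ (b₁ m) (ball 0 (r / 2)) := by
    have hJ' : DifferentiableOn ℂ (fun p : ℂ × ℂ => b₁ p.1 p.2)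
      {p | |p.1.im| < κ ∧ ‖p.2‖ < r / 2} := hJ
    refine hJ'.comp (f := fun d : ℂ => (m, d)) (by fun_prop) ?_
    intro d hd
    exact ⟨hm, by simpa using hd⟩
  have h1 := schwarz_even hr2 hfd (fun z hz => hbd m z hm hz) (hz' m hm) (hev m hm) hd
  rw [heq m d hm hd, norm_mul, norm_pow]
  have h2 : ‖d‖ ^ (2 + 1) * ‖b₁ m d‖ ≤ ‖d‖ ^ (2 + 1) * (K * (‖d‖ / (r / 2)) ^ 2) := by gcongr
  refine h2.trans (le_of_eq ?_)
  field_simp
  ring

/-- value of the fifth order part: `q / d⁵`, with the limit at `d = 0` -/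
noncomputable def B5 (q : ℂ → ℂ → ℂ) (m : ℂ) : ℂ → ℂ :=
  Function.update (fun d => q m d / d ^ 5) 0 (limUnder (𝓝[≠] 0) fun d => q m d / d ^ 5)

theorem B5_ne (q : ℂ → ℂ → ℂ) (m : ℂ) {d : ℂ} (hd : d ≠ 0) : B5 q m d = q m d / d ^ 5 := by
  rw [B5, Function.update_of_ne hd]

/-- `B5` agrees with any continuous quotient -/
theorem B5_eq {q : ℂ → ℂ → ℂ} {m : ℂ} {g : ℂ → ℂ} {r : ℝ} (hr : 0 < r) (hg : ContinuousAt g 0)
    (h : ∀ d : ℂ, d ≠ 0 → ‖d‖ < r → q m d = d ^ 5 * g d) : ∀ d : ℂ, ‖d‖ < r → B5 q m d = g d := by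
  have h1 : ∀ d : ℂ, d ≠ 0 → ‖d‖ < r → q m d / d ^ 5 = g d := by
    intro d hd0 hd
    rw [h d hd0 hd, mul_div_cancel_left₀ _ (pow_ne_zero _ hd0)]
  intro d hd
  rcases eq_or_ne d 0 with rfl | hd0
  · rw [B5, Function.update_self]
    refine Tendsto.limUnder_eq ?_
    refine (hg.mono_left nhdsWithin_le_nhds).congr' ?_
    filter_upwards [self_mem_nhdsWithin, nhdsWithin_le_nhds (ball_mem_nhds (0 : ℂ) hr)] with w hw hw'
    exact (h1 w hw (by simpa using hw')).symm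
  · rw [B5_ne q m hd0, h1 d hd0 hd]

/-- extension of the fifth order part to the cone -/
theorem cone5 {q : ℂ → ℂ → ℂ} {Y c K ε M : ℝ} (hY : 0 < Y) (hc : 0 < c) (hK : 0 ≤ K) (hε : 0 < ε)
    (hM : 0 ≤ M) (hq : JD q (Cone Y c))
    (hb : ∀ m d : ℂ, (m, d) ∈ Cone Y c → ‖q m d‖ ≤ K * ‖d‖ ^ 3)
    (hodd : ∀ m d : ℂ, q m (-d) = -q m d)
    (hnear : ∀ m d : ℂ, |m.im| < ε → ‖d‖ < ε → ‖q m d‖ ≤ M * ‖d‖ ^ 5) :
    JD (B5 q) (Cone Y (c / 8)) ∧
    (∀ m d : ℂ, (m, d) ∈ Cone Y (c / 8) → q m d = d ^ 5 * B5 q m d) ∧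
    (∀ m d : ℂ, (m, d) ∈ Cone Y (c / 8) → ‖B5 q m d‖ * (Y - |m.im|) ^ 2 ≤ 16 * K / c ^ 2) ∧
    (∀ m : ℂ, |m.im| < Y → ContinuousAt (B5 q m) 0) := by
  have key : ∀ Y' : ℝ, 0 < Y' → Y' < Y → ∃ b : ℂ → ℂ → ℂ,
      JD b {p | |p.1.im| < Y' ∧ ‖p.2‖ < c * (Y - Y') / 4} ∧
      (∀ m d : ℂ, |m.im| < Y' → ‖d‖ < c * (Y - Y') / 4 → q m d = d ^ 5 * B5 q m d) ∧
      (∀ m d : ℂ, |m.im| < Y' → ‖d‖ < c * (Y - Y') / 4 →
        ‖b m d‖ ≤ 4 * K / (c * (Y - Y')) ^ 2) ∧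
      (∀ m : ℂ, |m.im| < Y' → ContinuousAt (b m) 0) ∧
      (∀ m d : ℂ, |m.im| < Y' → ‖d‖ < c * (Y - Y') / 4 → B5 q m d = b m d) := by
    intro Y' hY'0 hY'
    have hr : 0 < c * (Y - Y') := mul_pos hc (by linarith)
    have hsub : {p : ℂ × ℂ | |p.1.im| < Y' ∧ ‖p.2‖ < c * (Y - Y')} ⊆ Cone Y c := by
      intro p hp
      have h1 := hp.1
      have h2 := hp.2
      have h3 : c * (Y - Y') ≤ c * (Y - |p.1.im|) := by gcongr
      exact lt_of_lt_of_le h2 h3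
    have h5 := box5 hY'0 hr hK hε hM (DifferentiableOn.mono hq hsub)
      (fun m d hm hd => hb m d (hsub (a := (m, d)) ⟨hm, hd⟩)) hodd hnear
    have hq2 : JD q {p | |p.1.im| < Y' ∧ ‖p.2‖ < c * (Y - Y') / 2} := by
      refine DifferentiableOn.mono hq (Subset.trans ?_ hsub)
      intro p hp
      exact ⟨hp.1, lt_trans hp.2 (half_lt_self hr)⟩
    obtain ⟨b, h1, h2, h3, h4⟩ := div_pow_JD 4 (half_pos hr) (by positivity) hq2 h5
    have e4 : c * (Y - Y') / 2 / 2 = c * (Y - Y') / 4 := by ring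
    rw [e4] at h1 h2 h3
    have h6 : ∀ m d : ℂ, |m.im| < Y' → ‖d‖ < c * (Y - Y') / 4 → B5 q m d = b m d := by
      intro m d hm hd
      exact B5_eq (by positivity) (h4 m hm) (fun d _ hd => h2 m d hm hd) d hd
    refine ⟨b, h1, ?_, h3, h4, h6⟩
    intro m d hm hd
    rw [h6 m d hm hd]
    exact h2 m d hm hd
  have hcone : ∀ m d : ℂ, (m, d) ∈ Cone Y (c / 8) → 0 < Y - |m.im| ∧
      |m.im| < (|m.im| + Y) / 2 ∧ (|m.im| + Y) / 2 < Y ∧ 0 < (|m.im| + Y) / 2 ∧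
      ‖d‖ < c * (Y - (|m.im| + Y) / 2) / 4 := by
    intro m d h
    have h' : ‖d‖ < c / 8 * (Y - |m.im|) := h
    have h0 : 0 < Y - |m.im| := by
      have h1 := lt_of_le_of_lt (norm_nonneg _) h'
      by_contra h2
      push Not at h2
      nlinarith
    have h1 := abs_nonneg m.im
    refine ⟨h0, by linarith, by linarith, by linarith, ?_⟩
    have e : c * (Y - (|m.im| + Y) / 2) / 4 = c / 8 * (Y - |m.im|) := by ring
    rw [e]
    exact h'
  refine ⟨?_, ?_, ?_, ?_⟩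
  · rintro ⟨m, d⟩ hp
    apply DifferentiableAt.differentiableWithinAt
    obtain ⟨h0, h1, h2, h3, h4⟩ := hcone m d hp
    obtain ⟨b, g1, g2, g3, g4, g5⟩ := key _ h3 h2
    have hopen := isOpen_box ((|m.im| + Y) / 2) (c * (Y - (|m.im| + Y) / 2) / 4)
    have hmem : ((m, d) : ℂ × ℂ) ∈ {p : ℂ × ℂ | |p.1.im| < (|m.im| + Y) / 2 ∧
        ‖p.2‖ < c * (Y - (|m.im| + Y) / 2) / 4} := ⟨h1, h4⟩
    have hd := DifferentiableOn.differentiableAt g1 (hopen.mem_nhds hmem)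
    refine hd.congr_of_eventuallyEq ?_
    filter_upwards [hopen.mem_nhds hmem] with p hp
    exact g5 p.1 p.2 hp.1 hp.2
  · intro m d hp
    obtain ⟨h0, h1, h2, h3, h4⟩ := hcone m d hp
    obtain ⟨b, g1, g2, g3, g4, g5⟩ := key _ h3 h2
    exact g2 m d h1 h4
  · intro m d hp
    obtain ⟨h0, h1, h2, h3, h4⟩ := hcone m d hp
    obtain ⟨b, g1, g2, g3, g4, g5⟩ := key _ h3 h2
    rw [g5 m d h1 h4]
    have h6 := g3 m d h1 h4
    have e : c * (Y - (|m.im| + Y) / 2) = c * (Y - |m.im|) / 2 := by ring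
    rw [e] at h6
    have h7 : ‖b m d‖ * (Y - |m.im|) ^ 2 ≤ 4 * K / (c * (Y - |m.im|) / 2) ^ 2 * (Y - |m.im|) ^ 2 := by
      gcongr
    refine h7.trans (le_of_eq ?_)
    field_simp
    ring
  · intro m hm
    have h1 : |m.im| < (|m.im| + Y) / 2 := by linarith
    have h2 : (|m.im| + Y) / 2 < Y := by linarith
    have h3 : 0 < (|m.im| + Y) / 2 := by have := abs_nonneg m.im; linarith
    obtain ⟨b, g1, g2, g3, g4, g5⟩ := key _ h3 h2
    refine (g4 m h1).congr ?_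
    have hr : 0 < c * (Y - (|m.im| + Y) / 2) / 4 := by
      have : 0 < Y - (|m.im| + Y) / 2 := by linarith
      positivity
    filter_upwards [ball_mem_nhds (0 : ℂ) hr] with w hw
    exact (g5 m w h1 (by simpa using hw)).symm

end Vale.Agent.P097.H202
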